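import Mathlib

/-!
Arc length reparametrisation of a periodic positive speed function.
-/

open Real MeasureTheory intervalIntegral
open scoped ContDiff

namespace Vale.Agent.Lib.P205

/-- Properties of the primitive of a smooth positive periodic function, and of its inverse. -/
theorem exists_arcLength_inverse (v : ℝ → ℝ) (hv : ContDiff ℝ ∞ v) (hpos : ∀ t, 0 < v t)
    (hper : ∀ t, v (t + 1) = v t) (T : ℝ) (hT : ∫ t in (0:ℝ)..1, v t = T) :
    ∃ φ : ℝ → ℝ, ContDiff ℝ ∞ φ ∧ (∀ t, HasDerivAt φ (1 / v (φ t)) t) ∧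
      ∀ t, φ (t + T) = φ t + 1 := by
  have hTpos : 0 < T := by
    rw [← hT]
    exact intervalIntegral.intervalIntegral_pos_of_pos (hv.continuous.intervalIntegrable _ _) hpos
      one_pos
  set L : ℝ → ℝ := fun τ => ∫ t in (0:ℝ)..τ, v t with hL
  have hLd : ∀ τ, HasDerivAt L (v τ) τ := fun τ =>
    intervalIntegral.integral_hasDerivAt_right (hv.continuous.intervalIntegrable _ _)
      (hv.continuous.stronglyMeasurableAtFilter _ _) hv.continuous.continuousAt
  have hLcd : ContDiff ℝ ∞ L := by
    rw [contDiff_infty_iff_deriv]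
    refine ⟨fun τ => (hLd τ).differentiableAt, ?_⟩
    have : deriv L = v := funext fun τ => (hLd τ).deriv
    rw [this]; exact hv
  have hLmono : StrictMono L := strictMono_of_deriv_pos fun τ => by
    rw [(hLd τ).deriv]; exact hpos τ
  have hLper : ∀ τ, L (τ + 1) = L τ + T := by
    intro τ
    have h : ∀ τ, HasDerivAt (fun τ => L (τ + 1) - L τ) 0 τ := by
      intro τ
      have h1 : HasDerivAt (fun τ => L (τ + 1)) (v (τ + 1)) τ :=
        (hLd (τ + 1)).comp_add_const τ 1
      have := h1.sub (hLd τ)
      rw [hper τ, sub_self] at this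
      exact this
    have hc := is_const_of_deriv_eq_zero (fun τ => (h τ).differentiableAt)
      (fun τ => (h τ).deriv) τ 0
    have h0 : L 1 - L 0 = T := by simp [hL, hT]
    simp only [zero_add] at hc
    linarith
  have hLnat : ∀ (n : ℕ) τ, L (τ + n) = L τ + n * T := by
    intro n
    induction n with
    | zero => intro τ; simp
    | succ n ih =>
      intro τ
      have : τ + ((n + 1 : ℕ) : ℝ) = (τ + n) + 1 := by push_cast; ring
      rw [this, hLper, ih]; push_cast; ring
  have hLsurj : Function.Surjective L := by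
    intro c
    have hL0 : L 0 = 0 := by simp [hL]
    obtain ⟨n, hn⟩ := exists_nat_gt (|c| / T)
    have hn' : |c| < n * T := by
      rwa [div_lt_iff₀ hTpos] at hn
    have h1 : L (0 + n) = n * T := by rw [hLnat, hL0]; ring
    have h2 : L (-(n:ℝ)) = - (n * T) := by
      have := hLnat n (-(n:ℝ))
      rw [neg_add_cancel, hL0] at this
      linarith
    have hca := abs_lt.mp hn'
    exact mem_range_of_exists_le_of_exists_ge hLcd.continuous
      ⟨-(n:ℝ), by rw [h2]; linarith [hca.1]⟩ ⟨0 + n, by rw [h1]; linarith [hca.2]⟩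
  let e : ℝ ≃o ℝ := StrictMono.orderIsoOfSurjective L hLmono hLsurj
  let h : ℝ ≃ₜ ℝ := e.toHomeomorph
  have hcoe : ∀ x, h x = L x := fun x => rfl
  have hφ : ContDiff ℝ ∞ h.symm :=
    h.contDiff_symm_deriv (f' := v) (fun x => (hpos x).ne') (fun x => hLd x) hLcd
  refine ⟨h.symm, hφ, ?_, ?_⟩
  · intro t
    have hd := (hLd (h.symm t))
    have hh : HasDerivAt h (v (h.symm t)) (h.symm t) := hd
    have := h.toOpenPartialHomeomorph.hasDerivAt_symm (a := t) (f' := v (h.symm t))
      (by simp) (hpos _).ne' (by simpa using hh)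
    simpa using this
  · intro t
    apply h.injective
    rw [h.apply_symm_apply, hcoe, hLper]
    have : L (h.symm t) = t := by rw [← hcoe, h.apply_symm_apply]
    rw [this]

end Vale.Agent.Lib.P205
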