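import Vale.Agent.Lib.P205.Legendrian

/-!
The cone over a Hopf lift: `Φ = r · exp (i κ) · ζ (τ)` for a horizontal unit speed curve `ζ`.
-/

open Real
open scoped ContDiff ComplexConjugate

namespace Vale.Agent.Lib.P205

/-- The algebra behind the induced metric of the cone over a Hopf lift. -/
theorem hopf_algebra (z₁ z₂ d₁ d₂ e : ℂ) (α₁ β₁ γ₁ α₂ β₂ γ₂ : ℝ)
    (hz : Complex.normSq z₁ + Complex.normSq z₂ = 1)
    (hd : Complex.normSq d₁ + Complex.normSq d₂ = 1)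
    (hl : conj z₁ * d₁ + conj z₂ * d₂ = 0)
    (he : Complex.normSq e = 1) :
    (e * (((α₁ : ℂ) + Complex.I * β₁) * z₁ + γ₁ * d₁)).re *
        (e * (((α₂ : ℂ) + Complex.I * β₂) * z₁ + γ₂ * d₁)).re +
      (e * (((α₁ : ℂ) + Complex.I * β₁) * z₁ + γ₁ * d₁)).im *
        (e * (((α₂ : ℂ) + Complex.I * β₂) * z₁ + γ₂ * d₁)).im +
      (e * (((α₁ : ℂ) + Complex.I * β₁) * z₂ + γ₁ * d₂)).re *
        (e * (((α₂ : ℂ) + Complex.I * β₂) * z₂ + γ₂ * d₂)).re +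
      (e * (((α₁ : ℂ) + Complex.I * β₁) * z₂ + γ₁ * d₂)).im *
        (e * (((α₂ : ℂ) + Complex.I * β₂) * z₂ + γ₂ * d₂)).im =
      α₁ * α₂ + β₁ * β₂ + γ₁ * γ₂ := by
  have hr := congrArg Complex.re hl
  have hi := congrArg Complex.im hl
  simp only [Complex.add_re, Complex.mul_re, Complex.conj_re, Complex.conj_im, Complex.zero_re,
    Complex.add_im, Complex.mul_im, Complex.zero_im] at hr hi
  simp only [Complex.normSq_apply] at hz hd he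
  obtain ⟨x₁, y₁⟩ := z₁
  obtain ⟨x₂, y₂⟩ := z₂
  obtain ⟨p₁, q₁⟩ := d₁
  obtain ⟨p₂, q₂⟩ := d₂
  obtain ⟨e₁, e₂⟩ := e
  simp only at hr hi hz hd he
  simp only [Complex.add_re, Complex.mul_re, Complex.add_im, Complex.mul_im, Complex.ofReal_re,
    Complex.ofReal_im, Complex.I_re, Complex.I_im, zero_mul, one_mul, mul_zero, sub_zero,
    add_zero, zero_add]
  have key : ∀ a b c f : ℝ, (e₁ * a - e₂ * b) * (e₁ * c - e₂ * f) +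
      (e₁ * b + e₂ * a) * (e₁ * f + e₂ * c) = (e₁ * e₁ + e₂ * e₂) * (a * c + b * f) := by
    intro a b c f; ring
  have h1 := key ((α₁ - 0) * x₁ - β₁ * y₁ + γ₁ * p₁) ((α₁ - 0) * y₁ + β₁ * x₁ + γ₁ * q₁)
    ((α₂ - 0) * x₁ - β₂ * y₁ + γ₂ * p₁) ((α₂ - 0) * y₁ + β₂ * x₁ + γ₂ * q₁)
  have h2 := key ((α₁ - 0) * x₂ - β₁ * y₂ + γ₁ * p₂) ((α₁ - 0) * y₂ + β₁ * x₂ + γ₁ * q₂)
    ((α₂ - 0) * x₂ - β₂ * y₂ + γ₂ * p₂) ((α₂ - 0) * y₂ + β₂ * x₂ + γ₂ * q₂)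
  simp only [sub_zero] at h1 h2
  rw [he, one_mul] at h1 h2
  have hfinal : ((α₁ * x₁ - β₁ * y₁ + γ₁ * p₁) * (α₂ * x₁ - β₂ * y₁ + γ₂ * p₁) +
      (α₁ * y₁ + β₁ * x₁ + γ₁ * q₁) * (α₂ * y₁ + β₂ * x₁ + γ₂ * q₁)) +
      ((α₁ * x₂ - β₁ * y₂ + γ₁ * p₂) * (α₂ * x₂ - β₂ * y₂ + γ₂ * p₂) +
      (α₁ * y₂ + β₁ * x₂ + γ₁ * q₂) * (α₂ * y₂ + β₂ * x₂ + γ₂ * q₂)) =
      α₁ * α₂ + β₁ * β₂ + γ₁ * γ₂ := by
    linear_combination (α₁ * α₂ + β₁ * β₂) * hz + γ₁ * γ₂ * hd +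
      (γ₂ * α₁ + γ₁ * α₂) * hr + (γ₂ * β₁ + γ₁ * β₂) * hi
  linear_combination h1 + h2 + hfinal

/-- The map from `ℂ × ℂ` coordinates to Euclidean four-space. -/
noncomputable def toE4 (w₁ w₂ : ℂ) : EuclideanSpace ℝ (Fin 4) :=
  !₂[w₁.re, w₁.im, w₂.re, w₂.im]

/-- **The cone over a Hopf lift.** If `ζ = (z₁, z₂)` is a horizontal unit speed curve in the unit
sphere of `ℂ²`, then for smooth functions `r, κ, τ` the map `r · exp (i κ) · ζ (τ)` is smooth with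
induced metric `dr² + r² (dκ² + dτ²)`. -/
theorem hopf_cone {z₁ z₂ d₁ d₂ : ℝ → ℂ} (hz₁ : ContDiff ℝ ∞ z₁) (hz₂ : ContDiff ℝ ∞ z₂)
    (hd₁ : ∀ t, HasDerivAt z₁ (d₁ t) t) (hd₂ : ∀ t, HasDerivAt z₂ (d₂ t) t)
    (hn : ∀ t, Complex.normSq (z₁ t) + Complex.normSq (z₂ t) = 1)
    (hl : ∀ t, conj (z₁ t) * d₁ t + conj (z₂ t) * d₂ t = 0)
    (hs : ∀ t, Complex.normSq (d₁ t) + Complex.normSq (d₂ t) = 1)
    {r κ τ : ℝ × ℝ → ℝ} (hr : ContDiff ℝ ∞ r) (hκ : ContDiff ℝ ∞ κ) (hτ : ContDiff ℝ ∞ τ) :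
    let Φ : ℝ × ℝ → EuclideanSpace ℝ (Fin 4) := fun p =>
      toE4 ((r p : ℂ) * Complex.exp (Complex.I * κ p) * z₁ (τ p))
        ((r p : ℂ) * Complex.exp (Complex.I * κ p) * z₂ (τ p))
    ContDiff ℝ ∞ Φ ∧ ∀ p v w, inner ℝ (fderiv ℝ Φ p v) (fderiv ℝ Φ p w) =
      fderiv ℝ r p v * fderiv ℝ r p w +
        r p ^ 2 * (fderiv ℝ κ p v * fderiv ℝ κ p w + fderiv ℝ τ p v * fderiv ℝ τ p w) := by
  intro Φ
  have hw : ∀ z : ℝ → ℂ, ContDiff ℝ ∞ z →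
      ContDiff ℝ ∞ (fun p => (r p : ℂ) * Complex.exp (Complex.I * κ p) * z (τ p)) := by
    intro z hz
    have h1 : ContDiff ℝ ∞ (fun p => (r p : ℂ)) := Complex.ofRealCLM.contDiff.comp hr
    have h2 : ContDiff ℝ ∞ (fun p => ((κ p : ℝ) : ℂ)) := Complex.ofRealCLM.contDiff.comp hκ
    have h3 : ContDiff ℝ ∞ (fun p => z (τ p)) := hz.comp hτ
    exact (h1.mul (contDiff_const.mul h2).cexp).mul h3
  have hΦ : ContDiff ℝ ∞ Φ := by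
    rw [contDiff_euclidean]
    intro i
    have h1 := hw z₁ hz₁
    have h2 := hw z₂ hz₂
    fin_cases i
    · exact Complex.reCLM.contDiff.comp h1
    · exact Complex.imCLM.contDiff.comp h1
    · exact Complex.reCLM.contDiff.comp h2
    · exact Complex.imCLM.contDiff.comp h2
  refine ⟨hΦ, ?_⟩
  intro p v w
  have hdiff : ∀ f : ℝ × ℝ → ℝ, ContDiff ℝ ∞ f → ∀ q, HasFDerivAt f (fderiv ℝ f q) q :=
    fun f hf q => (hf.differentiable (by simp) q).hasFDerivAt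
  -- the derivative along a line
  have hline : ∀ u : ℝ × ℝ, HasDerivAt (fun t : ℝ => p + t • u) u 0 := by
    intro u
    have := ((hasDerivAt_id (0:ℝ)).smul_const u).const_add p
    simpa using this
  have hcomp : ∀ (f : ℝ × ℝ → ℝ), ContDiff ℝ ∞ f → ∀ u : ℝ × ℝ,
      HasDerivAt (fun t : ℝ => f (p + t • u)) (fderiv ℝ f p u) 0 := by
    intro f hf u
    have h0 : HasFDerivAt f (fderiv ℝ f p) (p + (0:ℝ) • u) := by
      simpa using hdiff f hf p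
    exact h0.comp_hasDerivAt (0:ℝ) (hline u)
  have hW : ∀ (z d : ℝ → ℂ), (∀ t, HasDerivAt z (d t) t) → ∀ u : ℝ × ℝ,
      HasDerivAt (fun t : ℝ => (r (p + t • u) : ℂ) * Complex.exp (Complex.I * κ (p + t • u)) *
        z (τ (p + t • u)))
        (Complex.exp (Complex.I * κ p) * ((((fderiv ℝ r p u : ℝ) : ℂ) +
          Complex.I * ((r p * fderiv ℝ κ p u : ℝ) : ℂ)) * z (τ p) +
          ((r p * fderiv ℝ τ p u : ℝ) : ℂ) * d (τ p))) 0 := by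
    intro z d hz u
    have h1 := (hcomp r hr u).ofReal_comp
    have h2 := (hcomp κ hκ u).ofReal_comp
    have h3 := ((h2.const_mul Complex.I).cexp)
    have h4 : HasDerivAt (fun t : ℝ => z (τ (p + t • u)))
        (((fderiv ℝ τ p u : ℝ) : ℂ) * d (τ p)) 0 := by
      have h0 : HasDerivAt z (d (τ (p + (0:ℝ) • u))) (τ (p + (0:ℝ) • u)) := hz _
      have := h0.scomp (0:ℝ) (hcomp τ hτ u)
      exact this.congr_deriv (by simp [Complex.real_smul])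
    have h5 := (h1.fun_mul h3).fun_mul h4
    refine h5.congr_deriv ?_
    simp only [zero_smul, add_zero]
    push_cast
    ring
  have hcoord : ∀ (i : Fin 4) (u : ℝ × ℝ),
      HasDerivAt (fun t : ℝ => (Φ (p + t • u)) i) ((fderiv ℝ Φ p u) i) 0 := by
    intro i u
    have h0 : HasFDerivAt Φ (fderiv ℝ Φ p) (p + (0:ℝ) • u) := by
      simpa using (hΦ.differentiable (by simp) p).hasFDerivAt
    have h1 := h0.comp_hasDerivAt (0:ℝ) (hline u)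
    exact (EuclideanSpace.proj (𝕜 := ℝ) i).hasFDerivAt.comp_hasDerivAt (0:ℝ) h1
  have hval : ∀ (u : ℝ × ℝ),
      (fderiv ℝ Φ p u) 0 = (Complex.exp (Complex.I * κ p) * ((((fderiv ℝ r p u : ℝ) : ℂ) +
          Complex.I * ((r p * fderiv ℝ κ p u : ℝ) : ℂ)) * z₁ (τ p) +
          ((r p * fderiv ℝ τ p u : ℝ) : ℂ) * d₁ (τ p))).re ∧
      (fderiv ℝ Φ p u) 1 = (Complex.exp (Complex.I * κ p) * ((((fderiv ℝ r p u : ℝ) : ℂ) +
          Complex.I * ((r p * fderiv ℝ κ p u : ℝ) : ℂ)) * z₁ (τ p) +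
          ((r p * fderiv ℝ τ p u : ℝ) : ℂ) * d₁ (τ p))).im ∧
      (fderiv ℝ Φ p u) 2 = (Complex.exp (Complex.I * κ p) * ((((fderiv ℝ r p u : ℝ) : ℂ) +
          Complex.I * ((r p * fderiv ℝ κ p u : ℝ) : ℂ)) * z₂ (τ p) +
          ((r p * fderiv ℝ τ p u : ℝ) : ℂ) * d₂ (τ p))).re ∧
      (fderiv ℝ Φ p u) 3 = (Complex.exp (Complex.I * κ p) * ((((fderiv ℝ r p u : ℝ) : ℂ) +
          Complex.I * ((r p * fderiv ℝ κ p u : ℝ) : ℂ)) * z₂ (τ p) +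
          ((r p * fderiv ℝ τ p u : ℝ) : ℂ) * d₂ (τ p))).im := by
    intro u
    have hW₁ := hW z₁ d₁ hd₁ u
    have hW₂ := hW z₂ d₂ hd₂ u
    refine ⟨(hcoord 0 u).unique (Complex.reCLM.hasFDerivAt.comp_hasDerivAt (0:ℝ) hW₁),
      (hcoord 1 u).unique (Complex.imCLM.hasFDerivAt.comp_hasDerivAt (0:ℝ) hW₁),
      (hcoord 2 u).unique (Complex.reCLM.hasFDerivAt.comp_hasDerivAt (0:ℝ) hW₂),
      (hcoord 3 u).unique (Complex.imCLM.hasFDerivAt.comp_hasDerivAt (0:ℝ) hW₂)⟩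
  obtain ⟨hv0, hv1, hv2, hv3⟩ := hval v
  obtain ⟨hw0, hw1, hw2, hw3⟩ := hval w
  have hinner : inner ℝ (fderiv ℝ Φ p v) (fderiv ℝ Φ p w) =
      (fderiv ℝ Φ p v) 0 * (fderiv ℝ Φ p w) 0 + (fderiv ℝ Φ p v) 1 * (fderiv ℝ Φ p w) 1 +
      (fderiv ℝ Φ p v) 2 * (fderiv ℝ Φ p w) 2 + (fderiv ℝ Φ p v) 3 * (fderiv ℝ Φ p w) 3 := by
    rw [PiLp.inner_apply, Fin.sum_univ_four]
    simp only [RCLike.inner_apply, conj_trivial]
    ring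
  rw [hinner, hv0, hv1, hv2, hv3, hw0, hw1, hw2, hw3]
  have := hopf_algebra (z₁ (τ p)) (z₂ (τ p)) (d₁ (τ p)) (d₂ (τ p)) (Complex.exp (Complex.I * κ p))
    (fderiv ℝ r p v) (r p * fderiv ℝ κ p v) (r p * fderiv ℝ τ p v)
    (fderiv ℝ r p w) (r p * fderiv ℝ κ p w) (r p * fderiv ℝ τ p w)
    (hn _) (hs _) (hl _) (normSq_cexp _)
  rw [this]
  ring

end Vale.Agent.Lib.P205
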