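import Vale.Agent.Lib.P205.Assembly

/-!
Metrics on the torus invariant under translations in one lattice direction.
-/

open Real
open scoped ContDiff ComplexConjugate

namespace Vale.Agent.Lib.P205

/-- A continuous 1-periodic positive function has a positive lower bound. -/
theorem periodic_pos_lower {f : ℝ → ℝ} (hc : Continuous f) (hp : ∀ x, f (x + 1) = f x)
    (hpos : ∀ x, 0 < f x) : ∃ m, 0 < m ∧ ∀ x, m ≤ f x := by
  have hper : Function.Periodic f 1 := hp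
  have hcomp := hper.compact_of_continuous one_ne_zero hc
  obtain ⟨y, ⟨x, rfl⟩, hmin⟩ := hcomp.exists_isLeast (Set.range_nonempty f)
  exact ⟨f x, hpos x, fun z => hmin ⟨z, rfl⟩⟩

/-- A continuous 1-periodic function is bounded above. -/
theorem periodic_upper {f : ℝ → ℝ} (hc : Continuous f) (hp : ∀ x, f (x + 1) = f x) :
    ∃ M, 0 < M ∧ ∀ x, f x ≤ M := by
  have hper : Function.Periodic f 1 := hp
  have hcomp := hper.compact_of_continuous one_ne_zero hc
  obtain ⟨y, ⟨x, rfl⟩, hmax⟩ := hcomp.exists_isGreatest (Set.range_nonempty f)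
  exact ⟨max (f x) 1, lt_max_of_lt_right one_pos, fun z => (hmax ⟨z, rfl⟩).trans (le_max_left _ _)⟩

/-- The primitive of a smooth function vanishing at zero, and its quasi-periodicity. -/
theorem exists_primitive {b : ℝ → ℝ} (hb : ContDiff ℝ ∞ b) (hp : ∀ x, b (x + 1) = b x) :
    ∃ B : ℝ → ℝ, ContDiff ℝ ∞ B ∧ (∀ x, HasDerivAt B (b x) x) ∧ (∀ x, B (x + 1) = B x + B 1) ∧
      B 0 = 0 ∧ B 1 = ∫ x in (0:ℝ)..1, b x := by
  refine ⟨fun τ => ∫ t in (0:ℝ)..τ, b t, ?_, ?_, ?_, by simp, rfl⟩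
  · rw [contDiff_infty_iff_deriv]
    have hd : ∀ τ, HasDerivAt (fun τ => ∫ t in (0:ℝ)..τ, b t) (b τ) τ := fun τ =>
      intervalIntegral.integral_hasDerivAt_right (hb.continuous.intervalIntegrable _ _)
        (hb.continuous.stronglyMeasurableAtFilter _ _) hb.continuous.continuousAt
    refine ⟨fun τ => (hd τ).differentiableAt, ?_⟩
    have : deriv (fun τ => ∫ t in (0:ℝ)..τ, b t) = b := funext fun τ => (hd τ).deriv
    rw [this]; exact hb
  · exact fun τ =>
      intervalIntegral.integral_hasDerivAt_right (hb.continuous.intervalIntegrable _ _)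
        (hb.continuous.stronglyMeasurableAtFilter _ _) hb.continuous.continuousAt
  · intro x
    have hd : ∀ τ, HasDerivAt (fun τ => ∫ t in (0:ℝ)..τ, b t) (b τ) τ := fun τ =>
      intervalIntegral.integral_hasDerivAt_right (hb.continuous.intervalIntegrable _ _)
        (hb.continuous.stronglyMeasurableAtFilter _ _) hb.continuous.continuousAt
    have h : ∀ τ, HasDerivAt (fun τ => (∫ t in (0:ℝ)..(τ + 1), b t) - ∫ t in (0:ℝ)..τ, b t) 0 τ := by
      intro τ
      have h1 : HasDerivAt (fun τ => ∫ t in (0:ℝ)..(τ + 1), b t) (b (τ + 1)) τ :=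
        (hd (τ + 1)).comp_add_const τ 1
      have := h1.sub (hd τ)
      rw [hp τ, sub_self] at this
      exact this
    have hc := is_const_of_deriv_eq_zero (fun τ => (h τ).differentiableAt)
      (fun τ => (h τ).deriv) x 0
    simp only [zero_add, intervalIntegral.integral_same, sub_zero] at hc
    linarith

theorem exp_two_pi_nat_mul (k : ℕ) (y : ℝ) :
    Complex.exp (Complex.I * ((2 * π * k * (y + 1) : ℝ) : ℂ)) =
      Complex.exp (Complex.I * ((2 * π * k * y : ℝ) : ℂ)) := by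
  have : Complex.I * ((2 * π * k * (y + 1) : ℝ) : ℂ) =
      Complex.I * ((2 * π * k * y : ℝ) : ℂ) + (k : ℂ) * (2 * π * Complex.I) := by
    push_cast; ring
  rw [this, Complex.exp_add, Complex.exp_nat_mul_two_pi_mul_I, mul_one]

/-- **Circle-invariant metrics on the torus.** Every smooth Riemannian metric
`E(x) dx² + 2 F(x) dx dy + G(x) dy²` on `ℝ² / ℤ²` with 1-periodic coefficients has a smooth
isometric immersion into Euclidean four-space. -/
theorem circle_invariant (E F G : ℝ → ℝ) (hE : ContDiff ℝ ∞ E) (hF : ContDiff ℝ ∞ F)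
    (hG : ContDiff ℝ ∞ G) (hEp : ∀ x, E (x + 1) = E x) (hFp : ∀ x, F (x + 1) = F x)
    (hGp : ∀ x, G (x + 1) = G x) (hEpos : ∀ x, 0 < E x) (hdet : ∀ x, F x ^ 2 < E x * G x) :
    ∃ Φ : ℝ × ℝ → EuclideanSpace ℝ (Fin 4), ContDiff ℝ ∞ Φ ∧
      (∀ x y, Φ (x + 1, y) = Φ (x, y)) ∧ (∀ x y, Φ (x, y + 1) = Φ (x, y)) ∧
      ∀ p v w, inner ℝ (fderiv ℝ Φ p v) (fderiv ℝ Φ p w) =
        E p.1 * (v.1 * w.1) + F p.1 * (v.1 * w.2 + v.2 * w.1) + G p.1 * (v.2 * w.2) := by
  have hGpos : ∀ x, 0 < G x := by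
    intro x
    have h1 := hdet x
    have h2 := hEpos x
    have h3 : 0 ≤ F x ^ 2 := sq_nonneg _
    by_contra hcon
    push Not at hcon
    nlinarith
  have hGne : ∀ x, G x ≠ 0 := fun x => (hGpos x).ne'
  -- the square root of `G`
  let ρ : ℝ → ℝ := fun x => Real.sqrt (G x)
  have hρc : ContDiff ℝ ∞ ρ := hG.sqrt hGne
  have hρpos : ∀ x, 0 < ρ x := fun x => Real.sqrt_pos.mpr (hGpos x)
  have hρsq : ∀ x, ρ x ^ 2 = G x := fun x => Real.sq_sqrt (hGpos x).le
  have hρp : ∀ x, ρ (x + 1) = ρ x := fun x => by simp only [ρ, hGp]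
  let ρ' : ℝ → ℝ := deriv ρ
  have hρd : ∀ x, HasDerivAt ρ (ρ' x) x := fun x =>
    (hρc.differentiable (by simp) x).hasDerivAt
  have hρ'c : ContDiff ℝ ∞ ρ' := ((contDiff_infty_iff_deriv).mp hρc).2
  have hρ'p : ∀ x, ρ' (x + 1) = ρ' x := by
    intro x
    have h1 : HasDerivAt (fun x => ρ (x + 1)) (ρ' (x + 1)) x := (hρd (x + 1)).comp_add_const x 1
    have h2 : (fun x => ρ (x + 1)) = ρ := funext hρp
    rw [h2] at h1
    exact h1.unique (hρd x)
  -- the transverse part of the metric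
  let q : ℝ → ℝ := fun x => E x - F x ^ 2 / G x
  have hqc : ContDiff ℝ ∞ q := hE.sub ((hF.pow 2).div hG hGne)
  have hqp : ∀ x, q (x + 1) = q x := fun x => by simp only [q, hEp, hFp, hGp]
  have hqpos : ∀ x, 0 < q x := by
    intro x
    have h1 := hdet x
    have h2 := hGpos x
    simp only [q]
    rw [sub_pos, div_lt_iff₀ h2]
    exact h1
  obtain ⟨m, hm, hmq⟩ := periodic_pos_lower hqc.continuous hqp hqpos
  have hρ'2c : Continuous (fun x => ρ' x ^ 2) := hρ'c.continuous.pow 2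
  obtain ⟨M, hM, hMρ⟩ := periodic_upper hρ'2c (fun x => by simp only [hρ'p])
  obtain ⟨R, hR, hRρ⟩ := periodic_upper hρc.continuous hρp
  -- the choice of the large integer
  set S₀ : ℝ := Real.sqrt (m / 2) with hS₀
  have hS₀pos : 0 < S₀ := Real.sqrt_pos.mpr (by positivity)
  obtain ⟨k, hk⟩ := exists_nat_gt (max (M / m * 2) (R / S₀))
  have hk1 : M / m * 2 < k := lt_of_le_of_lt (le_max_left _ _) hk
  have hk2 : R / S₀ < k := lt_of_le_of_lt (le_max_right _ _) hk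
  have hkpos : (0:ℝ) < k := lt_trans (by positivity) hk2
  have hk1' : (1:ℝ) ≤ k := by exact_mod_cast hkpos
  have hpi := pi_pos
  let ω₀ : ℝ := 2 * π * k
  have hω₀ : 0 < ω₀ := by positivity
  have hω₀big : (k:ℝ) ≤ ω₀ := by
    simp only [ω₀]
    nlinarith [pi_gt_three]
  have hsmall : ∀ x, (ρ' x / ω₀) ^ 2 ≤ m / 2 := by
    intro x
    have h2 := hMρ x
    rw [div_pow, div_le_iff₀ (by positivity)]
    have h4 : M ≤ m / 2 * k := by
      rw [div_mul_eq_mul_div, div_lt_iff₀ hm] at hk1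
      nlinarith
    have h5 : k ≤ ω₀ ^ 2 := by nlinarith
    calc ρ' x ^ 2 ≤ M := h2
      _ ≤ m / 2 * k := h4
      _ ≤ m / 2 * ω₀ ^ 2 := by
        apply mul_le_mul_of_nonneg_left h5 (by positivity)
  have hrad : ∀ x, 0 < q x - (ρ' x / ω₀) ^ 2 := by
    intro x
    have h1 := hmq x
    have h3 := hsmall x
    linarith
  -- the speed
  let s : ℝ → ℝ := fun x => ω₀ * (Real.sqrt (q x - (ρ' x / ω₀) ^ 2) / ρ x)
  have hsc : ContDiff ℝ ∞ s := by
    apply contDiff_const.mul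
    exact ContDiff.div ((hqc.sub ((hρ'c.div_const _).pow 2)).sqrt (fun x => (hrad x).ne')) hρc
      (fun x => (hρpos x).ne')
  have hsp : ∀ x, s (x + 1) = s x := fun x => by simp only [s, hqp, hρ'p, hρp]
  have hslow : ∀ x, 2 * π ≤ s x := by
    intro x
    have h1 := hmq x
    have h3 := hsmall x
    have h4 : m / 2 ≤ q x - (ρ' x / ω₀) ^ 2 := by linarith
    have hS : S₀ ≤ Real.sqrt (q x - (ρ' x / ω₀) ^ 2) := Real.sqrt_le_sqrt h4
    have hρx := hRρ x
    have hρxp := hρpos x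
    have hk4 : R < k * S₀ := by
      rw [div_lt_iff₀ hS₀pos] at hk2
      exact hk2
    have h6 : ρ x ≤ k * Real.sqrt (q x - (ρ' x / ω₀) ^ 2) := by
      have : (k:ℝ) * S₀ ≤ k * Real.sqrt (q x - (ρ' x / ω₀) ^ 2) :=
        mul_le_mul_of_nonneg_left hS hkpos.le
      linarith
    simp only [s]
    rw [show 2 * π = ω₀ * (1 / k) by simp only [ω₀]; field_simp]
    apply mul_le_mul_of_nonneg_left _ hω₀.le
    rw [div_le_div_iff₀ hkpos hρxp]
    linarith
  obtain ⟨t, htc, htd, htp, ht0, ht1⟩ := exists_primitive hsc hsp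
  have hT : 2 * π ≤ t 1 := by
    rw [ht1]
    have hmono := intervalIntegral.integral_mono_on (a := 0) (b := 1) (μ := MeasureTheory.volume)
      zero_le_one (continuous_const.intervalIntegrable _ _)
      (hsc.continuous.intervalIntegrable _ _) (fun x _ => hslow x)
    simpa using hmono
  -- the twist
  let b : ℝ → ℝ := fun x => F x / G x
  have hbc : ContDiff ℝ ∞ b := hF.div hG hGne
  have hbp : ∀ x, b (x + 1) = b x := fun x => by simp only [b, hFp, hGp]
  obtain ⟨β, hβc, hβd, hβp, hβ0, -⟩ := exists_primitive hbc hbp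
  -- the Legendrian curve
  obtain ⟨z₁, z₂, d₁, d₂, hz₁, hz₂, hd₁, hd₂, hn, hl, hsp', hp₁, hp₂⟩ :=
    exists_legendrian (t 1) (-(ω₀ * β 1)) hT
  -- the functions on the plane
  let r : ℝ × ℝ → ℝ := fun p => ρ p.1 / ω₀
  let κ : ℝ × ℝ → ℝ := fun p => ω₀ * (p.2 + β p.1)
  let τ : ℝ × ℝ → ℝ := fun p => t p.1
  have hr : ContDiff ℝ ∞ r := (hρc.comp contDiff_fst).div_const _
  have hκ : ContDiff ℝ ∞ κ := contDiff_const.mul (contDiff_snd.add (hβc.comp contDiff_fst))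
  have hτ : ContDiff ℝ ∞ τ := htc.comp contDiff_fst
  obtain ⟨hΦ, hmetric⟩ := hopf_cone hz₁ hz₂ hd₁ hd₂ hn hl hsp' hr hκ hτ
  refine ⟨_, hΦ, ?_, ?_, ?_⟩
  · intro x y
    simp only [r, κ, τ]
    rw [hρp, htp, hp₁, hp₂, hβp]
    have hphase : ∀ w : ℂ, Complex.exp (Complex.I * ((ω₀ * (y + (β x + β 1)) : ℝ) : ℂ)) *
        (Complex.exp (Complex.I * ((-(ω₀ * β 1) : ℝ) : ℂ)) * w) =
        Complex.exp (Complex.I * ((ω₀ * (y + β x) : ℝ) : ℂ)) * w := by
      intro w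
      rw [← mul_assoc, ← Complex.exp_add]
      congr 2
      push_cast
      ring
    simp only [mul_assoc, hphase]
  · intro x y
    simp only [r, κ, τ]
    have h := exp_two_pi_nat_mul k (y + β x)
    have e1 : (2 * π * (k:ℝ) * (y + β x + 1)) = ω₀ * (y + 1 + β x) := by
      simp only [ω₀]; ring
    have e2 : (2 * π * (k:ℝ) * (y + β x)) = ω₀ * (y + β x) := rfl
    rw [e1, e2] at h
    rw [h]
  · intro p v w
    rw [hmetric p v w]
    have hfst : ∀ (f f' : ℝ → ℝ) (hf : ∀ x, HasDerivAt f (f' x) x) (u : ℝ × ℝ),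
        fderiv ℝ (fun p : ℝ × ℝ => f p.1) p u = f' p.1 * u.1 := by
      intro f f' hf u
      have h1 : HasFDerivAt (fun p : ℝ × ℝ => f p.1)
          ((ContinuousLinearMap.toSpanSingleton ℝ (f' p.1)).comp
            (ContinuousLinearMap.fst ℝ ℝ ℝ)) p :=
        (hf p.1).hasFDerivAt.comp p hasFDerivAt_fst
      rw [h1.fderiv]
      simp [mul_comm]
    have hrd : ∀ u : ℝ × ℝ, fderiv ℝ r p u = ρ' p.1 / ω₀ * u.1 := by
      intro u
      have := hfst (fun x => ρ x / ω₀) (fun x => ρ' x / ω₀) (fun x => (hρd x).div_const _) u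
      exact this
    have hτd : ∀ u : ℝ × ℝ, fderiv ℝ τ p u = s p.1 * u.1 := fun u => hfst t s htd u
    have hκd : ∀ u : ℝ × ℝ, fderiv ℝ κ p u = ω₀ * (u.2 + b p.1 * u.1) := by
      intro u
      have h1 : HasFDerivAt (fun p : ℝ × ℝ => β p.1)
          ((ContinuousLinearMap.toSpanSingleton ℝ (b p.1)).comp
            (ContinuousLinearMap.fst ℝ ℝ ℝ)) p :=
        (hβd p.1).hasFDerivAt.comp p hasFDerivAt_fst
      have h2 : HasFDerivAt (fun p : ℝ × ℝ => p.2) (ContinuousLinearMap.snd ℝ ℝ ℝ) p :=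
        hasFDerivAt_snd
      have h3 := (h2.add h1).const_mul ω₀
      have h4 : HasFDerivAt κ _ p := h3
      rw [h4.fderiv]
      simp [mul_comm]
      ring
    rw [hrd, hrd, hκd, hκd, hτd, hτd]
    simp only [r]
    have hρ2 := hρsq p.1
    have hrad' := hrad p.1
    have hs2 : s p.1 ^ 2 = ω₀ ^ 2 * ((q p.1 - (ρ' p.1 / ω₀) ^ 2) / ρ p.1 ^ 2) := by
      simp only [s]
      rw [mul_pow, div_pow, Real.sq_sqrt hrad'.le]
    have hρne := (hρpos p.1).ne'
    have hGb : G p.1 * b p.1 = F p.1 := by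
      simp only [b]; field_simp [hGne p.1]
    have hGb2 : G p.1 * b p.1 ^ 2 = F p.1 ^ 2 / G p.1 := by
      simp only [b]; field_simp [hGne p.1]
    have hqdef : q p.1 = E p.1 - F p.1 ^ 2 / G p.1 := rfl
    have hkey : (ρ p.1 / ω₀) ^ 2 * (s p.1 ^ 2) = q p.1 - (ρ' p.1 / ω₀) ^ 2 := by
      rw [hs2]; field_simp
    have hkey2 : (ρ p.1 / ω₀) ^ 2 * ω₀ ^ 2 = G p.1 := by
      rw [← hρ2]; field_simp
    calc ρ' p.1 / ω₀ * v.1 * (ρ' p.1 / ω₀ * w.1) + (ρ p.1 / ω₀) ^ 2 *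
          (ω₀ * (v.2 + b p.1 * v.1) * (ω₀ * (w.2 + b p.1 * w.1)) +
            s p.1 * v.1 * (s p.1 * w.1))
        = (ρ' p.1 / ω₀) ^ 2 * (v.1 * w.1) +
          ((ρ p.1 / ω₀) ^ 2 * ω₀ ^ 2) * ((v.2 + b p.1 * v.1) * (w.2 + b p.1 * w.1)) +
          ((ρ p.1 / ω₀) ^ 2 * s p.1 ^ 2) * (v.1 * w.1) := by ring
      _ = (ρ' p.1 / ω₀) ^ 2 * (v.1 * w.1) + G p.1 * ((v.2 + b p.1 * v.1) * (w.2 + b p.1 * w.1)) +
          (q p.1 - (ρ' p.1 / ω₀) ^ 2) * (v.1 * w.1) := by rw [hkey, hkey2]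
      _ = (q p.1 + G p.1 * b p.1 ^ 2) * (v.1 * w.1) + (G p.1 * b p.1) * (v.1 * w.2 + v.2 * w.1) +
          G p.1 * (v.2 * w.2) := by ring
      _ = _ := by
          rw [hGb, hGb2, hqdef]
          ring

end Vale.Agent.Lib.P205
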