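import Vale.Agent.Lib.P205.DevThree

/-!
Continuity of the periods of the development in the parameter.
-/

open Real
open scoped ContDiff ComplexConjugate

namespace Vale.Agent.Lib.P205

/-- Joint continuity of a family of functions on the plane. -/
def Cts {F : Type*} [TopologicalSpace F] (f : ℝ → ℝ × ℝ → F) : Prop :=
  Continuous fun q : ℝ × (ℝ × ℝ) => f q.1 q.2

theorem Cts.slice {F : Type*} [TopologicalSpace F] {f : ℝ → ℝ × ℝ → F} (h : Cts f) (s : ℝ) :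
    Continuous (f s) :=
  h.comp (Continuous.prodMk continuous_const continuous_id)

section CtsLemmas

variable {a : ℝ} {v r w : ℝ → ℝ × ℝ → ℝ} {l m : ℝ × ℝ → ℝ}

theorem cts_sX (hv : Cts v) (hr : Cts r) (hl : Continuous l) :
    Cts fun s => sX (clip a s) (v s) (r s) l := by
  unfold Cts sX at *
  have h1 : Continuous fun q : ℝ × (ℝ × ℝ) => clip a q.1 := (clip_continuous a).comp continuous_fst
  have h2 : Continuous fun q : ℝ × (ℝ × ℝ) => l q.2 := hl.comp continuous_snd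
  exact h1.mul (((continuous_const.add hv).mul h2).add hr)

theorem cts_sK (hv : Cts v) (hw : Cts w) (hr : Cts r) (hl : Continuous l) (hm : Continuous m) :
    Cts fun s => sK (clip a s) (v s) (w s) l m (r s) := by
  unfold Cts sK at *
  have h1 : Continuous fun q : ℝ × (ℝ × ℝ) => clip a q.1 := (clip_continuous a).comp continuous_fst
  have h2 : Continuous fun q : ℝ × (ℝ × ℝ) => l q.2 := hl.comp continuous_snd
  have h3 : Continuous fun q : ℝ × (ℝ × ℝ) => m q.2 := hm.comp continuous_snd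
  exact h1.mul (((hw.mul h2).add ((continuous_const.add hv).mul h3)).add hr)

theorem cts_sE (hv : Cts v) (hr : Cts r) (hne : ∀ s p, 1 + v s p ≠ 0) :
    Cts fun s => sE (v s) (r s) := by
  unfold Cts sE at *
  exact hr.div (continuous_const.add hv) fun q => hne _ _

theorem cts_sU (hv : Cts v) : Cts fun s => sU (v s) := by
  unfold Cts sU at *
  exact continuous_const.add hv

variable {e x₁ x₂ g u : ℝ → ℝ × ℝ → ℝ}

theorem cts_aa (he : Cts e) (h1 : Cts x₁) (h2 : Cts x₂) (hg : Cts g)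
    (hs : ∀ s p, x₁ s p ^ 2 + x₂ s p ^ 2 < 1) : Cts fun s => aa (e s) (x₁ s) (x₂ s) (g s) := by
  unfold Cts aa at *
  refine (he.sub ((h2.mul hg).div (continuous_const.sub (h1.pow 2)) fun q => ?_)).div
    ((continuous_const.sub (h1.pow 2)).sub (h2.pow 2)).sqrt fun q => ?_
  · exact (pos_A (hs q.1) q.2).ne'
  · exact (Real.sqrt_pos.mpr (pos_W (hs q.1) q.2)).ne'

theorem cts_zZ (hu : Cts u) (h1 : Cts x₁) (hup : ∀ s p, 0 < u s p) :
    Cts fun s => zZ (u s) (x₁ s) := by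
  unfold Cts zZ at *
  exact ((continuous_const.sub (h1.pow 2)).sqrt).div hu fun q => (hup _ _).ne'

theorem cts_zP (hu : Cts u) (h1 : Cts x₁) (h2 : Cts x₂) (hup : ∀ s p, 0 < u s p)
    (hs : ∀ s p, x₁ s p ^ 2 + x₂ s p ^ 2 < 1) : Cts fun s => zP (u s) (x₁ s) (x₂ s) := by
  unfold Cts zP at *
  exact ((h1.mul h2).neg).div (hu.mul (continuous_const.sub (h1.pow 2)).sqrt) fun q =>
    (mul_pos (hup _ _) (Real.sqrt_pos.mpr (pos_A (hs q.1) q.2))).ne'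

theorem cts_zQ (hu : Cts u) (h1 : Cts x₁) (h2 : Cts x₂) (hup : ∀ s p, 0 < u s p)
    (hs : ∀ s p, x₁ s p ^ 2 + x₂ s p ^ 2 < 1) : Cts fun s => zQ (u s) (x₁ s) (x₂ s) := by
  unfold Cts zQ at *
  exact (((continuous_const.sub (h1.pow 2)).sub (h2.pow 2)).sqrt).div
    (hu.mul (continuous_const.sub (h1.pow 2)).sqrt) fun q =>
    (mul_pos (hup _ _) (Real.sqrt_pos.mpr (pos_A (hs q.1) q.2))).ne'

theorem cts_cf {α β ψ : ℝ → ℝ × ℝ → ℝ} (hα : Cts α) (hβ : Cts β) (hψ : Cts ψ) :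
    Cts fun s => cf (α s) (β s) (ψ s) := by
  unfold Cts cf at *
  have h1 := Complex.continuous_ofReal.comp hα
  have h2 := Complex.continuous_ofReal.comp hβ
  have h3 := Complex.continuous_ofReal.comp hψ
  exact (h1.add (continuous_const.mul h2)).mul (Complex.continuous_exp.comp (continuous_const.mul h3))

/-- The integral formula for a primitive is jointly continuous. -/
theorem cts_primitive {F : Type*} [NormedAddCommGroup F] [NormedSpace ℝ F] [CompleteSpace F]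
    {f₁ f₂ : ℝ → ℝ × ℝ → F} (h₁ : Cts f₁) (h₂ : Cts f₂) :
    Cts fun s p => ∫ r in (0:ℝ)..1, (p.1 • f₁ s (r • p) + p.2 • f₂ s (r • p)) := by
  unfold Cts at *
  refine intervalIntegral.continuous_parametric_intervalIntegral_of_continuous'
    (f := fun (q : ℝ × (ℝ × ℝ)) (r : ℝ) => q.2.1 • f₁ q.1 (r • q.2) + q.2.2 • f₂ q.1 (r • q.2)) ?_ 0 1
  have hm : Continuous fun z : (ℝ × (ℝ × ℝ)) × ℝ => (z.1.1, z.2 • z.1.2) := by fun_prop
  have c1 := h₁.comp hm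
  have c2 := h₂.comp hm
  have c3 : Continuous fun z : (ℝ × (ℝ × ℝ)) × ℝ => z.1.2.1 := by fun_prop
  have c4 : Continuous fun z : (ℝ × (ℝ × ℝ)) × ℝ => z.1.2.2 := by fun_prop
  exact (c3.smul c1).add (c4.smul c2)

end CtsLemmas

/-- **The development along the family of solutions.** -/
theorem exists_development_family (L : Lat) {l₁ l₂ l₁₁ l₁₂ l₂₂ : ℝ × ℝ → ℝ}
    (h₁ : PF L l₁) (h₂ : PF L l₂) (h₁₁ : PF L l₁₁) (h₁₂ : PF L l₁₂) (h₂₂ : PF L l₂₂)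
    (hl : LD l₁ l₂ l₁₁ l₁₂ l₂₂) :
    ∃ a : ℝ, 0 < a ∧ ∃ (v v₁ v₂ v₁₁ v₁₂ v₂₂ : ℝ → ℝ × ℝ → ℝ) (ψ : ℝ → ℝ × ℝ → ℝ)
      (D : ℝ → ℝ × ℝ → ℂ),
      (∀ s, IsSol L l₁ l₂ l₁₁ l₁₂ l₂₂ (clip a s) 0 (v s) (v₁ s) (v₂ s) (v₁₁ s) (v₁₂ s) (v₂₂ s)) ∧
      (∀ s, ContDiff ℝ ∞ (ψ s)) ∧ (∀ s, ContDiff ℝ ∞ (D s)) ∧
      (∀ s p, dx (D s) p = cf (zZ (sU (v s)) (sX (clip a s) (v s) (v₁ s) l₁)) (fun _ => 0) (ψ s) p) ∧
      (∀ s p, dy (D s) p = cf (zP (sU (v s)) (sX (clip a s) (v s) (v₁ s) l₁)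
        (sX (clip a s) (v s) (v₂ s) l₂))
        (zQ (sU (v s)) (sX (clip a s) (v s) (v₁ s) l₁) (sX (clip a s) (v s) (v₂ s) l₂)) (ψ s) p) ∧
      (∀ s p, D s (p + L.w1) = D s p + D s L.w1) ∧
      (∀ s p, D s (p + L.w2) = D s p + D s L.w2) ∧
      Continuous (fun s => D s L.w1) ∧ Continuous (fun s => D s L.w2) ∧
      D 0 L.w1 = (L.a : ℂ) + Complex.I * (L.b : ℂ) ∧
      D 0 L.w2 = (L.c : ℂ) + Complex.I * (L.d : ℂ) := by
  obtain ⟨a, ha, v, v₁, v₂, v₁₁, v₁₂, v₂₂, T, hsol, c0, c1, c2, c11, c12, c22, z0, z1, z2⟩ :=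
    exists_solution_family L h₁ h₂ h₁₁ h₁₂ h₂₂
  have hdev := fun s => dev_one (hsol s) h₁ h₂ h₁₁ h₁₂ hl
  have hT : ∀ s, T s = 0 := fun s => (hdev s).1
  have hex := fun s => (hdev s).2
  choose ψ D cψ ψ0 ψx ψy cD D0 Dx Dy Dw1 Dw2 using hex
  have hsol' : ∀ s, IsSol L l₁ l₂ l₁₁ l₁₂ l₂₂ (clip a s) 0 (v s) (v₁ s) (v₂ s) (v₁₁ s) (v₁₂ s)
      (v₂₂ s) := fun s => by
    have := hsol s
    rwa [hT s] at this
  have hfd := fun s => sol_fd (hsol s) h₁ h₂ hl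
  have hup : ∀ s p, 0 < sU (v s) p := fun s p => (hfd s).upos p
  have hne : ∀ s p, 1 + v s p ≠ 0 := fun s p => (hup s p).ne'
  have hsm : ∀ s p, sX (clip a s) (v s) (v₁ s) l₁ p ^ 2 + sX (clip a s) (v s) (v₂ s) l₂ p ^ 2 < 1 :=
    fun s p => (hfd s).small p
  -- continuity
  have cx₁ : Cts fun s => sX (clip a s) (v s) (v₁ s) l₁ := cts_sX c0 c1 h₁.1.continuous
  have cx₂ : Cts fun s => sX (clip a s) (v s) (v₂ s) l₂ := cts_sX c0 c2 h₂.1.continuous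
  have cG₁ : Cts fun s => sK (clip a s) (v s) (v₁ s) l₁ l₁₁ (v₁₁ s) :=
    cts_sK c0 c1 c11 h₁.1.continuous h₁₁.1.continuous
  have cG₂ : Cts fun s => sK (clip a s) (v s) (v₂ s) l₁ l₁₂ (v₁₂ s) :=
    cts_sK c0 c2 c12 h₁.1.continuous h₁₂.1.continuous
  have ce₁ : Cts fun s => sE (v s) (v₁ s) := cts_sE c0 c1 hne
  have ce₂ : Cts fun s => sE (v s) (v₂ s) := cts_sE c0 c2 hne
  have ca₁ : Cts fun s => aa (sE (v s) (v₂ s)) (sX (clip a s) (v s) (v₁ s) l₁)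
      (sX (clip a s) (v s) (v₂ s) l₂) (sK (clip a s) (v s) (v₁ s) l₁ l₁₁ (v₁₁ s)) :=
    cts_aa ce₂ cx₁ cx₂ cG₁ hsm
  have ca₂ : Cts fun s => aa (fun q => -sE (v s) (v₁ s) q) (sX (clip a s) (v s) (v₁ s) l₁)
      (sX (clip a s) (v s) (v₂ s) l₂) (sK (clip a s) (v s) (v₂ s) l₁ l₁₂ (v₁₂ s)) :=
    cts_aa (e := fun s q => -sE (v s) (v₁ s) q) ce₁.neg cx₁ cx₂ cG₂ hsm
  have hψf : ∀ s p, ψ s p = ∫ r in (0:ℝ)..1,
      (p.1 • aa (sE (v s) (v₂ s)) (sX (clip a s) (v s) (v₁ s) l₁)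
        (sX (clip a s) (v s) (v₂ s) l₂) (sK (clip a s) (v s) (v₁ s) l₁ l₁₁ (v₁₁ s)) (r • p) +
      p.2 • aa (fun q => -sE (v s) (v₁ s) q) (sX (clip a s) (v s) (v₁ s) l₁)
        (sX (clip a s) (v s) (v₂ s) l₂) (sK (clip a s) (v s) (v₂ s) l₁ l₁₂ (v₁₂ s)) (r • p)) := by
    intro s p
    exact primitive_formula (cψ s) (ψ0 s) (ψx s) (ψy s) (ca₁.slice s) (ca₂.slice s) p
  have cψ' : Cts ψ := by
    have := cts_primitive ca₁ ca₂
    have e : ψ = fun s p => ∫ r in (0:ℝ)..1,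
      (p.1 • aa (sE (v s) (v₂ s)) (sX (clip a s) (v s) (v₁ s) l₁)
        (sX (clip a s) (v s) (v₂ s) l₂) (sK (clip a s) (v s) (v₁ s) l₁ l₁₁ (v₁₁ s)) (r • p) +
      p.2 • aa (fun q => -sE (v s) (v₁ s) q) (sX (clip a s) (v s) (v₁ s) l₁)
        (sX (clip a s) (v s) (v₂ s) l₂) (sK (clip a s) (v s) (v₂ s) l₁ l₁₂ (v₁₂ s)) (r • p)) :=
      funext fun s => funext fun p => hψf s p
    rw [e]
    exact this
  have cu : Cts fun s => sU (v s) := cts_sU c0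
  have cZ : Cts fun s => zZ (sU (v s)) (sX (clip a s) (v s) (v₁ s) l₁) := cts_zZ cu cx₁ hup
  have cP : Cts fun s => zP (sU (v s)) (sX (clip a s) (v s) (v₁ s) l₁)
      (sX (clip a s) (v s) (v₂ s) l₂) := cts_zP cu cx₁ cx₂ hup hsm
  have cQ : Cts fun s => zQ (sU (v s)) (sX (clip a s) (v s) (v₁ s) l₁)
      (sX (clip a s) (v s) (v₂ s) l₂) := cts_zQ cu cx₁ cx₂ hup hsm
  have c00 : Cts (fun (_ : ℝ) (_ : ℝ × ℝ) => (0:ℝ)) := continuous_const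
  have cfx : Cts fun s => cf (zZ (sU (v s)) (sX (clip a s) (v s) (v₁ s) l₁)) (fun _ => 0) (ψ s) :=
    cts_cf cZ c00 cψ'
  have cfy : Cts fun s => cf (zP (sU (v s)) (sX (clip a s) (v s) (v₁ s) l₁)
      (sX (clip a s) (v s) (v₂ s) l₂))
      (zQ (sU (v s)) (sX (clip a s) (v s) (v₁ s) l₁) (sX (clip a s) (v s) (v₂ s) l₂)) (ψ s) :=
    cts_cf cP cQ cψ'
  have hDf : ∀ s p, D s p = ∫ r in (0:ℝ)..1,
      (p.1 • cf (zZ (sU (v s)) (sX (clip a s) (v s) (v₁ s) l₁)) (fun _ => 0) (ψ s) (r • p) +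
      p.2 • cf (zP (sU (v s)) (sX (clip a s) (v s) (v₁ s) l₁) (sX (clip a s) (v s) (v₂ s) l₂))
      (zQ (sU (v s)) (sX (clip a s) (v s) (v₁ s) l₁) (sX (clip a s) (v s) (v₂ s) l₂)) (ψ s)
      (r • p)) := fun s p =>
    primitive_formula (cD s) (D0 s) (Dx s) (Dy s) (cfx.slice s) (cfy.slice s) p
  have cD' : Cts D := by
    have := cts_primitive cfx cfy
    have e : D = fun s p => ∫ r in (0:ℝ)..1,
      (p.1 • cf (zZ (sU (v s)) (sX (clip a s) (v s) (v₁ s) l₁)) (fun _ => 0) (ψ s) (r • p) +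
      p.2 • cf (zP (sU (v s)) (sX (clip a s) (v s) (v₁ s) l₁) (sX (clip a s) (v s) (v₂ s) l₂))
      (zQ (sU (v s)) (sX (clip a s) (v s) (v₁ s) l₁) (sX (clip a s) (v s) (v₂ s) l₂)) (ψ s)
      (r • p)) := funext fun s => funext fun p => hDf s p
    rw [e]
    exact this
  -- the values at the parameter zero
  have hc0 : clip a 0 = 0 := clip_of_mem le_rfl ha.le
  have hX0 : ∀ (r : ℝ × ℝ → ℝ) (l : ℝ × ℝ → ℝ) p, sX (clip a 0) (v 0) r l p = 0 := by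
    intro r l p
    simp [sX, hc0]
  have hψ0 : ∀ p, ψ 0 p = 0 := by
    intro p
    rw [hψf]
    simp [aa, hX0, sE, z0, z1, z2]
  have hfx0 : ∀ p, cf (zZ (sU (v 0)) (sX (clip a 0) (v 0) (v₁ 0) l₁)) (fun _ => 0) (ψ 0) p = 1 := by
    intro p
    simp [cf, zZ, sU, hX0, z0, hψ0]
  have hfy0 : ∀ p, cf (zP (sU (v 0)) (sX (clip a 0) (v 0) (v₁ 0) l₁)
      (sX (clip a 0) (v 0) (v₂ 0) l₂))
      (zQ (sU (v 0)) (sX (clip a 0) (v 0) (v₁ 0) l₁) (sX (clip a 0) (v 0) (v₂ 0) l₂)) (ψ 0) p =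
      Complex.I := by
    intro p
    simp [cf, zP, zQ, sU, hX0, z0, hψ0]
  have hD0 : ∀ p, D 0 p = (p.1 : ℂ) + Complex.I * (p.2 : ℂ) := by
    intro p
    rw [hDf]
    simp only [hfx0, hfy0]
    simp [Complex.real_smul, mul_comm]
  have cE : ∀ w : ℝ × ℝ, Continuous fun s => D s w := fun w =>
    cD'.comp (Continuous.prodMk continuous_id continuous_const)
  refine ⟨a, ha, v, v₁, v₂, v₁₁, v₁₂, v₂₂, ψ, D, hsol', cψ, cD, Dx, Dy, Dw1, Dw2, cE _, cE _, ?_, ?_⟩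
  · rw [hD0]
    rfl
  · rw [hD0]
    rfl

end Vale.Agent.Lib.P205
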