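import Vale.Agent.Lib.P205.Flat

/-!
From a solution of the flatness equation to the data of the flat frame.
-/

open Real
open scoped ContDiff ComplexConjugate

namespace Vale.Agent.Lib.P205

/-- The function `ε ((1 + v) l + r)`. -/
noncomputable def sX (ε : ℝ) (v r l : ℝ × ℝ → ℝ) (p : ℝ × ℝ) : ℝ := ε * ((1 + v p) * l p + r p)

/-- The function `r / (1 + v)`. -/
noncomputable def sE (v r : ℝ × ℝ → ℝ) (p : ℝ × ℝ) : ℝ := r p / (1 + v p)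

/-- The function `ε (w l + (1 + v) m + r)`. -/
noncomputable def sK (ε : ℝ) (v w l m r : ℝ × ℝ → ℝ) (p : ℝ × ℝ) : ℝ :=
  ε * (w p * l p + (1 + v p) * m p + r p)

/-- The function `1 + v`. -/
noncomputable def sU (v : ℝ × ℝ → ℝ) (p : ℝ × ℝ) : ℝ := 1 + v p

theorem sX_fderiv {ε : ℝ} {v r l : ℝ × ℝ → ℝ} (hv : ContDiff ℝ ∞ v) (hr : ContDiff ℝ ∞ r)
    (hl : ContDiff ℝ ∞ l) (p w : ℝ × ℝ) :
    fderiv ℝ (sX ε v r l) p w =
      ε * (fderiv ℝ v p w * l p + (1 + v p) * fderiv ℝ l p w + fderiv ℝ r p w) := by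
  have hc : ContDiff ℝ ∞ (sX ε v r l) :=
    contDiff_const.mul (((contDiff_const.add hv).mul hl).add hr)
  apply fderiv_eq_of_line hc
  have h1 := line_hasDerivAt hv p w
  have h2 := line_hasDerivAt hr p w
  have h3 := line_hasDerivAt hl p w
  have h4 := (((h1.const_add 1).fun_mul h3).fun_add h2).const_mul ε
  simp only [zero_smul, add_zero] at h4
  refine h4.congr_deriv ?_
  ring

theorem sE_fderiv {v r : ℝ × ℝ → ℝ} (hv : ContDiff ℝ ∞ v) (hr : ContDiff ℝ ∞ r)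
    (hv' : ∀ p, |v p| ≤ 1 / 2) (p w : ℝ × ℝ) :
    fderiv ℝ (sE v r) p w =
      (fderiv ℝ r p w * (1 + v p) - r p * fderiv ℝ v p w) / (1 + v p) ^ 2 := by
  have hne : ∀ p, 1 + v p ≠ 0 := fun p => by
    have := abs_le.mp (hv' p)
    linarith [this.1]
  have hc : ContDiff ℝ ∞ (sE v r) := hr.div (contDiff_const.add hv) hne
  apply fderiv_eq_of_line hc
  have h1 := line_hasDerivAt hv p w
  have h2 := line_hasDerivAt hr p w
  have h4 := h2.fun_div (h1.const_add 1) (by simpa using hne p)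
  simp only [zero_smul, add_zero] at h4
  exact h4

variable {L : Lat} {l₁ l₂ l₁₁ l₁₂ l₂₂ : ℝ × ℝ → ℝ} {ε t : ℝ} {v v₁ v₂ v₁₁ v₁₂ v₂₂ : ℝ × ℝ → ℝ}

/-- The relations between the derivatives of the logarithm of the conformal factor. -/
structure LD (l₁ l₂ l₁₁ l₁₂ l₂₂ : ℝ × ℝ → ℝ) : Prop where
  dxx : ∀ p, fderiv ℝ l₁ p (1, 0) = l₁₁ p
  dxy : ∀ p, fderiv ℝ l₁ p (0, 1) = l₁₂ p
  dyx : ∀ p, fderiv ℝ l₂ p (1, 0) = l₁₂ p
  dyy : ∀ p, fderiv ℝ l₂ p (0, 1) = l₂₂ p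

theorem sol_fd (h : IsSol L l₁ l₂ l₁₁ l₁₂ l₂₂ ε t v v₁ v₂ v₁₁ v₁₂ v₂₂)
    (h₁ : PF L l₁) (h₂ : PF L l₂) (hl : LD l₁ l₂ l₁₁ l₁₂ l₂₂) :
    FD (sU v) (sX ε v v₁ l₁) (sX ε v v₂ l₂) (sE v v₁) (sE v v₂)
      (sK ε v v₁ l₁ l₁₁ v₁₁) (sK ε v v₂ l₁ l₁₂ v₁₂) (sK ε v v₁ l₂ l₁₂ v₁₂)
      (sK ε v v₂ l₂ l₂₂ v₂₂) := by
  have hne : ∀ p, 1 + v p ≠ 0 := fun p => by
    have := abs_le.mp (h.bd p)
    linarith [this.1]
  have hv := h.pv.1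
  have hv1 := h.pv₁.1
  have hv2 := h.pv₂.1
  refine ⟨contDiff_const.add hv, contDiff_const.mul (((contDiff_const.add hv).mul h₁.1).add hv1),
    contDiff_const.mul (((contDiff_const.add hv).mul h₂.1).add hv2),
    hv1.div (contDiff_const.add hv) hne, hv2.div (contDiff_const.add hv) hne, fun p => ?_,
    fun p => ?_, fun p => ?_, fun p => ?_, fun p => ?_, fun p => ?_, fun p => ?_, fun p => ?_,
    fun p => ?_⟩
  · have := abs_le.mp (h.bd p)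
    simp only [sU]
    linarith [this.1]
  · have h1 := h.bdX p
    simp only [sX]
    nlinarith
  · -- derivative of `u`
    have h1 : HasFDerivAt (sU v) (fderiv ℝ v p) p :=
      (hasFDerivAt_of_contDiff hv p).const_add 1
    show fderiv ℝ (sU v) p (1, 0) = _
    rw [h1.fderiv, h.dx p]
    simp only [sU, sE]
    rw [mul_div_cancel₀ _ (hne p)]
  · have h1 : HasFDerivAt (sU v) (fderiv ℝ v p) p :=
      (hasFDerivAt_of_contDiff hv p).const_add 1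
    show fderiv ℝ (sU v) p (0, 1) = _
    rw [h1.fderiv, h.dy p]
    simp only [sU, sE]
    rw [mul_div_cancel₀ _ (hne p)]
  · show fderiv ℝ (sX ε v v₁ l₁) p (1, 0) = _
    rw [sX_fderiv hv hv1 h₁.1, h.dx, hl.dxx, h.dxx]
    rfl
  · show fderiv ℝ (sX ε v v₁ l₁) p (0, 1) = _
    rw [sX_fderiv hv hv1 h₁.1, h.dy, hl.dxy, h.dxy]
    rfl
  · show fderiv ℝ (sX ε v v₂ l₂) p (1, 0) = _
    rw [sX_fderiv hv hv2 h₂.1, h.dx, hl.dyx, h.dyx]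
    rfl
  · show fderiv ℝ (sX ε v v₂ l₂) p (0, 1) = _
    rw [sX_fderiv hv hv2 h₂.1, h.dy, hl.dyy, h.dyy]
    rfl
  · simp only [sK, sX, sE]
    have := hne p
    field_simp
    ring

/-- **The curvature of the connection of a solution.** -/
theorem sol_curvature (h : IsSol L l₁ l₂ l₁₁ l₁₂ l₂₂ ε t v v₁ v₂ v₁₁ v₁₂ v₂₂)
    (h₁ : PF L l₁) (h₂ : PF L l₂) (hl : LD l₁ l₂ l₁₁ l₁₂ l₂₂) (p : ℝ × ℝ) :
    dy (aa (sE v v₂) (sX ε v v₁ l₁) (sX ε v v₂ l₂) (sK ε v v₁ l₁ l₁₁ v₁₁)) p -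
      dx (aa (fun q => -sE v v₁ q) (sX ε v v₁ l₁) (sX ε v v₂ l₂) (sK ε v v₂ l₁ l₁₂ v₁₂)) p =
      t * (1 / ((1 + v p) ^ 2 * √(1 - sX ε v v₁ l₁ p ^ 2 - sX ε v v₂ l₂ p ^ 2) ^ 3)) := by
  have hf := sol_fd h h₁ h₂ hl
  rw [hf.curvature p]
  have hne : 1 + v p ≠ 0 := by
    have := abs_le.mp (h.bd p)
    linarith [this.1]
  have hW := pos_W hf.small p
  have hwp := (Real.sqrt_pos.mpr hW).ne'
  have hw2 : √(1 - sX ε v v₁ l₁ p ^ 2 - sX ε v v₂ l₂ p ^ 2) ^ 2 =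
      1 - sX ε v v₁ l₁ p ^ 2 - sX ε v v₂ l₂ p ^ 2 := Real.sq_sqrt hW.le
  have e1 : dx (sE v v₁) p = (v₁₁ p * (1 + v p) - v₁ p * v₁ p) / (1 + v p) ^ 2 := by
    show fderiv ℝ (sE v v₁) p (1, 0) = _
    rw [sE_fderiv h.pv.1 h.pv₁.1 h.bd, h.dx, h.dxx]
  have e2 : dy (sE v v₂) p = (v₂₂ p * (1 + v p) - v₂ p * v₂ p) / (1 + v p) ^ 2 := by
    show fderiv ℝ (sE v v₂) p (0, 1) = _
    rw [sE_fderiv h.pv.1 h.pv₂.1 h.bd, h.dy, h.dyy]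
  rw [e1, e2, hw2, ← h.pde p]
  rw [mul_one_div, div_eq_div_iff (pow_ne_zero 3 hwp) (mul_ne_zero (pow_ne_zero 2 hne)
    (pow_ne_zero 3 hwp))]
  simp only [sX, sK, sE, pdeLHS]
  field_simp
  ring

end Vale.Agent.Lib.P205
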