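import Vale.Agent.Lib.P205.DevTwo

/-!
The development of the flat metric attached to a solution of the flatness equation.
-/

open Real
open scoped ContDiff ComplexConjugate

namespace Vale.Agent.Lib.P205

theorem shift_const {f : ℝ × ℝ → ℝ} (hf : ContDiff ℝ ∞ f) {w : ℝ × ℝ}
    (hx : ∀ p, dx f (p + w) = dx f p) (hy : ∀ p, dy f (p + w) = dy f p) (p : ℝ × ℝ) :
    f (p + w) = f p + (f (0 + w) - f 0) := by
  have hh : ContDiff ℝ ∞ (fun q => f (q + w) - f q) :=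
    (hf.comp (contDiff_id.add contDiff_const)).sub hf
  have hd : ∀ q, HasFDerivAt (fun q => f (q + w) - f q)
      (fderiv ℝ f (q + w) - fderiv ℝ f q) q := by
    intro q
    have h1 := (hasFDerivAt_comp_add_right (x := q) (f := f) (f' := fderiv ℝ f (q + w)) w).mpr
      (hasFDerivAt_of_contDiff hf (q + w))
    exact h1.sub (hasFDerivAt_of_contDiff hf q)
  have := const_of_partials_zero hh
    (fun q => by
      show fderiv ℝ (fun q => f (q + w) - f q) q (1, 0) = 0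
      rw [(hd q).fderiv]
      have := hx q
      simp only [dx] at this
      simp [this])
    (fun q => by
      show fderiv ℝ (fun q => f (q + w) - f q) q (0, 1) = 0
      rw [(hd q).fderiv]
      have := hy q
      simp only [dy] at this
      simp [this]) p 0
  linarith

theorem affine_shift {D fx fy : ℝ × ℝ → ℂ} (hD : ContDiff ℝ ∞ D) (hDx : ∀ p, dx D p = fx p)
    (hDy : ∀ p, dy D p = fy p) {w : ℝ × ℝ} {k : ℂ} (h1 : ∀ p, fx (p + w) = k * fx p)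
    (h2 : ∀ p, fy (p + w) = k * fy p) (p : ℝ × ℝ) :
    D (p + w) = k * D p + (D (0 + w) - k * D 0) := by
  have hh : ContDiff ℝ ∞ (fun q => D (q + w) - k * D q) :=
    (hD.comp (contDiff_id.add contDiff_const)).sub (contDiff_const.mul hD)
  have hd : ∀ q, HasFDerivAt (fun q => D (q + w) - k * D q)
      (fderiv ℝ D (q + w) - k • fderiv ℝ D q) q := by
    intro q
    have h3 := (hasFDerivAt_comp_add_right (x := q) (f := D) (f' := fderiv ℝ D (q + w)) w).mpr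
      (hasFDerivAt_of_contDiff hD (q + w))
    exact h3.sub ((hasFDerivAt_of_contDiff hD q).const_mul k)
  have := const_of_partials_zero hh
    (fun q => by
      show fderiv ℝ (fun q => D (q + w) - k * D q) q (1, 0) = 0
      rw [(hd q).fderiv]
      have e1 : fderiv ℝ D (q + w) (1, 0) = fx (q + w) := hDx _
      have e2 : fderiv ℝ D q (1, 0) = fx q := hDx _
      simp [e1, e2, h1])
    (fun q => by
      show fderiv ℝ (fun q => D (q + w) - k * D q) q (0, 1) = 0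
      rw [(hd q).fderiv]
      have e1 : fderiv ℝ D (q + w) (0, 1) = fy (q + w) := hDy _
      have e2 : fderiv ℝ D q (0, 1) = fy q := hDy _
      simp [e1, e2, h2]) p 0
  linear_combination this

theorem normSq_exp_I (x : ℝ) : Complex.normSq (Complex.exp (Complex.I * x)) = 1 := by
  rw [Complex.normSq_eq_norm_sq, mul_comm, Complex.norm_exp_ofReal_mul_I]
  simp

/-- Independence of the frame vectors. -/
theorem frame_indep {Z P Q ψ : ℝ × ℝ → ℝ} (p : ℝ × ℝ) (hZ : 0 < Z p) (hQ : 0 < Q p) (z : ℂ)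
    (h1 : (conj z * cf Z (fun _ => 0) ψ p).re = 0) (h2 : (conj z * cf P Q ψ p).re = 0) : z = 0 := by
  unfold cf at h1 h2
  set E := Complex.exp (Complex.I * (ψ p : ℂ)) with hE
  have hEne : E ≠ 0 := Complex.exp_ne_zero _
  set y := conj z * E with hy
  have e1 : conj z * (((Z p : ℂ) + Complex.I * ((0:ℝ) : ℂ)) * E) = (Z p : ℂ) * y := by
    simp only [hy]
    push_cast
    ring
  have e2 : conj z * (((P p : ℂ) + Complex.I * (Q p : ℂ)) * E) =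
      ((P p : ℂ) + Complex.I * (Q p : ℂ)) * y := by
    simp only [hy]
    ring
  rw [e1] at h1
  rw [e2] at h2
  have h3 : y.re = 0 := by
    have : Z p * y.re = 0 := by simpa using h1
    exact (mul_eq_zero.mp this).resolve_left hZ.ne'
  have h4 : y.im = 0 := by
    have : P p * y.re - Q p * y.im = 0 := by simpa using h2
    rw [h3] at this
    have h5 : Q p * y.im = 0 := by linarith
    exact (mul_eq_zero.mp h5).resolve_left hQ.ne'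
  have h5 : y = 0 := Complex.ext h3 h4
  have h6 : conj z = 0 := (mul_eq_zero.mp h5).resolve_right hEne
  exact (map_eq_zero _).mp h6

variable {L : Lat} {l₁ l₂ l₁₁ l₁₂ l₂₂ : ℝ × ℝ → ℝ} {ε t : ℝ} {v v₁ v₂ v₁₁ v₁₂ v₂₂ : ℝ × ℝ → ℝ}

theorem zZ_pos {u ξ₁ ξ₂ : ℝ × ℝ → ℝ} (hu : ∀ p, 0 < u p) (hs : ∀ p, ξ₁ p ^ 2 + ξ₂ p ^ 2 < 1)
    (p : ℝ × ℝ) : 0 < zZ u ξ₁ p :=
  div_pos (Real.sqrt_pos.mpr (pos_A hs p)) (hu p)

theorem zQ_pos {u ξ₁ ξ₂ : ℝ × ℝ → ℝ} (hu : ∀ p, 0 < u p) (hs : ∀ p, ξ₁ p ^ 2 + ξ₂ p ^ 2 < 1)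
    (p : ℝ × ℝ) : 0 < zQ u ξ₁ ξ₂ p :=
  div_pos (Real.sqrt_pos.mpr (pos_W hs p)) (mul_pos (hu p) (Real.sqrt_pos.mpr (pos_A hs p)))

/-- **The development of a solution.** -/
theorem dev_one (h : IsSol L l₁ l₂ l₁₁ l₁₂ l₂₂ ε t v v₁ v₂ v₁₁ v₁₂ v₂₂)
    (h₁ : PF L l₁) (h₂ : PF L l₂) (h₁₁ : PF L l₁₁) (h₁₂ : PF L l₁₂)
    (hl : LD l₁ l₂ l₁₁ l₁₂ l₂₂) :
    t = 0 ∧ ∃ ψ : ℝ × ℝ → ℝ, ∃ D : ℝ × ℝ → ℂ, ContDiff ℝ ∞ ψ ∧ ψ 0 = 0 ∧
      (∀ p, dx ψ p = aa (sE v v₂) (sX ε v v₁ l₁) (sX ε v v₂ l₂) (sK ε v v₁ l₁ l₁₁ v₁₁) p) ∧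
      (∀ p, dy ψ p = aa (fun q => -sE v v₁ q) (sX ε v v₁ l₁) (sX ε v v₂ l₂)
        (sK ε v v₂ l₁ l₁₂ v₁₂) p) ∧
      ContDiff ℝ ∞ D ∧ D 0 = 0 ∧
      (∀ p, dx D p = cf (zZ (sU v) (sX ε v v₁ l₁)) (fun _ => 0) ψ p) ∧
      (∀ p, dy D p = cf (zP (sU v) (sX ε v v₁ l₁) (sX ε v v₂ l₂))
        (zQ (sU v) (sX ε v v₁ l₁) (sX ε v v₂ l₂)) ψ p) ∧
      (∀ p, D (p + L.w1) = D p + D L.w1) ∧ (∀ p, D (p + L.w2) = D p + D L.w2) := by
  have hf := sol_fd h h₁ h₂ hl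
  set ξ₁ := sX ε v v₁ l₁ with hξ₁
  set ξ₂ := sX ε v v₂ l₂ with hξ₂
  set G₁ := sK ε v v₁ l₁ l₁₁ v₁₁ with hG₁
  set G₂ := sK ε v v₂ l₁ l₁₂ v₁₂ with hG₂
  set a₁ := aa (sE v v₂) ξ₁ ξ₂ G₁ with ha₁
  set a₂ := aa (fun q => -sE v v₁ q) ξ₁ ξ₂ G₂ with ha₂
  have hne : ∀ p, 1 + v p ≠ 0 := fun p => by
    have := abs_le.mp (h.bd p)
    linarith [this.1]
  have hup : ∀ p, 0 < 1 + v p := fun p => by
    have := abs_le.mp (h.bd p)
    linarith [this.1]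
  -- periodicity
  have p1 : ∀ (w : ℝ × ℝ) (hw : ∀ f : ℝ × ℝ → ℝ, PF L f → ∀ p, f (p + w) = f p) (p : ℝ × ℝ),
      a₁ (p + w) = a₁ p ∧ a₂ (p + w) = a₂ p ∧ sU v (p + w) = sU v p ∧ ξ₁ (p + w) = ξ₁ p ∧
        ξ₂ (p + w) = ξ₂ p := by
    intro w hw p
    simp only [ha₁, ha₂, hξ₁, hξ₂, hG₁, hG₂, aa, sX, sE, sK, sU, hw _ h.pv, hw _ h.pv₁, hw _ h.pv₂,
      hw _ h.pv₁₁, hw _ h.pv₁₂, hw _ h₁, hw _ h₂, hw _ h₁₁, hw _ h₁₂, and_self]
  have hw1 : ∀ f : ℝ × ℝ → ℝ, PF L f → ∀ p, f (p + L.w1) = f p := fun f hf => hf.2.1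
  have hw2 : ∀ f : ℝ × ℝ → ℝ, PF L f → ∀ p, f (p + L.w2) = f p := fun f hf => hf.2.2
  have ca₁ : ContDiff ℝ ∞ a₁ := contDiff_aa hf.e2 hf.c1 hf.c2 hf.cG₁ hf.small
  have ca₂ : ContDiff ℝ ∞ a₂ := contDiff_aa hf.e1.neg hf.c1 hf.c2 hf.cG₂ hf.small
  have pa₁ : PF L a₁ := ⟨ca₁, fun p => (p1 _ hw1 p).1, fun p => (p1 _ hw2 p).1⟩
  have pa₂ : PF L a₂ := ⟨ca₂, fun p => (p1 _ hw1 p).2.1, fun p => (p1 _ hw2 p).2.1⟩
  -- the constant vanishes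
  have hwpos : ∀ p, 0 < √(1 - ξ₁ p ^ 2 - ξ₂ p ^ 2) := fun p => Real.sqrt_pos.mpr (pos_W hf.small p)
  have ht : t = 0 := by
    refine no_positive_curl (L := L) (Ω := fun p => 1 / ((1 + v p) ^ 2 *
      √(1 - ξ₁ p ^ 2 - ξ₂ p ^ 2) ^ 3)) pa₁ pa₂ ?_ (fun p => ?_) (sol_curvature h h₁ h₂ hl)
    · refine continuous_const.div ?_ (fun p => ?_)
      · exact ((continuous_const.add h.pv.1.continuous).pow 2).mul
          ((contDiff_sW hf.c1 hf.c2 hf.small).continuous.pow 3)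
      · exact (mul_pos (pow_pos (hup p) 2) (pow_pos (hwpos p) 3)).ne'
    · exact one_div_pos.mpr (mul_pos (pow_pos (hup p) 2) (pow_pos (hwpos p) 3))
  refine ⟨ht, ?_⟩
  have hcurl : ∀ p, dy a₁ p = dx a₂ p := by
    intro p
    have := sol_curvature h h₁ h₂ hl p
    rw [ht, zero_mul] at this
    linarith
  obtain ⟨ψ, cψ, ψ0, ψx, ψy⟩ := exists_primitive2 ca₁ ca₂ hcurl
  have hZc := contDiff_zZ hf.cu hf.upos hf.c1 hf.small
  have hPc := contDiff_zP hf.cu hf.upos hf.c1 hf.c2 hf.small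
  have hQc := contDiff_zQ hf.cu hf.upos hf.c1 hf.c2 hf.small
  obtain ⟨D, cD, D0, Dx, Dy⟩ := exists_primitive2
    (contDiff_cf hZc contDiff_const cψ) (contDiff_cf hPc hQc cψ) (hf.closure cψ ψx ψy)
  -- the shift of the angle
  have hshift : ∀ (w : ℝ × ℝ) (hw : ∀ f : ℝ × ℝ → ℝ, PF L f → ∀ p, f (p + w) = f p),
      ∃ c : ℂ, Complex.normSq c = 1 ∧ ∀ p, D (p + w) = c * D p + D w := by
    intro w hw
    have e0 := shift_const cψ (w := w) (fun p => by rw [ψx, ψx, hw _ pa₁])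
      (fun p => by rw [ψy, ψy, hw _ pa₂])
    rw [ψ0, sub_zero, zero_add] at e0
    refine ⟨Complex.exp (Complex.I * (ψ w : ℂ)), normSq_exp_I _, fun p => ?_⟩
    have hq := p1 w hw
    have h3 : ∀ (α β : ℝ × ℝ → ℝ), (∀ p, α (p + w) = α p) → (∀ p, β (p + w) = β p) → ∀ p,
        cf α β ψ (p + w) = Complex.exp (Complex.I * (ψ w : ℂ)) * cf α β ψ p := by
      intro α β h5 h6 p
      unfold cf
      rw [h5, h6, e0]
      push_cast
      rw [mul_add, Complex.exp_add]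
      ring
    have h4 := affine_shift cD Dx Dy (w := w) (k := Complex.exp (Complex.I * (ψ w : ℂ)))
      (h3 _ _ (fun p => by
        simp only [zZ, (hq p).2.2.2.1, (hq p).2.2.1]) (fun _ => rfl))
      (h3 _ _ (fun p => by
        simp only [zP, (hq p).2.2.2.1, (hq p).2.2.1, (hq p).2.2.2.2]) (fun p => by
        simp only [zQ, (hq p).2.2.2.1, (hq p).2.2.1, (hq p).2.2.2.2])) p
    rw [D0, mul_zero, sub_zero, zero_add] at h4
    exact h4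
  obtain ⟨k₁, hk₁, hD₁⟩ := hshift L.w1 hw1
  obtain ⟨k₂, hk₂, hD₂⟩ := hshift L.w2 hw2
  have hZp : ∀ p, 0 < zZ (sU v) ξ₁ p := zZ_pos hf.upos hf.small
  have hQp : ∀ p, 0 < zQ (sU v) ξ₁ ξ₂ p := zQ_pos hf.upos hf.small
  have hnz : ∀ p, cf (zZ (sU v) ξ₁) (fun _ => 0) ψ p ≠ 0 := by
    intro p
    unfold cf
    refine mul_ne_zero ?_ (Complex.exp_ne_zero _)
    have := (hZp p).ne'
    simpa using this
  have hind : ∀ p z, (conj z * cf (zZ (sU v) ξ₁) (fun _ => 0) ψ p).re = 0 →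
      (conj z * cf (zP (sU v) ξ₁ ξ₂) (zQ (sU v) ξ₁ ξ₂) ψ p).re = 0 → z = 0 :=
    fun p z => frame_indep p (hZp p) (hQp p) z
  have hk₁1 : k₁ = 1 := holonomy_aux cD Dx Dy hnz hind
    (fun f hc h3 h4 => exists_max_lattice (L := L) hc h3 h4) hk₁ hk₂ hD₁ hD₂
  have hk₂1 : k₂ = 1 := holonomy_aux cD Dx Dy hnz hind
    (fun f hc h3 h4 => exists_max_lattice (L := L) hc h4 h3) hk₂ hk₁ hD₂ hD₁
  refine ⟨ψ, D, cψ, ψ0, ψx, ψy, cD, D0, Dx, Dy, fun p => ?_, fun p => ?_⟩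
  · rw [hD₁, hk₁1, one_mul]
  · rw [hD₂, hk₂1, one_mul]

end Vale.Agent.Lib.P205
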