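import Vale.Agent.Lib.P205.DevOne

/-!
Periodic functions: the vanishing of the mean of a curl, maxima, and the holonomy lemma.
-/

open Real
open scoped ContDiff ComplexConjugate

namespace Vale.Agent.Lib.P205

variable {L : Lat}

theorem fderiv_periodic {F : Type*} [NormedAddCommGroup F] [NormedSpace ℝ F] {f : ℝ × ℝ → F}
    {w : ℝ × ℝ} (h : ∀ p, f (p + w) = f p) (p : ℝ × ℝ) : fderiv ℝ f (p + w) = fderiv ℝ f p := by
  have e : (fun q => f (q + w)) = f := funext h
  have := fderiv_comp_add_right (𝕜 := ℝ) (f := f) (x := p) w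
  rw [e] at this
  exact this.symm

theorem pf_dx {f : ℝ × ℝ → ℝ} (h : PF L f) : PF L (dx f) :=
  ⟨contDiff_dx h.1, fun p => by simp only [dx, fderiv_periodic h.2.1],
    fun p => by simp only [dx, fderiv_periodic h.2.2]⟩

theorem pf_dy {f : ℝ × ℝ → ℝ} (h : PF L f) : PF L (dy f) :=
  ⟨contDiff_dy h.1, fun p => by simp only [dy, fderiv_periodic h.2.1],
    fun p => by simp only [dy, fderiv_periodic h.2.2]⟩

theorem Lat.emb_line (L : Lat) (q e : ℝ × ℝ) (t : ℝ) : L.emb (q + t • e) = L.emb q + t • L.emb e := by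
  ext <;> simp [Lat.emb] <;> ring

theorem comp_emb_fderiv {F : Type*} [NormedAddCommGroup F] [NormedSpace ℝ F] {f : ℝ × ℝ → F}
    (hf : ContDiff ℝ ∞ f) (q e : ℝ × ℝ) :
    fderiv ℝ (fun q => f (L.emb q)) q e = fderiv ℝ f (L.emb q) (L.emb e) := by
  apply fderiv_eq_of_line (hf.comp L.emb_contDiff)
  have h := line_hasDerivAt hf (L.emb q) (L.emb e)
  simp only [← L.emb_line] at h
  exact h

theorem sp_of_pf {f : ℝ × ℝ → ℝ} (h : PF L f) : SP (fun q => (f (L.emb q) : ℂ)) := by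
  refine ⟨Complex.ofRealCLM.contDiff.comp (h.1.comp L.emb_contDiff), ?_, ?_⟩
  · intro x y
    simp only
    rw [L.emb_add_one_left, h.2.1]
  · intro x y
    simp only
    rw [L.emb_add_one_right, h.2.2]

theorem coef1_add {g h : ℝ → ℂ} (hg : Continuous g) (hh : Continuous h) (m : ℤ) :
    coef1 (fun t => g t + h t) m = coef1 g m + coef1 h m := by
  unfold coef1
  have h3 := intervalIntegral.integral_add (a := 0) (b := 1) (μ := MeasureTheory.volume)
    (f := fun t => g t * ch (-m) t) (g := fun t => h t * ch (-m) t)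
    ((hg.mul (ch_continuous _)).intervalIntegrable _ _)
    ((hh.mul (ch_continuous _)).intervalIntegrable _ _)
  rw [← h3]
  congr 1
  ext t
  ring

theorem Coef_zero_add {G H : ℝ × ℝ → ℂ} (hG : SP G) (hH : SP H) :
    Coef (fun q => G q + H q) 0 = Coef G 0 + Coef H 0 := by
  unfold Coef
  have e : (fun x => coef1 (fun y => G (x, y) + H (x, y)) (0 : ℤ × ℤ).2) =
      fun x => coef1 (fun y => G (x, y)) (0 : ℤ × ℤ).2 + coef1 (fun y => H (x, y)) (0 : ℤ × ℤ).2 := by
    ext x
    exact coef1_add (hG.1.continuous.comp (by fun_prop)) (hH.1.continuous.comp (by fun_prop)) _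
  rw [e]
  exact coef1_add (coef1_param_continuous hG _) (coef1_param_continuous hH _) _

theorem coef1_ofReal_zero (f : ℝ → ℝ) : coef1 (fun t => (f t : ℂ)) 0 = ((∫ t in (0:ℝ)..1, f t : ℝ) : ℂ) := by
  unfold coef1
  simp only [neg_zero, ch, Int.cast_zero, mul_zero, zero_mul, Complex.exp_zero, mul_one]
  exact intervalIntegral.integral_ofReal

/-- The curl of a periodic one-form has mean zero, so it cannot be a nonzero multiple of a
positive function. -/
theorem no_positive_curl {a₁ a₂ Ω : ℝ × ℝ → ℝ} (h₁ : PF L a₁) (h₂ : PF L a₂) (hΩ : Continuous Ω)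
    (hpos : ∀ p, 0 < Ω p) {t : ℝ} (h : ∀ p, dy a₁ p - dx a₂ p = t * Ω p) : t = 0 := by
  let f₁ : ℝ × ℝ → ℝ := fun p => -(L.c * a₁ p + L.d * a₂ p)
  let f₂ : ℝ × ℝ → ℝ := fun p => L.a * a₁ p + L.b * a₂ p
  have hf₁ : PF L f₁ := by
    refine ⟨((contDiff_const.mul h₁.1).add (contDiff_const.mul h₂.1)).neg, fun p => ?_, fun p => ?_⟩
    · simp only [f₁, h₁.2.1, h₂.2.1]
    · simp only [f₁, h₁.2.2, h₂.2.2]
  have hf₂ : PF L f₂ := by
    refine ⟨(contDiff_const.mul h₁.1).add (contDiff_const.mul h₂.1), fun p => ?_, fun p => ?_⟩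
    · simp only [f₂, h₁.2.1, h₂.2.1]
    · simp only [f₂, h₁.2.2, h₂.2.2]
  have hG₁ := sp_of_pf hf₁
  have hG₂ := sp_of_pf hf₂
  set G₁ : ℝ × ℝ → ℂ := fun q => (f₁ (L.emb q) : ℂ) with hG₁def
  set G₂ : ℝ × ℝ → ℂ := fun q => (f₂ (L.emb q) : ℂ) with hG₂def
  -- the derivatives
  have hd : ∀ (f : ℝ × ℝ → ℝ), ContDiff ℝ ∞ f → ∀ q e,
      fderiv ℝ (fun q => (f (L.emb q) : ℂ)) q e = ((fderiv ℝ f (L.emb q) (L.emb e) : ℝ) : ℂ) := by
    intro f hf q e
    apply fderiv_eq_of_line (Complex.ofRealCLM.contDiff.comp (hf.comp L.emb_contDiff))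
    have h0 := line_hasDerivAt hf (L.emb q) (L.emb e)
    simp only [← L.emb_line] at h0
    exact h0.ofReal_comp
  have hlin : ∀ (α β : ℝ) (x e : ℝ × ℝ), fderiv ℝ (fun p => α * a₁ p + β * a₂ p) x e =
      α * fderiv ℝ a₁ x e + β * fderiv ℝ a₂ x e := by
    intro α β x e
    have := ((hasFDerivAt_of_contDiff h₁.1 x).const_mul α).fun_add
      ((hasFDerivAt_of_contDiff h₂.1 x).const_mul β)
    rw [this.fderiv]
    simp
  have hsum : ∀ q, d1 G₁ q + d2 G₂ q =
      ((L.det * t * Ω (L.emb q) : ℝ) : ℂ) := by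
    intro q
    have e1 : d1 G₁ q = ((fderiv ℝ f₁ (L.emb q) (L.emb (1, 0)) : ℝ) : ℂ) := hd f₁ hf₁.1 q (1, 0)
    have e2 : d2 G₂ q = ((fderiv ℝ f₂ (L.emb q) (L.emb (0, 1)) : ℝ) : ℂ) := hd f₂ hf₂.1 q (0, 1)
    rw [e1, e2, ← Complex.ofReal_add]
    congr 1
    have e3 : fderiv ℝ f₂ (L.emb q) (L.emb (0, 1)) = _ := hlin L.a L.b _ _
    have e4 : fderiv ℝ f₁ (L.emb q) (L.emb (1, 0)) =
        -(L.c * fderiv ℝ a₁ (L.emb q) (L.emb (1, 0)) +
          L.d * fderiv ℝ a₂ (L.emb q) (L.emb (1, 0))) := by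
      have : f₁ = fun p => -(L.c * a₁ p + L.d * a₂ p) := rfl
      rw [this]
      have h3 := (((hasFDerivAt_of_contDiff h₁.1 (L.emb q)).const_mul L.c).fun_add
        ((hasFDerivAt_of_contDiff h₂.1 (L.emb q)).const_mul L.d)).fun_neg
      rw [h3.fderiv]
      simp
    rw [e3, e4]
    have h5 := h (L.emb q)
    have eA : L.emb (1, 0) = (L.a, L.b) := by simp [Lat.emb]
    have eB : L.emb (0, 1) = (L.c, L.d) := by simp [Lat.emb]
    rw [eA, eB]
    simp only [fderiv_apply_eq, smul_eq_mul]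
    have e5 : L.det = L.a * L.d - L.b * L.c := rfl
    rw [mul_assoc, ← h5, e5]
    ring
  -- the mean of the left hand side vanishes
  have hz : Coef (fun q => d1 G₁ q + d2 G₂ q) 0 = 0 := by
    rw [Coef_zero_add hG₁.d1 hG₂.d2, Coef_d1 hG₁, Coef_d2 hG₂]
    simp
  -- the mean of the right hand side
  have hΩe : ∀ x y : ℝ, 0 < Ω (L.emb (x, y)) := fun x y => hpos _
  have hΩc : Continuous fun q : ℝ × ℝ => Ω (L.emb q) := hΩ.comp L.emb_contDiff.continuous
  let J : ℝ → ℝ := fun x => ∫ y in (0:ℝ)..1, Ω (L.emb (x, y))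
  have hJc : Continuous J :=
    intervalIntegral.continuous_parametric_intervalIntegral_of_continuous'
      (by
        have e : Function.uncurry (fun x y => Ω (L.emb (x, y))) = fun q => Ω (L.emb q) := by
          ext ⟨x, y⟩
          rfl
        rw [e]
        exact hΩc) 0 1
  have hJpos : ∀ x, 0 < J x := fun x =>
    intervalIntegral.intervalIntegral_pos_of_pos
      ((hΩc.comp (by fun_prop : Continuous fun y : ℝ => (x, y))).intervalIntegrable _ _)
      (fun y => hΩe x y) one_pos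
  have hI : 0 < ∫ x in (0:ℝ)..1, J x :=
    intervalIntegral.intervalIntegral_pos_of_pos (hJc.intervalIntegrable _ _) hJpos one_pos
  have hv : Coef (fun q => d1 G₁ q + d2 G₂ q) 0 =
      ((L.det * t * ∫ x in (0:ℝ)..1, J x : ℝ) : ℂ) := by
    simp only [hsum]
    unfold Coef
    have e1 : (fun x => coef1 (fun y => ((L.det * t * Ω (L.emb (x, y)) : ℝ) : ℂ)) (0 : ℤ × ℤ).2) =
        fun x => ((L.det * t * J x : ℝ) : ℂ) := by
      ext x
      have := coef1_ofReal_zero (fun y => L.det * t * Ω (L.emb (x, y)))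
      simp only [Prod.snd_zero]
      rw [this, intervalIntegral.integral_const_mul]
    rw [e1]
    have := coef1_ofReal_zero (fun x => L.det * t * J x)
    simp only [Prod.fst_zero]
    rw [this, intervalIntegral.integral_const_mul]
  rw [hz] at hv
  have h0 : L.det * t * ∫ x in (0:ℝ)..1, J x = 0 := by exact_mod_cast hv.symm
  have hd' := L.det_ne'
  have : L.det * t = 0 := (mul_eq_zero.mp h0).resolve_right hI.ne'
  exact (mul_eq_zero.mp this).resolve_left hd'

/-- A continuous periodic function attains its maximum. -/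
theorem exists_max_lattice {f : ℝ × ℝ → ℝ} (hc : Continuous f) (h1 : ∀ p, f (p + L.w1) = f p)
    (h2 : ∀ p, f (p + L.w2) = f p) : ∃ p₀, ∀ p, f p ≤ f p₀ := by
  have hcomp : IsCompact (Set.Icc (0:ℝ) 1 ×ˢ Set.Icc (0:ℝ) 1) := isCompact_Icc.prod isCompact_Icc
  have hne : (Set.Icc (0:ℝ) 1 ×ˢ Set.Icc (0:ℝ) 1).Nonempty :=
    ⟨(0, 0), ⟨by simp, by simp⟩⟩
  obtain ⟨q₀, -, hq₀⟩ := hcomp.exists_isMaxOn hne
    ((hc.comp L.emb_contDiff.continuous).continuousOn)
  refine ⟨L.emb q₀, fun p => ?_⟩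
  have hp : p = L.emb (L.crd p) := (L.emb_crd p).symm
  generalize L.crd p = q at hp
  obtain ⟨x, y⟩ := q
  have hp1 : Function.Periodic (fun x => f (L.emb (x, y))) 1 := fun x => by
    simp only
    rw [L.emb_add_one_left, h1]
  have e1 : f (L.emb (x, y)) = f (L.emb (Int.fract x, y)) := by
    have := hp1.sub_int_mul_eq (x := x) ⌊x⌋
    simp only [mul_one] at this
    exact this.symm
  have hp2 : Function.Periodic (fun y => f (L.emb (Int.fract x, y))) 1 := fun y => by
    simp only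
    rw [L.emb_add_one_right, h2]
  have e2 : f (L.emb (Int.fract x, y)) = f (L.emb (Int.fract x, Int.fract y)) := by
    have := hp2.sub_int_mul_eq (x := y) ⌊y⌋
    simp only [mul_one] at this
    exact this.symm
  rw [hp, e1, e2]
  exact hq₀ ⟨⟨Int.fract_nonneg x, (Int.fract_lt_one x).le⟩,
    ⟨Int.fract_nonneg y, (Int.fract_lt_one y).le⟩⟩

/-- The derivative of the squared modulus. -/
theorem normSq_fderiv {f : ℝ × ℝ → ℂ} (hf : ContDiff ℝ ∞ f) (p e : ℝ × ℝ) :
    HasDerivAt (fun t : ℝ => Complex.normSq (f (p + t • e)))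
      (2 * (conj (f p) * fderiv ℝ f p e).re) 0 := by
  have h := line_hasDerivAt hf p e
  have hr := Complex.reCLM.hasFDerivAt.comp_hasDerivAt (0:ℝ) h
  have hi := Complex.imCLM.hasFDerivAt.comp_hasDerivAt (0:ℝ) h
  have h3 := (hr.fun_mul hr).fun_add (hi.fun_mul hi)
  simp only [Complex.normSq_apply]
  refine h3.congr_deriv ?_
  simp [Complex.mul_re]
  ring

/-- **The holonomy lemma**, for one element of the lattice. -/
theorem holonomy_aux {D fx fy : ℝ × ℝ → ℂ} (hD : ContDiff ℝ ∞ D) (hDx : ∀ p, dx D p = fx p)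
    (hDy : ∀ p, dy D p = fy p) (hnz : ∀ p, fx p ≠ 0)
    (indep : ∀ p z, (conj z * fx p).re = 0 → (conj z * fy p).re = 0 → z = 0)
    {w w' : ℝ × ℝ}
    (hmax : ∀ f : ℝ × ℝ → ℝ, Continuous f → (∀ p, f (p + w) = f p) → (∀ p, f (p + w') = f p) →
      ∃ p₀, ∀ p, f p ≤ f p₀)
    {k k' c c' : ℂ} (hk : Complex.normSq k = 1) (hk' : Complex.normSq k' = 1)
    (h1 : ∀ p, D (p + w) = k * D p + c) (h2 : ∀ p, D (p + w') = k' * D p + c') : k = 1 := by
  by_contra hne
  have hne' : 1 - k ≠ 0 := sub_ne_zero.mpr (Ne.symm hne)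
  let z₀ : ℂ := c / (1 - k)
  have hz₀ : k * z₀ + c = z₀ := by
    simp only [z₀]
    field_simp
    ring
  let c₂ : ℂ := c' + k' * z₀ - z₀
  have e1 : ∀ p, D (p + w) - z₀ = k * (D p - z₀) := fun p => by
    rw [h1, mul_sub]
    linear_combination hz₀
  have e2 : ∀ p, D (p + w') - z₀ = k' * (D p - z₀) + c₂ := fun p => by
    rw [h2]
    simp only [c₂]
    ring
  have hc₂ : c₂ = 0 := by
    have a1 := e1 (0 + w')
    have a2 := e2 (0 + w)
    rw [e2 0] at a1
    rw [e1 0, add_right_comm] at a2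
    have a3 : (1 - k) * c₂ = 0 := by
      rw [a2] at a1
      linear_combination a1
    exact (mul_eq_zero.mp a3).resolve_left hne'
  let g : ℝ × ℝ → ℂ := fun p => D p - z₀
  have hg : ContDiff ℝ ∞ g := hD.sub contDiff_const
  have hgd : ∀ p e, fderiv ℝ g p e = fderiv ℝ D p e := by
    intro p e
    have := (hasFDerivAt_of_contDiff hD p).sub_const z₀
    rw [HasFDerivAt.fderiv this]
  have hgn : Continuous fun p => Complex.normSq (g p) :=
    Complex.continuous_normSq.comp hg.continuous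
  obtain ⟨p₀, hp₀⟩ := hmax (fun p => Complex.normSq (g p)) hgn
    (fun p => by
      simp only [g]
      rw [e1, map_mul, hk, one_mul])
    (fun p => by
      simp only [g]
      rw [e2, hc₂, add_zero, map_mul, hk', one_mul])
  -- the derivative vanishes at the maximum
  have hzero : ∀ e, (conj (g p₀) * fderiv ℝ D p₀ e).re = 0 := by
    intro e
    have h3 := normSq_fderiv hg p₀ e
    have hmax' : IsLocalMax (fun t : ℝ => Complex.normSq (g (p₀ + t • e))) 0 := by
      refine Filter.Eventually.of_forall fun t => ?_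
      simp only [zero_smul, add_zero]
      exact hp₀ _
    have h4 := hmax'.hasDerivAt_eq_zero h3
    rw [hgd] at h4
    linarith
  have hg0 : g p₀ = 0 := by
    refine indep p₀ _ ?_ ?_
    · rw [← hDx]
      exact hzero _
    · rw [← hDy]
      exact hzero _
  have hgall : ∀ p, g p = 0 := by
    intro p
    have := hp₀ p
    simp only [hg0, map_zero] at this
    exact Complex.normSq_eq_zero.mp (le_antisymm this (Complex.normSq_nonneg _))
  have hconst : ∀ p, D p = z₀ := fun p => sub_eq_zero.mp (hgall p)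
  have hDc : D = fun _ => z₀ := funext hconst
  apply hnz 0
  rw [← hDx, hDc]
  simp [dx]

end Vale.Agent.Lib.P205
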