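import Vale.Agent.Lib.P205.Wiener

/-!
Evaluation of elements of the convolution algebra as functions on the plane, and the Fourier
multipliers inverting the Laplacian.
-/

open Real
open scoped ContDiff ComplexConjugate

namespace Vale.Agent.Lib.P205

namespace Wt

variable (G : Wt) (L : Lat)

/-- The function on the plane given by an element of the algebra. -/
noncomputable def Ev (x : Ax) (p : ℝ × ℝ) : ℂ := L.Fn (G.coef x) p

theorem Ev_hasSum (x : Ax) (p : ℝ × ℝ) :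
    HasSum (fun n => G.coef x n * L.e n p) (G.Ev L x p) :=
  (L.summable_term (G.summable_coef x) p).hasSum

theorem norm_Ev_le (x : Ax) (p : ℝ × ℝ) : ‖G.Ev L x p‖ ≤ ‖x‖ := by
  refine (L.norm_Fn_le (G.summable_coef x) p).trans ?_
  rw [Ax.norm_eq]
  exact (G.summable_coef x).tsum_le_tsum (G.norm_coef_le x) (Ax.summable_norm x)

theorem Ev_add (x y : Ax) (p : ℝ × ℝ) : G.Ev L (x + y) p = G.Ev L x p + G.Ev L y p := by
  refine (HasSum.unique ?_ ((G.Ev_hasSum L x p).add (G.Ev_hasSum L y p)))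
  have := G.Ev_hasSum L (x + y) p
  refine this.congr_fun ?_ |> id
  intro n
  rw [coef_add]
  simp [add_mul]

theorem Ev_sub (x y : Ax) (p : ℝ × ℝ) : G.Ev L (x - y) p = G.Ev L x p - G.Ev L y p := by
  refine (HasSum.unique ?_ ((G.Ev_hasSum L x p).sub (G.Ev_hasSum L y p)))
  have := G.Ev_hasSum L (x - y) p
  refine this.congr_fun ?_ |> id
  intro n
  rw [coef_sub]
  simp [sub_mul]

theorem Ev_smul (a : ℂ) (x : Ax) (p : ℝ × ℝ) : G.Ev L (a • x) p = a * G.Ev L x p := by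
  refine (HasSum.unique ?_ ((G.Ev_hasSum L x p).mul_left a))
  have := G.Ev_hasSum L (a • x) p
  refine this.congr_fun ?_ |> id
  intro n
  rw [coef_smul]
  ring

theorem Ev_cv (x y : Ax) (p : ℝ × ℝ) : G.Ev L (G.cv x y) p = G.Ev L x p * G.Ev L y p := by
  have hc : Summable fun n => ‖G.coef x n * L.e n p‖ := by
    refine (G.summable_coef x).congr fun n => ?_
    rw [norm_mul, L.norm_e, mul_one]
  have hd : Summable fun n => ‖G.coef y n * L.e n p‖ := by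
    refine (G.summable_coef y).congr fun n => ?_
    rw [norm_mul, L.norm_e, mul_one]
  have h := cnv_hasSum hc hd
  have e1 : cnv (fun n => G.coef x n * L.e n p) (fun n => G.coef y n * L.e n p) =
      fun n => G.coef (G.cv x y) n * L.e n p := by
    ext n
    rw [coef_cv]
    unfold cnv
    rw [← tsum_mul_right]
    congr 1
    ext k
    have : L.e n p = L.e k p * L.e (n - k) p := by
      rw [← L.e_add]
      congr 1
      abel
    rw [this]
    ring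
  rw [e1] at h
  exact (G.Ev_hasSum L (G.cv x y) p).unique h

theorem Ev_stx (x : Ax) (p : ℝ × ℝ) : G.Ev L (Ax.stx x) p = conj (G.Ev L x p) := by
  unfold Ev Lat.Fn
  rw [Complex.conj_tsum, ← (Equiv.neg (ℤ × ℤ)).tsum_eq]
  congr 1
  ext n
  simp only [Equiv.neg_apply, coef_stx, neg_neg, map_mul, L.e_neg]

/-- The unit of the algebra. -/
noncomputable def one : Ax :=
  Ax.mk (fun n => if n = 0 then 1 else 0) (by
    have h : Summable fun n : ℤ × ℤ => if n = 0 then (1:ℝ) else 0 :=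
      (hasSum_ite_eq (0 : ℤ × ℤ) (1:ℝ)).summable
    refine h.congr fun n => ?_
    by_cases hn : n = 0 <;> simp [hn])

theorem one_apply (n : ℤ × ℤ) : one n = if n = 0 then 1 else 0 := rfl

theorem Ev_one (p : ℝ × ℝ) : G.Ev L one p = 1 := by
  unfold Ev Lat.Fn
  rw [tsum_eq_single 0]
  · simp [coef, one_apply, G.map_zero, L.e_zero]
  · intro n hn
    simp [coef, one_apply, hn]

theorem stx_one : Ax.stx one = one := by
  ext n
  rw [Ax.stx_apply, one_apply, one_apply]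
  by_cases hn : n = 0
  · simp [hn]
  · have : -n ≠ 0 := neg_ne_zero.mpr hn
    simp [hn, this]

theorem Ev_contDiff (x : Ax) : ContDiff ℝ ∞ (G.Ev L x) := L.Fn_contDiff (G.rapid_coef x)

theorem Ev_add_w1 (x : Ax) (p : ℝ × ℝ) : G.Ev L x (p + L.w1) = G.Ev L x p := L.Fn_add_w1 _ p

theorem Ev_add_w2 (x : Ax) (p : ℝ × ℝ) : G.Ev L x (p + L.w2) = G.Ev L x p := L.Fn_add_w2 _ p

theorem Ev_fderiv1 (x : Ax) (p : ℝ × ℝ) :
    fderiv ℝ (G.Ev L x) p (1, 0) = L.Fn (L.dc1 (G.coef x)) p := by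
  have h : HasFDerivAt (G.Ev L x) _ p := L.Fn_hasFDerivAt (G.rapid_coef x) p
  rw [h.fderiv]
  simp

theorem Ev_fderiv2 (x : Ax) (p : ℝ × ℝ) :
    fderiv ℝ (G.Ev L x) p (0, 1) = L.Fn (L.dc2 (G.coef x)) p := by
  have h : HasFDerivAt (G.Ev L x) _ p := L.Fn_hasFDerivAt (G.rapid_coef x) p
  rw [h.fderiv]
  simp

/-- Joint continuity of evaluation. -/
theorem Ev_continuous_joint {X : Type*} [TopologicalSpace X] {g : X → Ax} (hg : Continuous g)
    {P : X → ℝ × ℝ} (hP : Continuous P) : Continuous fun t => G.Ev L (g t) (P t) := by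
  rw [continuous_iff_continuousAt]
  intro t₀
  rw [ContinuousAt, Metric.tendsto_nhds]
  intro r hr
  have h1 : ∀ᶠ t in nhds t₀, ‖g t - g t₀‖ < r / 2 := by
    have : Filter.Tendsto (fun t => ‖g t - g t₀‖) (nhds t₀) (nhds 0) := by
      have h2 := (hg.tendsto t₀).sub_const (g t₀)
      simpa using h2.norm
    exact this.eventually (gt_mem_nhds (by positivity))
  have h3 : ∀ᶠ t in nhds t₀, dist (G.Ev L (g t₀) (P t)) (G.Ev L (g t₀) (P t₀)) < r / 2 := by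
    have hc : ContinuousAt (fun t => G.Ev L (g t₀) (P t)) t₀ :=
      ((G.Ev_contDiff L (g t₀)).continuous.comp hP).continuousAt
    exact (Metric.tendsto_nhds.mp hc) _ (by positivity)
  filter_upwards [h1, h3] with t h4 h5
  have h6 : G.Ev L (g t) (P t) - G.Ev L (g t₀) (P t) = G.Ev L (g t - g t₀) (P t) :=
    (G.Ev_sub L _ _ _).symm
  have h7 : ‖G.Ev L (g t) (P t) - G.Ev L (g t₀) (P t)‖ < r / 2 := by
    rw [h6]
    exact lt_of_le_of_lt (G.norm_Ev_le L _ _) h4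
  rw [dist_eq_norm] at h5 ⊢
  have h8 := norm_add_le (G.Ev L (g t) (P t) - G.Ev L (g t₀) (P t))
    (G.Ev L (g t₀) (P t) - G.Ev L (g t₀) (P t₀))
  rw [sub_add_sub_cancel] at h8
  linarith

/-- Functions given by an element fixed by reflection-conjugation are real valued. -/
theorem Ev_real {x : Ax} (hx : Ax.stx x = x) (p : ℝ × ℝ) :
    ((G.Ev L x p).re : ℂ) = G.Ev L x p := by
  have h := G.Ev_stx L x p
  rw [hx] at h
  exact Complex.conj_eq_iff_real.mp h.symm |>.choose_spec ▸ by simp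

end Wt

namespace Lat

variable (L : Lat)

/-- Symbol of the inverse Laplacian. -/
noncomputable def s0 (n : ℤ × ℤ) : ℂ := ((-(4 * π ^ 2)⁻¹ * (L.q n)⁻¹ : ℝ) : ℂ)

/-- Symbol of the first derivative of the inverse Laplacian. -/
noncomputable def s1 (n : ℤ × ℤ) : ℂ := 2 * π * Complex.I * (L.fr1 n : ℂ) * L.s0 n

/-- Symbol of the second derivative of the inverse Laplacian. -/
noncomputable def s2 (n : ℤ × ℤ) : ℂ := 2 * π * Complex.I * (L.fr2 n : ℂ) * L.s0 n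

/-- Symbol of a second order derivative of the inverse Laplacian. -/
noncomputable def s11 (n : ℤ × ℤ) : ℂ := 2 * π * Complex.I * (L.fr1 n : ℂ) * L.s1 n

/-- Symbol of a second order derivative of the inverse Laplacian. -/
noncomputable def s12 (n : ℤ × ℤ) : ℂ := 2 * π * Complex.I * (L.fr2 n : ℂ) * L.s1 n

/-- Symbol of a second order derivative of the inverse Laplacian. -/
noncomputable def s22 (n : ℤ × ℤ) : ℂ := 2 * π * Complex.I * (L.fr2 n : ℂ) * L.s2 n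

/-- Symbol of the projection on the functions with mean zero. -/
noncomputable def sP (n : ℤ × ℤ) : ℂ := L.s11 n + L.s22 n

theorem pi_ne' : (π : ℂ) ≠ 0 := by exact_mod_cast pi_ne_zero

theorem s11_eq (n : ℤ × ℤ) : L.s11 n = ((L.fr1 n ^ 2 * (L.q n)⁻¹ : ℝ) : ℂ) := by
  have h := pi_ne'
  simp only [s11, s1, s0]
  push_cast
  field_simp
  rw [Complex.I_sq]
  ring

theorem s12_eq (n : ℤ × ℤ) : L.s12 n = ((L.fr1 n * L.fr2 n * (L.q n)⁻¹ : ℝ) : ℂ) := by
  have h := pi_ne'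
  simp only [s12, s1, s0]
  push_cast
  field_simp
  rw [Complex.I_sq]
  ring

theorem s22_eq (n : ℤ × ℤ) : L.s22 n = ((L.fr2 n ^ 2 * (L.q n)⁻¹ : ℝ) : ℂ) := by
  have h := pi_ne'
  simp only [s22, s2, s0]
  push_cast
  field_simp
  rw [Complex.I_sq]
  ring

theorem s21_eq (n : ℤ × ℤ) : 2 * π * Complex.I * (L.fr1 n : ℂ) * L.s2 n = L.s12 n := by
  simp only [s12, s1, s2]
  ring

theorem sP_eq (n : ℤ × ℤ) : L.sP n = if n = 0 then 0 else 1 := by
  unfold sP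
  rw [s11_eq, s22_eq]
  by_cases hn : n = 0
  · subst hn
    simp [L.fr1_zero, L.fr2_zero]
  · have h := (L.q_pos n hn).ne'
    simp only [hn, if_false]
    rw [← Complex.ofReal_add]
    have : L.fr1 n ^ 2 * (L.q n)⁻¹ + L.fr2 n ^ 2 * (L.q n)⁻¹ = 1 := by
      rw [← add_mul]
      exact mul_inv_cancel₀ h
    rw [this]
    simp

/-- The constant bounding all the symbols. -/
noncomputable def K : ℝ := L.S + 1

theorem one_le_K : 1 ≤ L.K := by
  have := L.S_pos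
  unfold K
  linarith

theorem inv_q_le (n : ℤ × ℤ) : (L.q n)⁻¹ ≤ L.S := by
  by_cases hn : n = 0
  · subst hn
    simp [L.q_zero, L.S_pos.le]
  · have h1 := L.one_le_q_mul n hn
    have h2 := L.q_pos n hn
    rw [inv_le_iff_one_le_mul₀ h2, mul_comm]
    exact h1

theorem inv_q_nonneg (n : ℤ × ℤ) : 0 ≤ (L.q n)⁻¹ := inv_nonneg.mpr (L.q_nonneg n)

theorem four_pi_sq : (1:ℝ) ≤ 4 * π ^ 2 := by nlinarith [pi_gt_three]

theorem norm_s0_eq (n : ℤ × ℤ) : ‖L.s0 n‖ = (4 * π ^ 2)⁻¹ * (L.q n)⁻¹ := by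
  unfold s0
  rw [Complex.norm_real, Real.norm_eq_abs, neg_mul, abs_neg, abs_of_nonneg]
  have := L.inv_q_nonneg n
  positivity

theorem s0_bd (n : ℤ × ℤ) : ‖L.s0 n‖ ≤ L.K := by
  rw [norm_s0_eq]
  have h1 := L.inv_q_le n
  have h2 := L.inv_q_nonneg n
  have h3 : (4 * π ^ 2)⁻¹ ≤ 1 := inv_le_one_of_one_le₀ four_pi_sq
  have h4 : 0 ≤ (4 * π ^ 2)⁻¹ := by positivity
  unfold K
  nlinarith

theorem abs_mul_inv_q_le {t : ℝ} (n : ℤ × ℤ) (ht : t ^ 2 ≤ L.q n) :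
    |t| * (L.q n)⁻¹ ≤ L.K := by
  by_cases hn : n = 0
  · subst hn
    simp only [L.q_zero, inv_zero, mul_zero]
    linarith [L.one_le_K]
  · have h2 := L.q_pos n hn
    have h1 := L.inv_q_le n
    have h3 := L.inv_q_nonneg n
    have h4 : |t| ≤ (1 + L.q n) / 2 := by
      have := sq_abs t
      nlinarith [sq_nonneg (|t| - 1)]
    have h5 : (L.q n) * (L.q n)⁻¹ = 1 := mul_inv_cancel₀ h2.ne'
    unfold K
    have h6 : |t| * (L.q n)⁻¹ ≤ (1 + L.q n) / 2 * (L.q n)⁻¹ := mul_le_mul_of_nonneg_right h4 h3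
    have hS := L.S_pos
    nlinarith

theorem norm_two_pi_mul_s0 (n : ℤ × ℤ) (t : ℝ) :
    ‖2 * π * Complex.I * (t : ℂ) * L.s0 n‖ = (2 * π)⁻¹ * (|t| * (L.q n)⁻¹) := by
  rw [norm_mul, norm_two_pi_I_mul_real, norm_s0_eq]
  have := pi_pos
  field_simp
  ring

theorem two_pi_inv_le : (2 * π)⁻¹ ≤ 1 :=
  inv_le_one_of_one_le₀ (by nlinarith [pi_gt_three])

theorem s1_bd (n : ℤ × ℤ) : ‖L.s1 n‖ ≤ L.K := by
  unfold s1
  rw [norm_two_pi_mul_s0]
  have h1 := L.abs_mul_inv_q_le (t := L.fr1 n) n (by unfold q; nlinarith [sq_nonneg (L.fr2 n)])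
  have h2 := two_pi_inv_le
  have h3 : 0 ≤ (2 * π)⁻¹ := by have := pi_pos; positivity
  have h4 : 0 ≤ |L.fr1 n| * (L.q n)⁻¹ := mul_nonneg (abs_nonneg _) (L.inv_q_nonneg n)
  nlinarith

theorem s2_bd (n : ℤ × ℤ) : ‖L.s2 n‖ ≤ L.K := by
  unfold s2
  rw [norm_two_pi_mul_s0]
  have h1 := L.abs_mul_inv_q_le (t := L.fr2 n) n (by unfold q; nlinarith [sq_nonneg (L.fr1 n)])
  have h2 := two_pi_inv_le
  have h3 : 0 ≤ (2 * π)⁻¹ := by have := pi_pos; positivity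
  have h4 : 0 ≤ |L.fr2 n| * (L.q n)⁻¹ := mul_nonneg (abs_nonneg _) (L.inv_q_nonneg n)
  nlinarith

theorem sq_mul_inv_q_le {t : ℝ} (n : ℤ × ℤ) (ht : |t| ≤ L.q n) : |t * (L.q n)⁻¹| ≤ 1 := by
  by_cases hn : n = 0
  · subst hn
    simp [L.q_zero]
  · have h2 := L.q_pos n hn
    rw [abs_mul, abs_of_pos (inv_pos.mpr h2), ← div_eq_mul_inv]
    exact (div_le_one h2).mpr ht

theorem s11_bd (n : ℤ × ℤ) : ‖L.s11 n‖ ≤ L.K := by
  rw [s11_eq, Complex.norm_real, Real.norm_eq_abs]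
  refine (L.sq_mul_inv_q_le n ?_).trans L.one_le_K
  rw [abs_of_nonneg (sq_nonneg _)]
  unfold q
  nlinarith [sq_nonneg (L.fr2 n)]

theorem s22_bd (n : ℤ × ℤ) : ‖L.s22 n‖ ≤ L.K := by
  rw [s22_eq, Complex.norm_real, Real.norm_eq_abs]
  refine (L.sq_mul_inv_q_le n ?_).trans L.one_le_K
  rw [abs_of_nonneg (sq_nonneg _)]
  unfold q
  nlinarith [sq_nonneg (L.fr1 n)]

theorem s12_bd (n : ℤ × ℤ) : ‖L.s12 n‖ ≤ L.K := by
  rw [s12_eq, Complex.norm_real, Real.norm_eq_abs]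
  refine (L.sq_mul_inv_q_le n ?_).trans L.one_le_K
  rw [abs_mul]
  unfold q
  nlinarith [sq_nonneg (|L.fr1 n| - |L.fr2 n|), sq_abs (L.fr1 n), sq_abs (L.fr2 n)]

theorem sP_bd (n : ℤ × ℤ) : ‖L.sP n‖ ≤ 1 := by
  rw [sP_eq]
  by_cases hn : n = 0 <;> simp [hn]

theorem conj_s0 (n : ℤ × ℤ) : conj (L.s0 (-n)) = L.s0 n := by
  unfold s0
  rw [Complex.conj_ofReal, L.q_neg]

theorem conj_s1 (n : ℤ × ℤ) : conj (L.s1 (-n)) = L.s1 n := by
  have h := L.conj_s0 n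
  unfold s1
  simp only [map_mul, h, L.fr1_neg, Complex.conj_I, Complex.conj_ofReal, map_ofNat]
  push_cast
  ring

theorem conj_s2 (n : ℤ × ℤ) : conj (L.s2 (-n)) = L.s2 n := by
  have h := L.conj_s0 n
  unfold s2
  simp only [map_mul, h, L.fr2_neg, Complex.conj_I, Complex.conj_ofReal, map_ofNat]
  push_cast
  ring

theorem conj_s11 (n : ℤ × ℤ) : conj (L.s11 (-n)) = L.s11 n := by
  rw [s11_eq, s11_eq, Complex.conj_ofReal, L.q_neg, L.fr1_neg, neg_sq]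

theorem conj_s12 (n : ℤ × ℤ) : conj (L.s12 (-n)) = L.s12 n := by
  rw [s12_eq, s12_eq, Complex.conj_ofReal, L.q_neg, L.fr1_neg, L.fr2_neg, neg_mul_neg]

theorem conj_s22 (n : ℤ × ℤ) : conj (L.s22 (-n)) = L.s22 n := by
  rw [s22_eq, s22_eq, Complex.conj_ofReal, L.q_neg, L.fr2_neg, neg_sq]

theorem conj_sP (n : ℤ × ℤ) : conj (L.sP (-n)) = L.sP n := by
  unfold sP
  rw [map_add, L.conj_s11, L.conj_s22]

/-- Inverse Laplacian. -/
noncomputable def R0 (x : Ax) : Ax := Ax.mlt L.s0 L.s0_bd x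
/-- First derivative of the inverse Laplacian. -/
noncomputable def R1 (x : Ax) : Ax := Ax.mlt L.s1 L.s1_bd x
/-- First derivative of the inverse Laplacian. -/
noncomputable def R2 (x : Ax) : Ax := Ax.mlt L.s2 L.s2_bd x
/-- Second derivative of the inverse Laplacian. -/
noncomputable def R11 (x : Ax) : Ax := Ax.mlt L.s11 L.s11_bd x
/-- Second derivative of the inverse Laplacian. -/
noncomputable def R12 (x : Ax) : Ax := Ax.mlt L.s12 L.s12_bd x
/-- Second derivative of the inverse Laplacian. -/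
noncomputable def R22 (x : Ax) : Ax := Ax.mlt L.s22 L.s22_bd x
/-- Projection on sequences vanishing at the origin. -/
noncomputable def Pm (x : Ax) : Ax := Ax.mlt L.sP L.sP_bd x

theorem Pm_eq (x : Ax) : L.Pm x = L.R11 x + L.R22 x := by
  ext n
  simp [Pm, R11, R22, sP, add_mul]

theorem Pm_idem (x : Ax) : L.Pm (L.Pm x) = L.Pm x := by
  ext n
  simp only [Pm, Ax.mlt_apply, sP_eq]
  by_cases hn : n = 0 <;> simp [hn]

theorem Pm_apply_zero (x : Ax) : L.Pm x 0 = 0 := by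
  simp [Pm, sP_eq]

theorem Pm_eq_sub (x : Ax) : L.Pm x = x - (x 0) • Wt.one := by
  ext n
  simp only [Pm, Ax.mlt_apply, sP_eq, Ax.sub_apply, Ax.smul_apply, Wt.one_apply]
  by_cases hn : n = 0
  · subst hn
    simp
  · simp [hn]

end Lat

namespace Wt

variable (G : Wt) (L : Lat)

theorem dc1_R0 (x : Ax) : L.dc1 (G.coef (L.R0 x)) = G.coef (L.R1 x) := by
  ext n
  simp only [Lat.dc1, Lat.R0, Lat.R1, coef_mlt, Lat.s1]
  ring

theorem dc2_R0 (x : Ax) : L.dc2 (G.coef (L.R0 x)) = G.coef (L.R2 x) := by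
  ext n
  simp only [Lat.dc2, Lat.R0, Lat.R2, coef_mlt, Lat.s2]
  ring

theorem dc1_R1 (x : Ax) : L.dc1 (G.coef (L.R1 x)) = G.coef (L.R11 x) := by
  ext n
  simp only [Lat.dc1, Lat.R1, Lat.R11, coef_mlt, Lat.s11]
  ring

theorem dc2_R1 (x : Ax) : L.dc2 (G.coef (L.R1 x)) = G.coef (L.R12 x) := by
  ext n
  simp only [Lat.dc2, Lat.R1, Lat.R12, coef_mlt, Lat.s12]
  ring

theorem dc1_R2 (x : Ax) : L.dc1 (G.coef (L.R2 x)) = G.coef (L.R12 x) := by
  ext n
  simp only [Lat.dc1, Lat.R2, Lat.R12, coef_mlt, ← L.s21_eq]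
  ring

theorem dc2_R2 (x : Ax) : L.dc2 (G.coef (L.R2 x)) = G.coef (L.R22 x) := by
  ext n
  simp only [Lat.dc2, Lat.R2, Lat.R22, coef_mlt, Lat.s22]
  ring

theorem fderiv1_R0 (x : Ax) (p : ℝ × ℝ) :
    fderiv ℝ (G.Ev L (L.R0 x)) p (1, 0) = G.Ev L (L.R1 x) p := by
  rw [Ev_fderiv1, dc1_R0]; rfl

theorem fderiv2_R0 (x : Ax) (p : ℝ × ℝ) :
    fderiv ℝ (G.Ev L (L.R0 x)) p (0, 1) = G.Ev L (L.R2 x) p := by
  rw [Ev_fderiv2, dc2_R0]; rfl

theorem fderiv1_R1 (x : Ax) (p : ℝ × ℝ) :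
    fderiv ℝ (G.Ev L (L.R1 x)) p (1, 0) = G.Ev L (L.R11 x) p := by
  rw [Ev_fderiv1, dc1_R1]; rfl

theorem fderiv2_R1 (x : Ax) (p : ℝ × ℝ) :
    fderiv ℝ (G.Ev L (L.R1 x)) p (0, 1) = G.Ev L (L.R12 x) p := by
  rw [Ev_fderiv2, dc2_R1]; rfl

theorem fderiv1_R2 (x : Ax) (p : ℝ × ℝ) :
    fderiv ℝ (G.Ev L (L.R2 x)) p (1, 0) = G.Ev L (L.R12 x) p := by
  rw [Ev_fderiv1, dc1_R2]; rfl

theorem fderiv2_R2 (x : Ax) (p : ℝ × ℝ) :
    fderiv ℝ (G.Ev L (L.R2 x)) p (0, 1) = G.Ev L (L.R22 x) p := by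
  rw [Ev_fderiv2, dc2_R2]; rfl

end Wt

end Vale.Agent.Lib.P205
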