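import Vale.Agent.Lib.P205.Fixed

/-!
The family of solutions of the flatness equation, as real functions on the plane.
-/

open Real
open scoped ContDiff ComplexConjugate

namespace Vale.Agent.Lib.P205

/-- Smooth functions on the plane, periodic with respect to the lattice. -/
def PF (L : Lat) (f : ℝ × ℝ → ℝ) : Prop :=
  ContDiff ℝ ∞ f ∧ (∀ p, f (p + L.w1) = f p) ∧ (∀ p, f (p + L.w2) = f p)

/-- The left hand side of the flatness equation. -/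
noncomputable def pdeLHS (ε v v₁ v₂ v₁₁ v₁₂ v₂₂ l₁ l₂ l₁₁ l₁₂ l₂₂ : ℝ) : ℝ :=
  ((1 + v) * (v₁₁ + v₂₂) - (v₁ ^ 2 + v₂ ^ 2)) *
      (1 - ε ^ 2 * (((1 + v) * l₁ + v₁) ^ 2 + ((1 + v) * l₂ + v₂) ^ 2)) -
    ε ^ 2 * ((1 + v) ^ 2 * ((v₁ * l₁ + (1 + v) * l₁₁ + v₁₁) * (v₂ * l₂ + (1 + v) * l₂₂ + v₂₂) -
        (v₂ * l₁ + (1 + v) * l₁₂ + v₁₂) * (v₁ * l₂ + (1 + v) * l₁₂ + v₁₂)) -
      (1 + v) * (v₁ * (((1 + v) * l₁ + v₁) * (v₁ * l₁ + (1 + v) * l₁₁ + v₁₁) +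
            ((1 + v) * l₂ + v₂) * (v₁ * l₂ + (1 + v) * l₁₂ + v₁₂)) +
          v₂ * (((1 + v) * l₁ + v₁) * (v₂ * l₁ + (1 + v) * l₁₂ + v₁₂) +
            ((1 + v) * l₂ + v₂) * (v₂ * l₂ + (1 + v) * l₂₂ + v₂₂))))

/-- A solution of the flatness equation with parameter `ε` and constant `t`. -/
structure IsSol (L : Lat) (l₁ l₂ l₁₁ l₁₂ l₂₂ : ℝ × ℝ → ℝ) (ε t : ℝ)
    (v v₁ v₂ v₁₁ v₁₂ v₂₂ : ℝ × ℝ → ℝ) : Prop where
  pv : PF L v
  pv₁ : PF L v₁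
  pv₂ : PF L v₂
  pv₁₁ : PF L v₁₁
  pv₁₂ : PF L v₁₂
  pv₂₂ : PF L v₂₂
  dx : ∀ p, fderiv ℝ v p (1, 0) = v₁ p
  dy : ∀ p, fderiv ℝ v p (0, 1) = v₂ p
  dxx : ∀ p, fderiv ℝ v₁ p (1, 0) = v₁₁ p
  dxy : ∀ p, fderiv ℝ v₁ p (0, 1) = v₁₂ p
  dyx : ∀ p, fderiv ℝ v₂ p (1, 0) = v₁₂ p
  dyy : ∀ p, fderiv ℝ v₂ p (0, 1) = v₂₂ p
  pde : ∀ p, pdeLHS ε (v p) (v₁ p) (v₂ p) (v₁₁ p) (v₁₂ p) (v₂₂ p)
    (l₁ p) (l₂ p) (l₁₁ p) (l₁₂ p) (l₂₂ p) = t
  bd : ∀ p, |v p| ≤ 1 / 2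
  bdX : ∀ p, ε ^ 2 * (((1 + v p) * l₁ p + v₁ p) ^ 2 + ((1 + v p) * l₂ p + v₂ p) ^ 2) ≤ 1 / 2

namespace Ax

theorem mlt_continuous (s : ℤ × ℤ → ℂ) {K : ℝ} (h : ∀ n, ‖s n‖ ≤ K) : Continuous (mlt s h) := by
  have hK : 0 ≤ K := (norm_nonneg _).trans (h 0)
  refine (LipschitzWith.of_dist_le_mul (K := Real.toNNReal K) fun x y => ?_).continuous
  rw [dist_eq_norm, dist_eq_norm, ← mlt_sub, Real.coe_toNNReal K hK]
  exact norm_mlt_le s h _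

end Ax

namespace Wt

variable (G : Wt) (L : Lat)

/-- The element of the algebra with prescribed coefficients. -/
noncomputable def ofCoef (c : ℤ × ℤ → ℂ) (h : Summable fun n => ‖c n‖ * G.W n) : Ax :=
  Ax.mk (fun n => c n * (G.W n : ℂ)) (by
    refine h.congr fun n => ?_
    rw [norm_mul, Complex.norm_real, Real.norm_eq_abs, abs_of_pos (G.pos n)])

theorem coef_ofCoef (c : ℤ × ℤ → ℂ) (h : Summable fun n => ‖c n‖ * G.W n) (n : ℤ × ℤ) :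
    G.coef (G.ofCoef c h) n = c n := by
  unfold coef ofCoef
  rw [Ax.mk_apply]
  exact mul_div_cancel_right₀ _ (G.ne_zero' n)

theorem stx_ofCoef {c : ℤ × ℤ → ℂ} (h : Summable fun n => ‖c n‖ * G.W n)
    (hc : ∀ n, c (-n) = conj (c n)) : Ax.stx (G.ofCoef c h) = G.ofCoef c h := by
  ext n
  simp only [ofCoef, Ax.stx_apply, Ax.mk_apply, map_mul, Complex.conj_ofReal, hc,
    Complex.conj_conj, G.neg]

theorem Ev_ofCoef {c : ℤ × ℤ → ℂ} (h : Summable fun n => ‖c n‖ * G.W n) {F : ℝ × ℝ → ℝ}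
    (hc : ∀ p, HasSum (fun n => c n * L.e n p) (F p : ℂ)) (p : ℝ × ℝ) :
    G.Ev L (G.ofCoef c h) p = (F p : ℂ) := by
  have h1 := G.Ev_hasSum L (G.ofCoef c h) p
  simp only [coef_ofCoef] at h1
  exact h1.unique (hc p)

end Wt

namespace Wt

variable (G : Wt) (L : Lat) (D : Dat)

theorem Ev_zero (p : ℝ × ℝ) : G.Ev L 0 p = 0 := by
  have h := G.norm_Ev_le L 0 p
  rw [norm_zero] at h
  exact norm_le_zero_iff.mp h

theorem pde_of_fixed {δ : ℝ} {f : Ax} (hf : Tm G L D δ f = f) (p : ℝ × ℝ) :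
    G.Ev L (L.R11 f) p + G.Ev L (L.R22 f) p =
      G.Ev L (N1 G L f) p + (δ : ℂ) * G.Ev L (N2 G L D f) p -
        (N1 G L f + (δ : ℂ) • N2 G L D f) 0 := by
  have h1 : L.Pm (N1 G L f + (δ : ℂ) • N2 G L D f) = f := hf
  have h2 : L.Pm f = f := by
    conv_lhs => rw [← h1]
    rw [L.Pm_idem, h1]
  have h3 : G.Ev L f p = G.Ev L (L.R11 f) p + G.Ev L (L.R22 f) p := by
    rw [← G.Ev_add, ← L.Pm_eq, h2]
  have h4 : G.Ev L f p = G.Ev L (N1 G L f) p + (δ : ℂ) * G.Ev L (N2 G L D f) p -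
      (N1 G L f + (δ : ℂ) • N2 G L D f) 0 := by
    conv_lhs => rw [← h1, L.Pm_eq_sub]
    rw [G.Ev_sub, G.Ev_add, G.Ev_smul, G.Ev_smul, G.Ev_one, mul_one]
  rw [← h3, h4]

end Wt

/-- The weight adapted to a nonnegative rapidly decreasing sequence. -/
noncomputable def adapted (d : ℤ × ℤ → ℝ) (hd : ∀ n, 0 ≤ d n) : Wt where
  W n := wFun (moment d) (nrm n)
  one_le n := one_le_wFun (moment_nonneg hd) (nrm_nonneg n)
  map_zero := by rw [nrm_zero, wFun_zero]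
  add_le m n := by
    have hA := moment_nonneg hd
    exact (wFun_mono hA (nrm_nonneg _) (nrm_add_le m n)).trans
      (wFun_add_le hA (nrm_nonneg m) (nrm_nonneg n))
  neg n := by rw [nrm_neg]
  poly k := by
    obtain ⟨C, hC, h⟩ := pow_le_wFun (moment_nonneg hd) k
    exact ⟨C, hC, fun n => h _ (nrm_nonneg n)⟩

theorem adapted_summable {d : ℤ × ℤ → ℝ} (hd : ∀ n, 0 ≤ d n)
    (hs : ∀ k : ℕ, Summable fun n => d n * (1 + nrm n) ^ k) {c : ℤ × ℤ → ℂ}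
    (hc : ∀ n, ‖c n‖ ≤ d n) : Summable fun n => ‖c n‖ * (adapted d hd).W n := by
  refine Summable.of_nonneg_of_le (fun n => mul_nonneg (norm_nonneg _) ?_) (fun n => ?_)
    (summable_mul_wFun hd hs)
  · exact (zero_le_one).trans ((adapted d hd).one_le n)
  · exact mul_le_mul_of_nonneg_right (hc n) ((zero_le_one).trans ((adapted d hd).one_le n))

/-- **The family of solutions.** -/
theorem exists_solution_family (L : Lat) {l₁ l₂ l₁₁ l₁₂ l₂₂ : ℝ × ℝ → ℝ}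
    (h₁ : PF L l₁) (h₂ : PF L l₂) (h₁₁ : PF L l₁₁) (h₁₂ : PF L l₁₂) (h₂₂ : PF L l₂₂) :
    ∃ a : ℝ, 0 < a ∧ ∃ (v v₁ v₂ v₁₁ v₁₂ v₂₂ : ℝ → ℝ × ℝ → ℝ) (T : ℝ → ℝ),
      (∀ t, IsSol L l₁ l₂ l₁₁ l₁₂ l₂₂ (clip a t) (T t) (v t) (v₁ t) (v₂ t) (v₁₁ t) (v₁₂ t) (v₂₂ t)) ∧
      Continuous (fun q : ℝ × (ℝ × ℝ) => v q.1 q.2) ∧
      Continuous (fun q : ℝ × (ℝ × ℝ) => v₁ q.1 q.2) ∧
      Continuous (fun q : ℝ × (ℝ × ℝ) => v₂ q.1 q.2) ∧
      Continuous (fun q : ℝ × (ℝ × ℝ) => v₁₁ q.1 q.2) ∧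
      Continuous (fun q : ℝ × (ℝ × ℝ) => v₁₂ q.1 q.2) ∧
      Continuous (fun q : ℝ × (ℝ × ℝ) => v₂₂ q.1 q.2) ∧
      (∀ p, v 0 p = 0) ∧ (∀ p, v₁ 0 p = 0) ∧ (∀ p, v₂ 0 p = 0) := by
  obtain ⟨c₁, hr₁, hs₁, hf₁⟩ := L.fourier_data h₁.1 h₁.2.1 h₁.2.2
  obtain ⟨c₂, hr₂, hs₂, hf₂⟩ := L.fourier_data h₂.1 h₂.2.1 h₂.2.2
  obtain ⟨c₃, hr₃, hs₃, hf₃⟩ := L.fourier_data h₁₁.1 h₁₁.2.1 h₁₁.2.2
  obtain ⟨c₄, hr₄, hs₄, hf₄⟩ := L.fourier_data h₁₂.1 h₁₂.2.1 h₁₂.2.2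
  obtain ⟨c₅, hr₅, hs₅, hf₅⟩ := L.fourier_data h₂₂.1 h₂₂.2.1 h₂₂.2.2
  let d : ℤ × ℤ → ℝ := fun n => ‖c₁ n‖ + ‖c₂ n‖ + ‖c₃ n‖ + ‖c₄ n‖ + ‖c₅ n‖
  have hd : ∀ n, 0 ≤ d n := fun n => by
    simp only [d]
    positivity
  have hs : ∀ k : ℕ, Summable fun n => d n * (1 + nrm n) ^ k := by
    intro k
    have := (((((hr₁ k).add (hr₂ k)).add (hr₃ k)).add (hr₄ k)).add (hr₅ k))
    refine this.congr fun n => ?_
    simp only [d]
    ring
  let G : Wt := adapted d hd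
  have b₁ : ∀ n, ‖c₁ n‖ ≤ d n := fun n => by
    simp only [d]
    linarith [norm_nonneg (c₂ n), norm_nonneg (c₃ n), norm_nonneg (c₄ n), norm_nonneg (c₅ n)]
  have b₂ : ∀ n, ‖c₂ n‖ ≤ d n := fun n => by
    simp only [d]
    linarith [norm_nonneg (c₁ n), norm_nonneg (c₃ n), norm_nonneg (c₄ n), norm_nonneg (c₅ n)]
  have b₃ : ∀ n, ‖c₃ n‖ ≤ d n := fun n => by
    simp only [d]
    linarith [norm_nonneg (c₁ n), norm_nonneg (c₂ n), norm_nonneg (c₄ n), norm_nonneg (c₅ n)]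
  have b₄ : ∀ n, ‖c₄ n‖ ≤ d n := fun n => by
    simp only [d]
    linarith [norm_nonneg (c₁ n), norm_nonneg (c₂ n), norm_nonneg (c₃ n), norm_nonneg (c₅ n)]
  have b₅ : ∀ n, ‖c₅ n‖ ≤ d n := fun n => by
    simp only [d]
    linarith [norm_nonneg (c₁ n), norm_nonneg (c₂ n), norm_nonneg (c₃ n), norm_nonneg (c₄ n)]
  have S₁ := adapted_summable hd hs b₁
  have S₂ := adapted_summable hd hs b₂
  have S₃ := adapted_summable hd hs b₃
  have S₄ := adapted_summable hd hs b₄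
  have S₅ := adapted_summable hd hs b₅
  let D : Dat := ⟨G.ofCoef c₁ S₁, G.ofCoef c₂ S₂, G.ofCoef c₃ S₃, G.ofCoef c₄ S₄, G.ofCoef c₅ S₅⟩
  have hD : Wt.Dat.IsReal D := ⟨G.stx_ofCoef S₁ hs₁, G.stx_ofCoef S₂ hs₂, G.stx_ofCoef S₃ hs₃,
    G.stx_ofCoef S₄ hs₄, G.stx_ofCoef S₅ hs₅⟩
  have e₁ : ∀ p, G.Ev L D.L1 p = (l₁ p : ℂ) := G.Ev_ofCoef L S₁ hf₁
  have e₂ : ∀ p, G.Ev L D.L2 p = (l₂ p : ℂ) := G.Ev_ofCoef L S₂ hf₂
  have e₃ : ∀ p, G.Ev L D.L11 p = (l₁₁ p : ℂ) := G.Ev_ofCoef L S₃ hf₃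
  have e₄ : ∀ p, G.Ev L D.L12 p = (l₁₂ p : ℂ) := G.Ev_ofCoef L S₄ hf₄
  have e₅ : ∀ p, G.Ev L D.L22 p = (l₂₂ p : ℂ) := G.Ev_ofCoef L S₅ hf₅
  obtain ⟨a, ha, fam, hcont, hfix, hstar, hzero, hb1, hb2⟩ := Wt.exists_family G L D hD
  -- the real functions
  let rl : Ax → ℝ × ℝ → ℝ := fun x p => (G.Ev L x p).re
  have hrl : ∀ x : Ax, Ax.stx x = x → ∀ p, G.Ev L x p = (rl x p : ℂ) := fun x hx p =>
    (G.Ev_real L hx p).symm
  have hPF : ∀ x : Ax, PF L (rl x) := by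
    intro x
    refine ⟨Complex.reCLM.contDiff.comp (G.Ev_contDiff L x), fun p => ?_, fun p => ?_⟩
    · simp only [rl, Wt.Ev_add_w1]
    · simp only [rl, Wt.Ev_add_w2]
  have hder : ∀ (x y : Ax) (u : ℝ × ℝ) (p : ℝ × ℝ),
      fderiv ℝ (G.Ev L x) p u = G.Ev L y p → fderiv ℝ (rl x) p u = rl y p := by
    intro x y u p h
    have hd1 : HasFDerivAt (G.Ev L x) (fderiv ℝ (G.Ev L x) p) p :=
      ((G.Ev_contDiff L x).differentiable (by simp) p).hasFDerivAt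
    have hd2 := Complex.reCLM.hasFDerivAt.comp p hd1
    have hd3 : HasFDerivAt (rl x) (Complex.reCLM.comp (fderiv ℝ (G.Ev L x) p)) p := hd2
    rw [hd3.fderiv]
    simp [h, rl]
  have hs0 : ∀ t, Ax.stx (L.R0 (fam t)) = L.R0 (fam t) := fun t => by
    rw [Wt.stx_R0, hstar]
  have hs1 : ∀ t, Ax.stx (L.R1 (fam t)) = L.R1 (fam t) := fun t => by
    rw [Wt.stx_R1, hstar]
  have hs2 : ∀ t, Ax.stx (L.R2 (fam t)) = L.R2 (fam t) := fun t => by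
    rw [Wt.stx_R2, hstar]
  have hs11 : ∀ t, Ax.stx (L.R11 (fam t)) = L.R11 (fam t) := fun t => by
    rw [Wt.stx_R11, hstar]
  have hs12 : ∀ t, Ax.stx (L.R12 (fam t)) = L.R12 (fam t) := fun t => by
    rw [Wt.stx_R12, hstar]
  have hs22 : ∀ t, Ax.stx (L.R22 (fam t)) = L.R22 (fam t) := fun t => by
    rw [Wt.stx_R22, hstar]
  -- the value of the constant
  let gg : ℝ → Ax := fun t => Wt.N1 G L (fam t) + ((clip a t ^ 2 : ℝ) : ℂ) • Wt.N2 G L D (fam t)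
  have hgs : ∀ t, Ax.stx (gg t) = gg t := by
    intro t
    simp only [gg]
    rw [Ax.stx_add, Ax.stx_real_smul, Wt.stx_N1, Wt.stx_N2 G L hD, hstar]
  have hg0 : ∀ t, ((gg t 0).re : ℂ) = gg t 0 := by
    intro t
    have h1 : Ax.stx (gg t) 0 = gg t 0 := by rw [hgs]
    rw [Ax.stx_apply, neg_zero] at h1
    obtain ⟨r, hr⟩ := Complex.conj_eq_iff_real.mp h1
    rw [hr]
    simp
  refine ⟨a, ha, fun t => rl (L.R0 (fam t)), fun t => rl (L.R1 (fam t)), fun t => rl (L.R2 (fam t)),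
    fun t => rl (L.R11 (fam t)), fun t => rl (L.R12 (fam t)), fun t => rl (L.R22 (fam t)),
    fun t => -(gg t 0).re, ?_, ?_, ?_, ?_, ?_, ?_, ?_, ?_, ?_, ?_⟩
  · intro t
    refine ⟨hPF _, hPF _, hPF _, hPF _, hPF _, hPF _, fun p => hder _ _ _ _ (G.fderiv1_R0 L _ p),
      fun p => hder _ _ _ _ (G.fderiv2_R0 L _ p), fun p => hder _ _ _ _ (G.fderiv1_R1 L _ p),
      fun p => hder _ _ _ _ (G.fderiv2_R1 L _ p), fun p => hder _ _ _ _ (G.fderiv1_R2 L _ p),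
      fun p => hder _ _ _ _ (G.fderiv2_R2 L _ p), fun p => ?_, fun p => ?_, fun p => ?_⟩
    · -- the equation
      have key := Wt.pde_of_fixed G L D (hfix t) p
      have hgt : gg t 0 = (Wt.N1 G L (fam t) + ((clip a t ^ 2 : ℝ) : ℂ) • Wt.N2 G L D (fam t)) 0 := rfl
      rw [← hgt, ← hg0 t] at key
      simp only [Wt.N1, Wt.N2, Wt.X1, Wt.X2, Wt.K11, Wt.K12, Wt.K21, Wt.K22, Wt.YY, Wt.uu,
        Wt.Ev_add, Wt.Ev_sub, Wt.Ev_cv, Wt.Ev_one, e₁, e₂, e₃, e₄, e₅,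
        hrl _ (hs0 t) p, hrl _ (hs1 t) p, hrl _ (hs2 t) p, hrl _ (hs11 t) p, hrl _ (hs12 t) p,
        hrl _ (hs22 t) p] at key
      apply Complex.ofReal_injective
      unfold pdeLHS
      push_cast at key ⊢
      linear_combination key
    · -- the bound for the function
      have h1 : |rl (L.R0 (fam t)) p| ≤ ‖G.Ev L (L.R0 (fam t)) p‖ := Complex.abs_re_le_norm _
      exact h1.trans ((G.norm_Ev_le L _ p).trans (hb1 t))
    · -- the bound for the gradient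
      have h1 : G.Ev L (Wt.X1 G L D (fam t)) p = (((1 + rl (L.R0 (fam t)) p) * l₁ p +
          rl (L.R1 (fam t)) p : ℝ) : ℂ) := by
        simp only [Wt.X1, Wt.uu, Wt.Ev_add, Wt.Ev_cv, Wt.Ev_one, e₁, hrl _ (hs0 t) p,
          hrl _ (hs1 t) p]
        push_cast
        ring
      have h2 : G.Ev L (Wt.X2 G L D (fam t)) p = (((1 + rl (L.R0 (fam t)) p) * l₂ p +
          rl (L.R2 (fam t)) p : ℝ) : ℂ) := by
        simp only [Wt.X2, Wt.uu, Wt.Ev_add, Wt.Ev_cv, Wt.Ev_one, e₂, hrl _ (hs0 t) p,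
          hrl _ (hs2 t) p]
        push_cast
        ring
      have h3 := G.norm_Ev_le L (Wt.X1 G L D (fam t)) p
      have h4 := G.norm_Ev_le L (Wt.X2 G L D (fam t)) p
      rw [h1, Complex.norm_real, Real.norm_eq_abs] at h3
      rw [h2, Complex.norm_real, Real.norm_eq_abs] at h4
      have h5 := sq_le_sq' (by linarith [abs_nonneg ((1 + rl (L.R0 (fam t)) p) * l₁ p +
          rl (L.R1 (fam t)) p), neg_abs_le ((1 + rl (L.R0 (fam t)) p) * l₁ p +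
          rl (L.R1 (fam t)) p)]) ((le_abs_self _).trans h3)
      have h6 := sq_le_sq' (by linarith [abs_nonneg ((1 + rl (L.R0 (fam t)) p) * l₂ p +
          rl (L.R2 (fam t)) p), neg_abs_le ((1 + rl (L.R0 (fam t)) p) * l₂ p +
          rl (L.R2 (fam t)) p)]) ((le_abs_self _).trans h4)
      refine le_trans ?_ (hb2 t)
      exact mul_le_mul_of_nonneg_left (add_le_add h5 h6) (by positivity)
  · exact Complex.continuous_re.comp (G.Ev_continuous_joint L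
      ((Ax.mlt_continuous _ _).comp (hcont.comp continuous_fst)) continuous_snd)
  · exact Complex.continuous_re.comp (G.Ev_continuous_joint L
      ((Ax.mlt_continuous _ _).comp (hcont.comp continuous_fst)) continuous_snd)
  · exact Complex.continuous_re.comp (G.Ev_continuous_joint L
      ((Ax.mlt_continuous _ _).comp (hcont.comp continuous_fst)) continuous_snd)
  · exact Complex.continuous_re.comp (G.Ev_continuous_joint L
      ((Ax.mlt_continuous _ _).comp (hcont.comp continuous_fst)) continuous_snd)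
  · exact Complex.continuous_re.comp (G.Ev_continuous_joint L
      ((Ax.mlt_continuous _ _).comp (hcont.comp continuous_fst)) continuous_snd)
  · exact Complex.continuous_re.comp (G.Ev_continuous_joint L
      ((Ax.mlt_continuous _ _).comp (hcont.comp continuous_fst)) continuous_snd)
  · intro p
    have h0 : L.R0 (fam 0) = 0 := by
      rw [hzero]
      ext n
      simp [Lat.R0]
    simp only [rl, h0, G.Ev_zero L p, Complex.zero_re]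
  · intro p
    have h0 : L.R1 (fam 0) = 0 := by
      rw [hzero]
      ext n
      simp [Lat.R1]
    simp only [rl, h0, G.Ev_zero L p, Complex.zero_re]
  · intro p
    have h0 : L.R2 (fam 0) = 0 := by
      rw [hzero]
      ext n
      simp [Lat.R2]
    simp only [rl, h0, G.Ev_zero L p, Complex.zero_re]

end Vale.Agent.Lib.P205
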