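import Vale.Agent.Lib.P205.Eval

/-!
The contraction argument in the convolution algebra.
-/

open Real
open scoped ComplexConjugate NNReal

namespace Vale.Agent.Lib.P205

/-- The contraction principle on a ball. -/
theorem banach_ball {E : Type*} [NormedAddCommGroup E] [CompleteSpace E] (T : E → E) {r : ℝ}
    (hr : 0 ≤ r) (hm : ∀ x, ‖x‖ ≤ r → ‖T x‖ ≤ r)
    (hl : ∀ x y, ‖x‖ ≤ r → ‖y‖ ≤ r → ‖T x - T y‖ ≤ (1 / 2) * ‖x - y‖) :
    ∃ x, ‖x‖ ≤ r ∧ T x = x := by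
  have hmem : ∀ x : E, x ∈ Metric.closedBall (0 : E) r ↔ ‖x‖ ≤ r := fun x => by simp
  have : CompleteSpace (Metric.closedBall (0 : E) r) :=
    Metric.isClosed_closedBall.completeSpace_coe
  have : Nonempty (Metric.closedBall (0 : E) r) := ⟨⟨0, (hmem 0).mpr (by simpa using hr)⟩⟩
  let T' : Metric.closedBall (0 : E) r → Metric.closedBall (0 : E) r :=
    fun x => ⟨T x, (hmem _).mpr (hm x ((hmem _).mp x.2))⟩
  have hc : ContractingWith (1 / 2 : ℝ≥0) T' := by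
    refine ⟨by norm_num, LipschitzWith.of_dist_le_mul fun x y => ?_⟩
    rw [Subtype.dist_eq, Subtype.dist_eq, dist_eq_norm, dist_eq_norm]
    have := hl x y ((hmem _).mp x.2) ((hmem _).mp y.2)
    simpa [T'] using this
  have hfix := hc.fixedPoint_isFixedPt
  let x₀ : Metric.closedBall (0 : E) r := ContractingWith.fixedPoint T' hc
  refine ⟨x₀.1, (hmem _).mp x₀.2, ?_⟩
  exact congrArg Subtype.val hfix

/-- Maps bounded and Lipschitz on the unit ball. -/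
def LB (g : Ax → Ax) : Prop :=
  ∃ A M : ℝ, 0 ≤ A ∧ 0 ≤ M ∧ (∀ x, ‖x‖ ≤ 1 → ‖g x‖ ≤ M) ∧
    ∀ x y, ‖x‖ ≤ 1 → ‖y‖ ≤ 1 → ‖g x - g y‖ ≤ A * ‖x - y‖

theorem LB.const (c : Ax) : LB fun _ => c :=
  ⟨0, ‖c‖, le_rfl, norm_nonneg _, fun _ _ => le_rfl, fun x y _ _ => by simp⟩

theorem LB.mlt (s : ℤ × ℤ → ℂ) {K : ℝ} (h : ∀ n, ‖s n‖ ≤ K) : LB (Ax.mlt s h) := by
  have hK : 0 ≤ K := (norm_nonneg _).trans (h 0)
  refine ⟨K, K, hK, hK, fun x hx => ?_, fun x y _ _ => ?_⟩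
  · exact (Ax.norm_mlt_le s h x).trans (mul_le_of_le_one_right hK hx)
  · rw [← Ax.mlt_sub]
    exact Ax.norm_mlt_le s h _

theorem LB.add {g h : Ax → Ax} (hg : LB g) (hh : LB h) : LB fun x => g x + h x := by
  obtain ⟨A, M, hA, hM, h1, h2⟩ := hg
  obtain ⟨A', M', hA', hM', h1', h2'⟩ := hh
  refine ⟨A + A', M + M', by positivity, by positivity, fun x hx => ?_, fun x y hx hy => ?_⟩
  · exact (norm_add_le _ _).trans (add_le_add (h1 x hx) (h1' x hx))
  · have e : g x + h x - (g y + h y) = (g x - g y) + (h x - h y) := by abel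
    rw [e, add_mul]
    exact (norm_add_le _ _).trans (add_le_add (h2 x y hx hy) (h2' x y hx hy))

theorem LB.sub {g h : Ax → Ax} (hg : LB g) (hh : LB h) : LB fun x => g x - h x := by
  obtain ⟨A, M, hA, hM, h1, h2⟩ := hg
  obtain ⟨A', M', hA', hM', h1', h2'⟩ := hh
  refine ⟨A + A', M + M', by positivity, by positivity, fun x hx => ?_, fun x y hx hy => ?_⟩
  · exact (norm_sub_le _ _).trans (add_le_add (h1 x hx) (h1' x hx))
  · have e : g x - h x - (g y - h y) = (g x - g y) - (h x - h y) := by abel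
    rw [e, add_mul]
    exact (norm_sub_le _ _).trans (add_le_add (h2 x y hx hy) (h2' x y hx hy))

theorem LB.cv (G : Wt) {g h : Ax → Ax} (hg : LB g) (hh : LB h) : LB fun x => G.cv (g x) (h x) := by
  obtain ⟨A, M, hA, hM, h1, h2⟩ := hg
  obtain ⟨A', M', hA', hM', h1', h2'⟩ := hh
  refine ⟨A * M' + M * A', M * M', by positivity, by positivity, fun x hx => ?_,
    fun x y hx hy => ?_⟩
  · exact (G.norm_cv_le _ _).trans (mul_le_mul (h1 x hx) (h1' x hx) (norm_nonneg _) hM)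
  · refine (G.norm_cv_diff_le _ _ _ _).trans ?_
    have b1 := h2 x y hx hy
    have b2 := h1' x hx
    have b3 := h1 y hy
    have b4 := h2' x y hx hy
    have hn := norm_nonneg (x - y)
    calc ‖g x - g y‖ * ‖h x‖ + ‖g y‖ * ‖h x - h y‖
        ≤ (A * ‖x - y‖) * M' + M * (A' * ‖x - y‖) :=
          add_le_add (mul_le_mul b1 b2 (norm_nonneg _) (by positivity))
            (mul_le_mul b3 b4 (norm_nonneg _) hM)
      _ = (A * M' + M * A') * ‖x - y‖ := by ring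

/-- The Fourier data of the conformal factor. -/
structure Dat where
  L1 : Ax
  L2 : Ax
  L11 : Ax
  L12 : Ax
  L22 : Ax

namespace Wt

variable (G : Wt) (L : Lat) (D : Dat)

/-- The function `u = 1 + v`. -/
noncomputable def uu (f : Ax) : Ax := one + L.R0 f

/-- First component of the gradient term. -/
noncomputable def X1 (f : Ax) : Ax := G.cv (uu L f) D.L1 + L.R1 f

/-- Second component of the gradient term. -/
noncomputable def X2 (f : Ax) : Ax := G.cv (uu L f) D.L2 + L.R2 f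

/-- Derivative of the gradient term. -/
noncomputable def K11 (f : Ax) : Ax := G.cv (L.R1 f) D.L1 + G.cv (uu L f) D.L11 + L.R11 f

/-- Derivative of the gradient term. -/
noncomputable def K12 (f : Ax) : Ax := G.cv (L.R2 f) D.L1 + G.cv (uu L f) D.L12 + L.R12 f

/-- Derivative of the gradient term. -/
noncomputable def K21 (f : Ax) : Ax := G.cv (L.R1 f) D.L2 + G.cv (uu L f) D.L12 + L.R12 f

/-- Derivative of the gradient term. -/
noncomputable def K22 (f : Ax) : Ax := G.cv (L.R2 f) D.L2 + G.cv (uu L f) D.L22 + L.R22 f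

/-- The term `u Δv - |∇v|²`. -/
noncomputable def YY (f : Ax) : Ax :=
  G.cv (uu L f) (L.R11 f + L.R22 f) - G.cv (L.R1 f) (L.R1 f) - G.cv (L.R2 f) (L.R2 f)

/-- The part of the equation which does not depend on the small parameter. -/
noncomputable def N1 (f : Ax) : Ax :=
  G.cv (L.R1 f) (L.R1 f) + G.cv (L.R2 f) (L.R2 f) - G.cv (L.R0 f) (L.R11 f + L.R22 f)

/-- The part of the equation with the factor of the small parameter. -/
noncomputable def N2 (f : Ax) : Ax :=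
  G.cv (G.cv (X1 G L D f) (X1 G L D f) + G.cv (X2 G L D f) (X2 G L D f)) (YY G L f) +
    G.cv (G.cv (uu L f) (uu L f))
      (G.cv (K11 G L D f) (K22 G L D f) - G.cv (K12 G L D f) (K21 G L D f)) -
    G.cv (uu L f)
      (G.cv (L.R1 f) (G.cv (X1 G L D f) (K11 G L D f) + G.cv (X2 G L D f) (K21 G L D f)) +
        G.cv (L.R2 f) (G.cv (X1 G L D f) (K12 G L D f) + G.cv (X2 G L D f) (K22 G L D f)))

/-- The map whose fixed points solve the equation. -/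
noncomputable def Tm (δ : ℝ) (f : Ax) : Ax := L.Pm (N1 G L f + (δ : ℂ) • N2 G L D f)

theorem LB_R0 : LB L.R0 := LB.mlt L.s0 L.s0_bd
theorem LB_R1 : LB L.R1 := LB.mlt L.s1 L.s1_bd
theorem LB_R2 : LB L.R2 := LB.mlt L.s2 L.s2_bd
theorem LB_R11 : LB L.R11 := LB.mlt L.s11 L.s11_bd
theorem LB_R12 : LB L.R12 := LB.mlt L.s12 L.s12_bd
theorem LB_R22 : LB L.R22 := LB.mlt L.s22 L.s22_bd

theorem LB_uu : LB (uu L) := (LB.const one).add (LB_R0 L)

theorem LB_X1 : LB (X1 G L D) := ((LB_uu L).cv G (LB.const D.L1)).add (LB_R1 L)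
theorem LB_X2 : LB (X2 G L D) := ((LB_uu L).cv G (LB.const D.L2)).add (LB_R2 L)
theorem LB_K11 : LB (K11 G L D) :=
  (((LB_R1 L).cv G (LB.const D.L1)).add ((LB_uu L).cv G (LB.const D.L11))).add (LB_R11 L)
theorem LB_K12 : LB (K12 G L D) :=
  (((LB_R2 L).cv G (LB.const D.L1)).add ((LB_uu L).cv G (LB.const D.L12))).add (LB_R12 L)
theorem LB_K21 : LB (K21 G L D) :=
  (((LB_R1 L).cv G (LB.const D.L2)).add ((LB_uu L).cv G (LB.const D.L12))).add (LB_R12 L)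
theorem LB_K22 : LB (K22 G L D) :=
  (((LB_R2 L).cv G (LB.const D.L2)).add ((LB_uu L).cv G (LB.const D.L22))).add (LB_R22 L)
theorem LB_YY : LB (YY G L) :=
  (((LB_uu L).cv G ((LB_R11 L).add (LB_R22 L))).sub ((LB_R1 L).cv G (LB_R1 L))).sub
    ((LB_R2 L).cv G (LB_R2 L))

theorem LB_N2 : LB (N2 G L D) := by
  have hX1 := LB_X1 G L D
  have hX2 := LB_X2 G L D
  have hK11 := LB_K11 G L D
  have hK12 := LB_K12 G L D
  have hK21 := LB_K21 G L D
  have hK22 := LB_K22 G L D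
  have hu := LB_uu L
  have hY := LB_YY G L
  exact (((((hX1.cv G hX1).add (hX2.cv G hX2)).cv G hY).add
    ((hu.cv G hu).cv G ((hK11.cv G hK22).sub (hK12.cv G hK21)))).sub
    (hu.cv G (((LB_R1 L).cv G ((hX1.cv G hK11).add (hX2.cv G hK21))).add
      ((LB_R2 L).cv G ((hX1.cv G hK12).add (hX2.cv G hK22))))))

/-- The basic estimate for a product of bounded linear maps. -/
theorem cv_lin_diff {A B : Ax → Ax} {a b : ℝ} (ha : 0 ≤ a) (hb : 0 ≤ b)
    (hA : ∀ x, ‖A x‖ ≤ a * ‖x‖) (hB : ∀ x, ‖B x‖ ≤ b * ‖x‖)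
    (hA' : ∀ x y, ‖A x - A y‖ ≤ a * ‖x - y‖) (hB' : ∀ x y, ‖B x - B y‖ ≤ b * ‖x - y‖) (f g : Ax) :
    ‖G.cv (A f) (B f) - G.cv (A g) (B g)‖ ≤ (a * b) * (‖f‖ + ‖g‖) * ‖f - g‖ := by
  refine (G.norm_cv_diff_le _ _ _ _).trans ?_
  have h1 := hA' f g
  have h2 := hB f
  have h3 := hA g
  have h4 := hB' f g
  calc ‖A f - A g‖ * ‖B f‖ + ‖A g‖ * ‖B f - B g‖
      ≤ (a * ‖f - g‖) * (b * ‖f‖) + (a * ‖g‖) * (b * ‖f - g‖) :=
        add_le_add (mul_le_mul h1 h2 (norm_nonneg _) (by positivity))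
          (mul_le_mul h3 h4 (norm_nonneg _) (by positivity))
    _ = _ := by ring

/-- The estimate for the main quadratic term. -/
theorem N1_diff (f g : Ax) :
    ‖N1 G L f - N1 G L g‖ ≤ 4 * L.K ^ 2 * (‖f‖ + ‖g‖) * ‖f - g‖ := by
  have hK : 0 ≤ L.K := zero_le_one.trans L.one_le_K
  have e : N1 G L f - N1 G L g =
      (G.cv (L.R1 f) (L.R1 f) - G.cv (L.R1 g) (L.R1 g)) +
      (G.cv (L.R2 f) (L.R2 f) - G.cv (L.R2 g) (L.R2 g)) -
      (G.cv (L.R0 f) (L.R11 f + L.R22 f) - G.cv (L.R0 g) (L.R11 g + L.R22 g)) := by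
    unfold N1
    abel
  have b1 := cv_lin_diff G (A := L.R1) (B := L.R1) hK hK (fun x => Ax.norm_mlt_le _ _ x)
    (fun x => Ax.norm_mlt_le _ _ x)
    (fun x y => by
      simp only [Lat.R1]
      rw [← Ax.mlt_sub]
      exact Ax.norm_mlt_le _ _ _)
    (fun x y => by
      simp only [Lat.R1]
      rw [← Ax.mlt_sub]
      exact Ax.norm_mlt_le _ _ _) f g
  have b2 := cv_lin_diff G (A := L.R2) (B := L.R2) hK hK (fun x => Ax.norm_mlt_le _ _ x)
    (fun x => Ax.norm_mlt_le _ _ x)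
    (fun x y => by
      simp only [Lat.R2]
      rw [← Ax.mlt_sub]
      exact Ax.norm_mlt_le _ _ _)
    (fun x y => by
      simp only [Lat.R2]
      rw [← Ax.mlt_sub]
      exact Ax.norm_mlt_le _ _ _) f g
  have b3 := cv_lin_diff G (A := L.R0) (B := fun x => L.R11 x + L.R22 x) (a := L.K) (b := 2 * L.K)
    hK (by positivity) (fun x => Ax.norm_mlt_le _ _ x)
    (fun x => by
      have h1 := Ax.norm_mlt_le L.s11 L.s11_bd x
      have h2 := Ax.norm_mlt_le L.s22 L.s22_bd x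
      refine (norm_add_le _ _).trans ?_
      simp only [Lat.R11, Lat.R22]
      linarith)
    (fun x y => by
      simp only [Lat.R0]
      rw [← Ax.mlt_sub]
      exact Ax.norm_mlt_le _ _ _)
    (fun x y => by
      have e : L.R11 x + L.R22 x - (L.R11 y + L.R22 y) =
          Ax.mlt L.s11 L.s11_bd (x - y) + Ax.mlt L.s22 L.s22_bd (x - y) := by
        rw [Ax.mlt_sub, Ax.mlt_sub]
        simp only [Lat.R11, Lat.R22]
        abel
      rw [e]
      have h1 := Ax.norm_mlt_le L.s11 L.s11_bd (x - y)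
      have h2 := Ax.norm_mlt_le L.s22 L.s22_bd (x - y)
      refine (norm_add_le _ _).trans ?_
      linarith) f g
  rw [e]
  refine (norm_sub_le _ _).trans ?_
  have b4 := norm_add_le (G.cv (L.R1 f) (L.R1 f) - G.cv (L.R1 g) (L.R1 g))
    (G.cv (L.R2 f) (L.R2 f) - G.cv (L.R2 g) (L.R2 g))
  calc _ ≤ L.K * L.K * (‖f‖ + ‖g‖) * ‖f - g‖ + L.K * L.K * (‖f‖ + ‖g‖) * ‖f - g‖ +
        L.K * (2 * L.K) * (‖f‖ + ‖g‖) * ‖f - g‖ := by linarith
    _ = _ := by ring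

theorem N1_zero : N1 G L 0 = 0 := by
  have h : ∀ x : Ax, ∀ y : Ax, x = 0 → G.cv x y = 0 := by
    intro x y hx
    rw [← norm_le_zero_iff]
    refine (G.norm_cv_le x y).trans ?_
    simp [hx]
  have h0 : ∀ (s : ℤ × ℤ → ℂ) {K : ℝ} (hs : ∀ n, ‖s n‖ ≤ K), Ax.mlt s hs 0 = 0 := by
    intro s K hs
    ext n
    simp
  unfold N1
  simp only [Lat.R0, Lat.R1, Lat.R2, h0, h _ _ rfl]
  simp

theorem norm_Pm_le (x : Ax) : ‖L.Pm x‖ ≤ ‖x‖ := by
  have := Ax.norm_mlt_le L.sP L.sP_bd x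
  simpa [Lat.Pm] using this

theorem Pm_sub (x y : Ax) : L.Pm (x - y) = L.Pm x - L.Pm y := Ax.mlt_sub _ _ _ _

end Wt

/-- The clipping of a parameter to an interval. -/
noncomputable def clip (a t : ℝ) : ℝ := max 0 (min t a)

theorem clip_nonneg (a t : ℝ) : 0 ≤ clip a t := le_max_left _ _

theorem clip_le {a : ℝ} (ha : 0 ≤ a) (t : ℝ) : clip a t ≤ a :=
  max_le ha (min_le_right _ _)

theorem clip_of_mem {a t : ℝ} (h0 : 0 ≤ t) (h1 : t ≤ a) : clip a t = t := by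
  unfold clip
  rw [min_eq_left h1, max_eq_right h0]

theorem clip_continuous (a : ℝ) : Continuous (clip a) := by
  unfold clip
  fun_prop

namespace Wt

variable (G : Wt) (L : Lat) (D : Dat)

theorem stx_R0 (x : Ax) : Ax.stx (L.R0 x) = L.R0 (Ax.stx x) := Ax.stx_mlt _ _ L.conj_s0 _
theorem stx_R1 (x : Ax) : Ax.stx (L.R1 x) = L.R1 (Ax.stx x) := Ax.stx_mlt _ _ L.conj_s1 _
theorem stx_R2 (x : Ax) : Ax.stx (L.R2 x) = L.R2 (Ax.stx x) := Ax.stx_mlt _ _ L.conj_s2 _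
theorem stx_R11 (x : Ax) : Ax.stx (L.R11 x) = L.R11 (Ax.stx x) := Ax.stx_mlt _ _ L.conj_s11 _
theorem stx_R12 (x : Ax) : Ax.stx (L.R12 x) = L.R12 (Ax.stx x) := Ax.stx_mlt _ _ L.conj_s12 _
theorem stx_R22 (x : Ax) : Ax.stx (L.R22 x) = L.R22 (Ax.stx x) := Ax.stx_mlt _ _ L.conj_s22 _
theorem stx_Pm (x : Ax) : Ax.stx (L.Pm x) = L.Pm (Ax.stx x) := Ax.stx_mlt _ _ L.conj_sP _

/-- The data of a real function. -/
structure Dat.IsReal (D : Dat) : Prop where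
  h1 : Ax.stx D.L1 = D.L1
  h2 : Ax.stx D.L2 = D.L2
  h11 : Ax.stx D.L11 = D.L11
  h12 : Ax.stx D.L12 = D.L12
  h22 : Ax.stx D.L22 = D.L22

variable {D}

theorem stx_uu (f : Ax) : Ax.stx (uu L f) = uu L (Ax.stx f) := by
  unfold uu
  rw [Ax.stx_add, stx_one, stx_R0]

theorem stx_X1 (hD : Dat.IsReal D) (f : Ax) : Ax.stx (X1 G L D f) = X1 G L D (Ax.stx f) := by
  unfold X1
  rw [Ax.stx_add, G.stx_cv, stx_uu, hD.h1, stx_R1]

theorem stx_X2 (hD : Dat.IsReal D) (f : Ax) : Ax.stx (X2 G L D f) = X2 G L D (Ax.stx f) := by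
  unfold X2
  rw [Ax.stx_add, G.stx_cv, stx_uu, hD.h2, stx_R2]

theorem stx_K11 (hD : Dat.IsReal D) (f : Ax) : Ax.stx (K11 G L D f) = K11 G L D (Ax.stx f) := by
  unfold K11
  rw [Ax.stx_add, Ax.stx_add, G.stx_cv, G.stx_cv, stx_uu, hD.h1, hD.h11, stx_R1, stx_R11]

theorem stx_K12 (hD : Dat.IsReal D) (f : Ax) : Ax.stx (K12 G L D f) = K12 G L D (Ax.stx f) := by
  unfold K12
  rw [Ax.stx_add, Ax.stx_add, G.stx_cv, G.stx_cv, stx_uu, hD.h1, hD.h12, stx_R2, stx_R12]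

theorem stx_K21 (hD : Dat.IsReal D) (f : Ax) : Ax.stx (K21 G L D f) = K21 G L D (Ax.stx f) := by
  unfold K21
  rw [Ax.stx_add, Ax.stx_add, G.stx_cv, G.stx_cv, stx_uu, hD.h2, hD.h12, stx_R1, stx_R12]

theorem stx_K22 (hD : Dat.IsReal D) (f : Ax) : Ax.stx (K22 G L D f) = K22 G L D (Ax.stx f) := by
  unfold K22
  rw [Ax.stx_add, Ax.stx_add, G.stx_cv, G.stx_cv, stx_uu, hD.h2, hD.h22, stx_R2, stx_R22]

theorem stx_YY (f : Ax) : Ax.stx (YY G L f) = YY G L (Ax.stx f) := by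
  unfold YY
  simp only [Ax.stx_sub, Ax.stx_add, G.stx_cv, stx_uu, stx_R1, stx_R2, stx_R11, stx_R22]

theorem stx_N1 (f : Ax) : Ax.stx (N1 G L f) = N1 G L (Ax.stx f) := by
  unfold N1
  simp only [Ax.stx_sub, Ax.stx_add, G.stx_cv, stx_R0, stx_R1, stx_R2, stx_R11, stx_R22]

theorem stx_N2 (hD : Dat.IsReal D) (f : Ax) : Ax.stx (N2 G L D f) = N2 G L D (Ax.stx f) := by
  unfold N2
  simp only [Ax.stx_sub, Ax.stx_add, G.stx_cv, stx_uu, stx_R1, stx_R2, stx_X1 G L hD,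
    stx_X2 G L hD, stx_K11 G L hD, stx_K12 G L hD, stx_K21 G L hD, stx_K22 G L hD, stx_YY]

theorem stx_Tm (hD : Dat.IsReal D) (δ : ℝ) (f : Ax) :
    Ax.stx (Tm G L D δ f) = Tm G L D δ (Ax.stx f) := by
  unfold Tm
  rw [stx_Pm, Ax.stx_add, Ax.stx_real_smul, stx_N1, stx_N2 G L hD]

variable (D)

theorem norm_stx (x : Ax) : ‖Ax.stx x‖ = ‖x‖ := by
  rw [Ax.norm_eq, Ax.norm_eq, ← (Equiv.neg (ℤ × ℤ)).tsum_eq]
  congr 1
  ext n
  simp

/-- **The family of fixed points.** -/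
theorem exists_family (hD : Dat.IsReal D) :
    ∃ a : ℝ, 0 < a ∧ ∃ fam : ℝ → Ax, Continuous fam ∧
      (∀ t, Tm G L D (clip a t ^ 2) (fam t) = fam t) ∧
      (∀ t, Ax.stx (fam t) = fam t) ∧
      fam 0 = 0 ∧
      (∀ t, ‖L.R0 (fam t)‖ ≤ 1 / 2) ∧
      (∀ t, clip a t ^ 2 * (‖X1 G L D (fam t)‖ ^ 2 + ‖X2 G L D (fam t)‖ ^ 2) ≤ 1 / 2) := by
  obtain ⟨A₂, M₂, hA₂, hM₂, hb2, hl2⟩ := LB_N2 G L D
  obtain ⟨-, M₃, -, hM₃, hb3, -⟩ := LB_X1 G L D
  obtain ⟨-, M₄, -, hM₄, hb4, -⟩ := LB_X2 G L D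
  have hK1 := L.one_le_K
  have hKpos : 0 < L.K := lt_of_lt_of_le one_pos hK1
  set k := L.K with hk
  -- the radius
  let r : ℝ := 1 / (32 * k ^ 2)
  have hr : 0 < r := by positivity
  have hk2 : 1 ≤ k ^ 2 := by nlinarith
  have hr1 : r ≤ 1 := by
    simp only [r]
    rw [div_le_one (by positivity)]
    linarith
  have hrk : 4 * k ^ 2 * r = 1 / 8 := by
    simp only [r]
    field_simp
    norm_num
  have hrk' : k * r ≤ 1 / 2 := by
    have : k ≤ k ^ 2 := by nlinarith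
    have h3 : k * r ≤ k ^ 2 * r := mul_le_mul_of_nonneg_right this hr.le
    have h4 : k ^ 2 * r = 1 / 32 := by
      simp only [r]
      field_simp
    linarith
  -- the small parameter
  let d : ℝ := min (1 / (4 * (A₂ + 1))) (min (r / (2 * (M₂ + 1))) (1 / (4 * (M₃ ^ 2 + M₄ ^ 2 + 1))))
  have hd : 0 < d := by
    simp only [d]
    refine lt_min (by positivity) (lt_min (by positivity) (by positivity))
  have hd1 : d * A₂ ≤ 1 / 4 := by
    have h1 : d ≤ 1 / (4 * (A₂ + 1)) := min_le_left _ _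
    rw [le_div_iff₀ (by positivity)] at h1
    nlinarith
  have hd2 : d * M₂ ≤ r / 2 := by
    have h1 : d ≤ r / (2 * (M₂ + 1)) := (min_le_right _ _).trans (min_le_left _ _)
    rw [le_div_iff₀ (by positivity)] at h1
    nlinarith
  have hd3 : d * (M₃ ^ 2 + M₄ ^ 2) ≤ 1 / 4 := by
    have h1 : d ≤ 1 / (4 * (M₃ ^ 2 + M₄ ^ 2 + 1)) := (min_le_right _ _).trans (min_le_right _ _)
    rw [le_div_iff₀ (by positivity)] at h1
    nlinarith
  let a : ℝ := min 1 d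
  have ha : 0 < a := lt_min one_pos hd
  have ha1 : a ≤ 1 := min_le_left _ _
  have had : a ≤ d := min_le_right _ _
  have hclip : ∀ t, clip a t ^ 2 ≤ d := by
    intro t
    have h0 := clip_nonneg a t
    have h1 := clip_le ha.le t
    nlinarith
  have hclip0 : ∀ t, 0 ≤ clip a t ^ 2 := fun t => by positivity
  -- the estimates for the map
  have hm : ∀ δ, 0 ≤ δ → δ ≤ d → ∀ x, ‖x‖ ≤ r → ‖Tm G L D δ x‖ ≤ r := by
    intro δ h0 h1 x hx
    have hx1 : ‖x‖ ≤ 1 := hx.trans hr1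
    refine (norm_Pm_le L _).trans ((norm_add_le _ _).trans ?_)
    have e1 : ‖N1 G L x‖ ≤ 4 * k ^ 2 * (‖x‖ + ‖(0:Ax)‖) * ‖x - 0‖ := by
      have := N1_diff G L x 0
      rwa [N1_zero, sub_zero] at this
    have e2 : ‖((δ : ℝ) : ℂ) • N2 G L D x‖ ≤ δ * M₂ := by
      rw [norm_smul, Complex.norm_real, Real.norm_eq_abs, abs_of_nonneg h0]
      exact mul_le_mul_of_nonneg_left (hb2 x hx1) h0
    simp only [norm_zero, add_zero, sub_zero] at e1
    have hn := norm_nonneg x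
    have e3 : 4 * k ^ 2 * ‖x‖ * ‖x‖ ≤ 4 * k ^ 2 * r * r := by
      have : ‖x‖ * ‖x‖ ≤ r * r := mul_le_mul hx hx hn hr.le
      nlinarith [sq_nonneg k]
    have e4 : δ * M₂ ≤ d * M₂ := mul_le_mul_of_nonneg_right h1 hM₂
    rw [hrk] at e3
    linarith
  have hl : ∀ δ, 0 ≤ δ → δ ≤ d → ∀ x y, ‖x‖ ≤ r → ‖y‖ ≤ r →
      ‖Tm G L D δ x - Tm G L D δ y‖ ≤ (1 / 2) * ‖x - y‖ := by
    intro δ h0 h1 x y hx hy
    have hx1 : ‖x‖ ≤ 1 := hx.trans hr1
    have hy1 : ‖y‖ ≤ 1 := hy.trans hr1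
    unfold Tm
    rw [← Pm_sub]
    refine (norm_Pm_le L _).trans ?_
    have e0 : N1 G L x + ((δ : ℝ) : ℂ) • N2 G L D x - (N1 G L y + ((δ : ℝ) : ℂ) • N2 G L D y) =
        (N1 G L x - N1 G L y) + ((δ : ℝ) : ℂ) • (N2 G L D x - N2 G L D y) := by
      rw [smul_sub]
      abel
    rw [e0]
    refine (norm_add_le _ _).trans ?_
    rw [norm_smul, Complex.norm_real, Real.norm_eq_abs, abs_of_nonneg h0]
    have e1 := N1_diff G L x y
    have e2 := hl2 x y hx1 hy1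
    have hn := norm_nonneg (x - y)
    have e3 : 4 * k ^ 2 * (‖x‖ + ‖y‖) ≤ 4 * k ^ 2 * (r + r) := by
      have : 0 ≤ 4 * k ^ 2 := by positivity
      exact mul_le_mul_of_nonneg_left (add_le_add hx hy) this
    have e4 : 4 * k ^ 2 * (r + r) = 1 / 4 := by
      have : 4 * k ^ 2 * (r + r) = 2 * (4 * k ^ 2 * r) := by ring
      rw [this, hrk]
      norm_num
    have e5 : δ * A₂ ≤ 1 / 4 := (mul_le_mul_of_nonneg_right h1 hA₂).trans hd1
    have e6 : δ * ‖N2 G L D x - N2 G L D y‖ ≤ δ * (A₂ * ‖x - y‖) :=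
      mul_le_mul_of_nonneg_left e2 h0
    have e7 : 4 * k ^ 2 * (‖x‖ + ‖y‖) * ‖x - y‖ ≤ 1 / 4 * ‖x - y‖ := by
      rw [e4] at e3
      exact mul_le_mul_of_nonneg_right e3 hn
    have e8 : δ * (A₂ * ‖x - y‖) = (δ * A₂) * ‖x - y‖ := by ring
    have e9 : (δ * A₂) * ‖x - y‖ ≤ 1 / 4 * ‖x - y‖ := mul_le_mul_of_nonneg_right e5 hn
    linarith
  have hex : ∀ t : ℝ, ∃ x : Ax, ‖x‖ ≤ r ∧ Tm G L D (clip a t ^ 2) x = x := fun t =>
    banach_ball _ hr.le (hm _ (hclip0 t) (hclip t)) (hl _ (hclip0 t) (hclip t))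
  choose fam hfam1 hfam2 using hex
  -- uniqueness
  have huniq : ∀ δ, 0 ≤ δ → δ ≤ d → ∀ x y, ‖x‖ ≤ r → ‖y‖ ≤ r → Tm G L D δ x = x →
      Tm G L D δ y = y → x = y := by
    intro δ h0 h1 x y hx hy hxf hyf
    have := hl δ h0 h1 x y hx hy
    rw [hxf, hyf] at this
    have hn := norm_nonneg (x - y)
    have h2 : ‖x - y‖ = 0 := by linarith
    exact sub_eq_zero.mp (norm_eq_zero.mp h2)
  -- continuity
  have hlip : ∀ s t, ‖fam s - fam t‖ ≤ 2 * M₂ * |clip a s ^ 2 - clip a t ^ 2| := by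
    intro s t
    have h1 := hl _ (hclip0 s) (hclip s) (fam s) (fam t) (hfam1 s) (hfam1 t)
    rw [hfam2 s] at h1
    have e1 : fam s - fam t = (fam s - Tm G L D (clip a s ^ 2) (fam t)) +
        (Tm G L D (clip a s ^ 2) (fam t) - Tm G L D (clip a t ^ 2) (fam t)) := by
      rw [hfam2 t]
      abel
    have e2 : Tm G L D (clip a s ^ 2) (fam t) - Tm G L D (clip a t ^ 2) (fam t) =
        L.Pm (((clip a s ^ 2 - clip a t ^ 2 : ℝ) : ℂ) • N2 G L D (fam t)) := by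
      unfold Tm
      rw [← Pm_sub]
      congr 1
      push_cast
      rw [sub_smul]
      abel
    have e3 : ‖L.Pm (((clip a s ^ 2 - clip a t ^ 2 : ℝ) : ℂ) • N2 G L D (fam t))‖ ≤
        |clip a s ^ 2 - clip a t ^ 2| * M₂ := by
      refine (norm_Pm_le L _).trans ?_
      rw [norm_smul, Complex.norm_real, Real.norm_eq_abs]
      exact mul_le_mul_of_nonneg_left (hb2 _ ((hfam1 t).trans hr1)) (abs_nonneg _)
    have e4 : ‖fam s - fam t‖ ≤ (1 / 2) * ‖fam s - fam t‖ + |clip a s ^ 2 - clip a t ^ 2| * M₂ := by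
      calc ‖fam s - fam t‖ = ‖(fam s - Tm G L D (clip a s ^ 2) (fam t)) +
          (Tm G L D (clip a s ^ 2) (fam t) - Tm G L D (clip a t ^ 2) (fam t))‖ := by rw [← e1]
        _ ≤ _ := norm_add_le _ _
        _ ≤ _ := add_le_add h1 (by rw [e2]; exact e3)
    linarith
  have hcont : Continuous fam := by
    have hc : Continuous fun t => clip a t ^ 2 := (clip_continuous a).pow 2
    rw [continuous_iff_continuousAt]
    intro t₀
    rw [ContinuousAt, tendsto_iff_norm_sub_tendsto_zero]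
    have h0 : Filter.Tendsto (fun t => 2 * M₂ * |clip a t ^ 2 - clip a t₀ ^ 2|) (nhds t₀)
        (nhds (2 * M₂ * |clip a t₀ ^ 2 - clip a t₀ ^ 2|)) := by
      have : Continuous fun t => 2 * M₂ * |clip a t ^ 2 - clip a t₀ ^ 2| := by fun_prop
      exact this.tendsto t₀
    simp only [sub_self, abs_zero, mul_zero] at h0
    exact squeeze_zero (fun t => norm_nonneg _) (fun t => hlip t t₀) h0
  refine ⟨a, ha, fam, hcont, hfam2, ?_, ?_, ?_, ?_⟩
  · intro t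
    have h1 : Tm G L D (clip a t ^ 2) (Ax.stx (fam t)) = Ax.stx (fam t) := by
      rw [← stx_Tm G L hD, hfam2 t]
    have h2 : ‖Ax.stx (fam t)‖ ≤ r := by
      rw [norm_stx]
      exact hfam1 t
    exact huniq _ (hclip0 t) (hclip t) _ _ h2 (hfam1 t) h1 (hfam2 t)
  · have h1 : clip a 0 = 0 := clip_of_mem le_rfl ha.le
    have h2 : Tm G L D (clip a 0 ^ 2) 0 = 0 := by
      unfold Tm
      rw [h1, N1_zero]
      simp only [ne_eq, OfNat.ofNat_ne_zero, not_false_eq_true, zero_pow, Complex.ofReal_zero,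
        zero_smul, add_zero]
      ext n
      simp [Lat.Pm]
    exact huniq _ (hclip0 0) (hclip 0) _ _ (hfam1 0) (by simpa using hr.le) (hfam2 0) h2
  · intro t
    refine (Ax.norm_mlt_le L.s0 L.s0_bd (fam t)).trans ?_
    have := hfam1 t
    have h3 : k * ‖fam t‖ ≤ k * r := mul_le_mul_of_nonneg_left this hKpos.le
    linarith
  · intro t
    have hu1 : ‖fam t‖ ≤ 1 := (hfam1 t).trans hr1
    have h1 := hb3 _ hu1
    have h2 := hb4 _ hu1
    have h3 : ‖X1 G L D (fam t)‖ ^ 2 ≤ M₃ ^ 2 := pow_le_pow_left₀ (norm_nonneg _) h1 2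
    have h4 : ‖X2 G L D (fam t)‖ ^ 2 ≤ M₄ ^ 2 := pow_le_pow_left₀ (norm_nonneg _) h2 2
    have h5 := hclip t
    have h6 := hclip0 t
    have h7 : clip a t ^ 2 * (‖X1 G L D (fam t)‖ ^ 2 + ‖X2 G L D (fam t)‖ ^ 2) ≤
        d * (M₃ ^ 2 + M₄ ^ 2) :=
      mul_le_mul h5 (add_le_add h3 h4) (by positivity) hd.le
    linarith

end Wt

end Vale.Agent.Lib.P205
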