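import Vale.Agent.Lib.P205.FlatOne

/-!
The flat frame attached to a solution of the flatness equation.
-/

open Real
open scoped ContDiff ComplexConjugate

namespace Vale.Agent.Lib.P205

/-- The data of the flat frame. -/
structure FD (u ξ₁ ξ₂ η₁ η₂ G₁ G₂ H₁ H₂ : ℝ × ℝ → ℝ) : Prop where
  cu : ContDiff ℝ ∞ u
  c1 : ContDiff ℝ ∞ ξ₁
  c2 : ContDiff ℝ ∞ ξ₂
  e1 : ContDiff ℝ ∞ η₁
  e2 : ContDiff ℝ ∞ η₂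
  upos : ∀ p, 0 < u p
  small : ∀ p, ξ₁ p ^ 2 + ξ₂ p ^ 2 < 1
  ux : ∀ p, dx u p = u p * η₁ p
  uy : ∀ p, dy u p = u p * η₂ p
  xx : ∀ p, dx ξ₁ p = G₁ p
  xy : ∀ p, dy ξ₁ p = G₂ p
  yx : ∀ p, dx ξ₂ p = H₁ p
  yy : ∀ p, dy ξ₂ p = H₂ p
  theta : ∀ p, G₂ p - H₁ p = ξ₁ p * η₂ p - ξ₂ p * η₁ p

/-- The coefficients of the connection form. -/
noncomputable def aa (e ξ₁ ξ₂ G : ℝ × ℝ → ℝ) (p : ℝ × ℝ) : ℝ :=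
  (e p - ξ₂ p * G p / (1 - ξ₁ p ^ 2)) / √(1 - ξ₁ p ^ 2 - ξ₂ p ^ 2)

/-- First frame coefficient. -/
noncomputable def zZ (u ξ₁ : ℝ × ℝ → ℝ) (p : ℝ × ℝ) : ℝ := √(1 - ξ₁ p ^ 2) / u p

/-- Second frame coefficient. -/
noncomputable def zP (u ξ₁ ξ₂ : ℝ × ℝ → ℝ) (p : ℝ × ℝ) : ℝ :=
  -(ξ₁ p * ξ₂ p) / (u p * √(1 - ξ₁ p ^ 2))

/-- Third frame coefficient. -/
noncomputable def zQ (u ξ₁ ξ₂ : ℝ × ℝ → ℝ) (p : ℝ × ℝ) : ℝ :=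
  √(1 - ξ₁ p ^ 2 - ξ₂ p ^ 2) / (u p * √(1 - ξ₁ p ^ 2))

/-- A rotating complex frame vector. -/
noncomputable def cf (α β ψ : ℝ × ℝ → ℝ) (p : ℝ × ℝ) : ℂ :=
  ((α p : ℂ) + Complex.I * (β p : ℂ)) * Complex.exp (Complex.I * (ψ p : ℂ))

section Smooth

variable {u ξ₁ ξ₂ e G : ℝ × ℝ → ℝ}

theorem pos_A (hs : ∀ p, ξ₁ p ^ 2 + ξ₂ p ^ 2 < 1) (p : ℝ × ℝ) : 0 < 1 - ξ₁ p ^ 2 := by
  nlinarith [hs p, sq_nonneg (ξ₂ p)]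

theorem pos_W (hs : ∀ p, ξ₁ p ^ 2 + ξ₂ p ^ 2 < 1) (p : ℝ × ℝ) : 0 < 1 - ξ₁ p ^ 2 - ξ₂ p ^ 2 := by
  linarith [hs p]

theorem contDiff_A (h1 : ContDiff ℝ ∞ ξ₁) : ContDiff ℝ ∞ fun p => 1 - ξ₁ p ^ 2 :=
  contDiff_const.sub (h1.pow 2)

theorem contDiff_W (h1 : ContDiff ℝ ∞ ξ₁) (h2 : ContDiff ℝ ∞ ξ₂) :
    ContDiff ℝ ∞ fun p => 1 - ξ₁ p ^ 2 - ξ₂ p ^ 2 :=
  (contDiff_A h1).sub (h2.pow 2)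

theorem contDiff_sA (h1 : ContDiff ℝ ∞ ξ₁) (hs : ∀ p, ξ₁ p ^ 2 + ξ₂ p ^ 2 < 1) :
    ContDiff ℝ ∞ fun p => √(1 - ξ₁ p ^ 2) :=
  (contDiff_A h1).sqrt fun p => (pos_A hs p).ne'

theorem contDiff_sW (h1 : ContDiff ℝ ∞ ξ₁) (h2 : ContDiff ℝ ∞ ξ₂)
    (hs : ∀ p, ξ₁ p ^ 2 + ξ₂ p ^ 2 < 1) :
    ContDiff ℝ ∞ fun p => √(1 - ξ₁ p ^ 2 - ξ₂ p ^ 2) :=
  (contDiff_W h1 h2).sqrt fun p => (pos_W hs p).ne'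

theorem contDiff_aa (he : ContDiff ℝ ∞ e) (h1 : ContDiff ℝ ∞ ξ₁) (h2 : ContDiff ℝ ∞ ξ₂)
    (hG : ContDiff ℝ ∞ G) (hs : ∀ p, ξ₁ p ^ 2 + ξ₂ p ^ 2 < 1) : ContDiff ℝ ∞ (aa e ξ₁ ξ₂ G) :=
  (he.sub ((h2.mul hG).div (contDiff_A h1) fun p => (pos_A hs p).ne')).div
    (contDiff_sW h1 h2 hs) fun p => (Real.sqrt_pos.mpr (pos_W hs p)).ne'

theorem contDiff_zZ (hu : ContDiff ℝ ∞ u) (hup : ∀ p, 0 < u p) (h1 : ContDiff ℝ ∞ ξ₁)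
    (hs : ∀ p, ξ₁ p ^ 2 + ξ₂ p ^ 2 < 1) : ContDiff ℝ ∞ (zZ u ξ₁) :=
  (contDiff_sA h1 hs).div hu fun p => (hup p).ne'

theorem contDiff_zP (hu : ContDiff ℝ ∞ u) (hup : ∀ p, 0 < u p) (h1 : ContDiff ℝ ∞ ξ₁)
    (h2 : ContDiff ℝ ∞ ξ₂) (hs : ∀ p, ξ₁ p ^ 2 + ξ₂ p ^ 2 < 1) : ContDiff ℝ ∞ (zP u ξ₁ ξ₂) :=
  ((h1.mul h2).neg).div (hu.mul (contDiff_sA h1 hs)) fun p =>
    (mul_pos (hup p) (Real.sqrt_pos.mpr (pos_A hs p))).ne'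

theorem contDiff_zQ (hu : ContDiff ℝ ∞ u) (hup : ∀ p, 0 < u p) (h1 : ContDiff ℝ ∞ ξ₁)
    (h2 : ContDiff ℝ ∞ ξ₂) (hs : ∀ p, ξ₁ p ^ 2 + ξ₂ p ^ 2 < 1) : ContDiff ℝ ∞ (zQ u ξ₁ ξ₂) :=
  (contDiff_sW h1 h2 hs).div (hu.mul (contDiff_sA h1 hs)) fun p =>
    (mul_pos (hup p) (Real.sqrt_pos.mpr (pos_A hs p))).ne'

theorem contDiff_cf {α β ψ : ℝ × ℝ → ℝ} (hα : ContDiff ℝ ∞ α) (hβ : ContDiff ℝ ∞ β)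
    (hψ : ContDiff ℝ ∞ ψ) : ContDiff ℝ ∞ (cf α β ψ) := by
  have h1 : ContDiff ℝ ∞ (fun p => (α p : ℂ)) := Complex.ofRealCLM.contDiff.comp hα
  have h2 : ContDiff ℝ ∞ (fun p => (β p : ℂ)) := Complex.ofRealCLM.contDiff.comp hβ
  have h3 : ContDiff ℝ ∞ (fun p => (ψ p : ℂ)) := Complex.ofRealCLM.contDiff.comp hψ
  exact (h1.add (contDiff_const.mul h2)).mul (contDiff_const.mul h3).cexp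

end Smooth

section Derivatives

variable {u ξ₁ ξ₂ e G : ℝ × ℝ → ℝ}

theorem aa_fderiv (he : ContDiff ℝ ∞ e) (h1 : ContDiff ℝ ∞ ξ₁) (h2 : ContDiff ℝ ∞ ξ₂)
    (hG : ContDiff ℝ ∞ G) (hs : ∀ p, ξ₁ p ^ 2 + ξ₂ p ^ 2 < 1) (p v : ℝ × ℝ) :
    fderiv ℝ (aa e ξ₁ ξ₂ G) p v =
      (fderiv ℝ e p v - (fderiv ℝ ξ₂ p v * G p + ξ₂ p * fderiv ℝ G p v) / (1 - ξ₁ p ^ 2) -
          ξ₂ p * G p * (2 * ξ₁ p * fderiv ℝ ξ₁ p v) / (1 - ξ₁ p ^ 2) ^ 2) /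
          √(1 - ξ₁ p ^ 2 - ξ₂ p ^ 2) +
        (e p - ξ₂ p * G p / (1 - ξ₁ p ^ 2)) * (ξ₁ p * fderiv ℝ ξ₁ p v + ξ₂ p * fderiv ℝ ξ₂ p v) /
          √(1 - ξ₁ p ^ 2 - ξ₂ p ^ 2) ^ 3 := by
  apply fderiv_eq_of_line (contDiff_aa he h1 h2 hG hs)
  have := hasDeriv_c (e := fun t : ℝ => e (p + t • v)) (ξ₁ := fun t : ℝ => ξ₁ (p + t • v))
    (ξ₂ := fun t : ℝ => ξ₂ (p + t • v)) (G := fun t : ℝ => G (p + t • v)) (t₀ := 0)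
    (line_hasDerivAt he p v) (line_hasDerivAt h1 p v) (line_hasDerivAt h2 p v)
    (line_hasDerivAt hG p v) (by simpa using pos_W hs p)
  simp only [zero_smul, add_zero] at this
  exact this

theorem zZ_fderiv (hu : ContDiff ℝ ∞ u) (hup : ∀ p, 0 < u p) (h1 : ContDiff ℝ ∞ ξ₁)
    (hs : ∀ p, ξ₁ p ^ 2 + ξ₂ p ^ 2 < 1) (p v : ℝ × ℝ) :
    fderiv ℝ (zZ u ξ₁) p v = -(ξ₁ p * fderiv ℝ ξ₁ p v) / (√(1 - ξ₁ p ^ 2) * u p) -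
      √(1 - ξ₁ p ^ 2) * fderiv ℝ u p v / u p ^ 2 := by
  apply fderiv_eq_of_line (contDiff_zZ hu hup h1 hs)
  have := hasDeriv_Z (ξ₁ := fun t : ℝ => ξ₁ (p + t • v)) (u := fun t : ℝ => u (p + t • v))
    (t₀ := 0) (line_hasDerivAt h1 p v) (line_hasDerivAt hu p v) (by simpa using pos_A hs p)
    (by simpa using hup p)
  simp only [zero_smul, add_zero] at this
  exact this

theorem zP_fderiv (hu : ContDiff ℝ ∞ u) (hup : ∀ p, 0 < u p) (h1 : ContDiff ℝ ∞ ξ₁)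
    (h2 : ContDiff ℝ ∞ ξ₂) (hs : ∀ p, ξ₁ p ^ 2 + ξ₂ p ^ 2 < 1) (p v : ℝ × ℝ) :
    fderiv ℝ (zP u ξ₁ ξ₂) p v =
      -(fderiv ℝ ξ₁ p v * ξ₂ p + ξ₁ p * fderiv ℝ ξ₂ p v) / (u p * √(1 - ξ₁ p ^ 2)) +
        ξ₁ p * ξ₂ p * fderiv ℝ u p v / (u p ^ 2 * √(1 - ξ₁ p ^ 2)) -
        ξ₁ p ^ 2 * ξ₂ p * fderiv ℝ ξ₁ p v / (u p * √(1 - ξ₁ p ^ 2) ^ 3) := by
  apply fderiv_eq_of_line (contDiff_zP hu hup h1 h2 hs)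
  have := hasDeriv_P (ξ₁ := fun t : ℝ => ξ₁ (p + t • v)) (ξ₂ := fun t : ℝ => ξ₂ (p + t • v))
    (u := fun t : ℝ => u (p + t • v)) (t₀ := 0) (line_hasDerivAt h1 p v) (line_hasDerivAt h2 p v)
    (line_hasDerivAt hu p v) (by simpa using pos_A hs p) (by simpa using hup p)
  simp only [zero_smul, add_zero] at this
  exact this

theorem zQ_fderiv (hu : ContDiff ℝ ∞ u) (hup : ∀ p, 0 < u p) (h1 : ContDiff ℝ ∞ ξ₁)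
    (h2 : ContDiff ℝ ∞ ξ₂) (hs : ∀ p, ξ₁ p ^ 2 + ξ₂ p ^ 2 < 1) (p v : ℝ × ℝ) :
    fderiv ℝ (zQ u ξ₁ ξ₂) p v =
      -(ξ₁ p * fderiv ℝ ξ₁ p v + ξ₂ p * fderiv ℝ ξ₂ p v) /
          (√(1 - ξ₁ p ^ 2 - ξ₂ p ^ 2) * (u p * √(1 - ξ₁ p ^ 2))) -
        √(1 - ξ₁ p ^ 2 - ξ₂ p ^ 2) * fderiv ℝ u p v / (u p ^ 2 * √(1 - ξ₁ p ^ 2)) +
        √(1 - ξ₁ p ^ 2 - ξ₂ p ^ 2) * (ξ₁ p * fderiv ℝ ξ₁ p v) / (u p * √(1 - ξ₁ p ^ 2) ^ 3) := by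
  apply fderiv_eq_of_line (contDiff_zQ hu hup h1 h2 hs)
  have := hasDeriv_Q (ξ₁ := fun t : ℝ => ξ₁ (p + t • v)) (ξ₂ := fun t : ℝ => ξ₂ (p + t • v))
    (u := fun t : ℝ => u (p + t • v)) (t₀ := 0) (line_hasDerivAt h1 p v) (line_hasDerivAt h2 p v)
    (line_hasDerivAt hu p v) (by simpa using pos_W hs p) (by simpa using hup p)
  simp only [zero_smul, add_zero] at this
  exact this

theorem cf_fderiv {α β ψ : ℝ × ℝ → ℝ} (hα : ContDiff ℝ ∞ α) (hβ : ContDiff ℝ ∞ β)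
    (hψ : ContDiff ℝ ∞ ψ) (p v : ℝ × ℝ) :
    fderiv ℝ (cf α β ψ) p v =
      ((fderiv ℝ α p v : ℂ) + Complex.I * (fderiv ℝ β p v : ℂ) +
        Complex.I * ((α p : ℂ) + Complex.I * (β p : ℂ)) * (fderiv ℝ ψ p v : ℂ)) *
        Complex.exp (Complex.I * (ψ p : ℂ)) := by
  apply fderiv_eq_of_line (contDiff_cf hα hβ hψ)
  have h1 := (line_hasDerivAt hα p v).ofReal_comp
  have h2 := (line_hasDerivAt hβ p v).ofReal_comp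
  have h3 := (line_hasDerivAt hψ p v).ofReal_comp
  have h4 := (h3.const_mul Complex.I).cexp
  have h5 := (h1.fun_add (h2.const_mul Complex.I)).fun_mul h4
  refine h5.congr_deriv ?_
  simp only [zero_smul, add_zero]
  ring

end Derivatives

variable {u ξ₁ ξ₂ η₁ η₂ G₁ G₂ H₁ H₂ : ℝ × ℝ → ℝ}

namespace FD

variable (h : FD u ξ₁ ξ₂ η₁ η₂ G₁ G₂ H₁ H₂)

include h

theorem G₁_eq : G₁ = dx ξ₁ := funext fun p => (h.xx p).symm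
theorem G₂_eq : G₂ = dy ξ₁ := funext fun p => (h.xy p).symm
theorem H₁_eq : H₁ = dx ξ₂ := funext fun p => (h.yx p).symm
theorem H₂_eq : H₂ = dy ξ₂ := funext fun p => (h.yy p).symm

theorem cG₁ : ContDiff ℝ ∞ G₁ := by rw [h.G₁_eq]; exact contDiff_dx h.c1
theorem cG₂ : ContDiff ℝ ∞ G₂ := by rw [h.G₂_eq]; exact contDiff_dy h.c1
theorem cH₁ : ContDiff ℝ ∞ H₁ := by rw [h.H₁_eq]; exact contDiff_dx h.c2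
theorem cH₂ : ContDiff ℝ ∞ H₂ := by rw [h.H₂_eq]; exact contDiff_dy h.c2

theorem mixed (p : ℝ × ℝ) : dy G₁ p = dx G₂ p := by
  rw [h.G₁_eq, h.G₂_eq]
  exact dy_dx_comm h.c1 p

/-- **The curvature of the connection.** -/
theorem curvature (p : ℝ × ℝ) :
    dy (aa η₂ ξ₁ ξ₂ G₁) p - dx (aa (fun q => -η₁ q) ξ₁ ξ₂ G₂) p =
      ((dx η₁ p + dy η₂ p) * √(1 - ξ₁ p ^ 2 - ξ₂ p ^ 2) ^ 2 -
        (G₁ p * H₂ p - G₂ p * H₁ p) + η₁ p * (ξ₁ p * G₁ p + ξ₂ p * H₁ p) +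
        η₂ p * (ξ₁ p * G₂ p + ξ₂ p * H₂ p)) / √(1 - ξ₁ p ^ 2 - ξ₂ p ^ 2) ^ 3 := by
  have hW := pos_W h.small p
  have hA := pos_A h.small p
  have hw2 : √(1 - ξ₁ p ^ 2 - ξ₂ p ^ 2) ^ 2 = (1 - ξ₁ p ^ 2) - ξ₂ p ^ 2 := Real.sq_sqrt hW.le
  have e1 : dy (aa η₂ ξ₁ ξ₂ G₁) p = _ := aa_fderiv h.e2 h.c1 h.c2 h.cG₁ h.small p (0, 1)
  have e2 : dx (aa (fun q => -η₁ q) ξ₁ ξ₂ G₂) p = _ :=
    aa_fderiv h.e1.neg h.c1 h.c2 h.cG₂ h.small p (1, 0)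
  have e3 : fderiv ℝ (fun q => -η₁ q) p (1, 0) = -dx η₁ p := by
    have := (hasFDerivAt_of_contDiff h.e1 p).fun_neg
    rw [this.fderiv]
    rfl
  rw [e1, e2, e3]
  have r1 : fderiv ℝ ξ₁ p (0, 1) = G₂ p := h.xy p
  have r2 : fderiv ℝ ξ₂ p (0, 1) = H₂ p := h.yy p
  have r3 : fderiv ℝ ξ₁ p (1, 0) = G₁ p := h.xx p
  have r4 : fderiv ℝ ξ₂ p (1, 0) = H₁ p := h.yx p
  have r5 : fderiv ℝ G₁ p (0, 1) = dx G₂ p := h.mixed p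
  have r6 : fderiv ℝ G₂ p (1, 0) = dx G₂ p := rfl
  have r7 : fderiv ℝ η₂ p (0, 1) = dy η₂ p := rfl
  rw [r1, r2, r3, r4, r5, r6, r7]
  exact algebra_C1 hA.ne' (Real.sqrt_pos.mpr hW).ne' hw2

/-- **The closure of the frame.** -/
theorem closure {ψ : ℝ × ℝ → ℝ} (hψ : ContDiff ℝ ∞ ψ)
    (hx : ∀ p, dx ψ p = aa η₂ ξ₁ ξ₂ G₁ p) (hy : ∀ p, dy ψ p = aa (fun q => -η₁ q) ξ₁ ξ₂ G₂ p)
    (p : ℝ × ℝ) :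
    dy (cf (zZ u ξ₁) (fun _ => 0) ψ) p = dx (cf (zP u ξ₁ ξ₂) (zQ u ξ₁ ξ₂) ψ) p := by
  have hZ := contDiff_zZ h.cu h.upos h.c1 h.small
  have hP := contDiff_zP h.cu h.upos h.c1 h.c2 h.small
  have hQ := contDiff_zQ h.cu h.upos h.c1 h.c2 h.small
  have e1 : dy (cf (zZ u ξ₁) (fun _ => 0) ψ) p = _ :=
    cf_fderiv hZ contDiff_const hψ p (0, 1)
  have e2 : dx (cf (zP u ξ₁ ξ₂) (zQ u ξ₁ ξ₂) ψ) p = _ := cf_fderiv hP hQ hψ p (1, 0)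
  rw [e1, e2]
  have hW := pos_W h.small p
  have hA := pos_A h.small p
  have hwp := Real.sqrt_pos.mpr hW
  have hsp := Real.sqrt_pos.mpr hA
  have hup := h.upos p
  have hs2 : √(1 - ξ₁ p ^ 2) ^ 2 = 1 - ξ₁ p ^ 2 := Real.sq_sqrt hA.le
  have hw2 : √(1 - ξ₁ p ^ 2 - ξ₂ p ^ 2) ^ 2 = 1 - ξ₁ p ^ 2 - ξ₂ p ^ 2 := Real.sq_sqrt hW.le
  have r1 : fderiv ℝ ξ₁ p (0, 1) = G₂ p := h.xy p
  have r3 : fderiv ℝ ξ₁ p (1, 0) = G₁ p := h.xx p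
  have r4 : fderiv ℝ ξ₂ p (1, 0) = H₁ p := h.yx p
  have r5 : fderiv ℝ u p (0, 1) = u p * η₂ p := h.uy p
  have r6 : fderiv ℝ u p (1, 0) = u p * η₁ p := h.ux p
  have r7 : fderiv ℝ ψ p (1, 0) = aa η₂ ξ₁ ξ₂ G₁ p := hx p
  have r8 : fderiv ℝ ψ p (0, 1) = aa (fun q => -η₁ q) ξ₁ ξ₂ G₂ p := hy p
  have R1 := algebra_R1 (G₁ := G₁ p) (η₁ := η₁ p) hsp.ne' hwp.ne' hup.ne' hs2 (h.theta p)
  have R2 := algebra_R2 (G₁ := G₁ p) hsp.ne' hwp.ne' hup.ne' hs2 hw2 (h.theta p)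
  have e3 : fderiv ℝ (zZ u ξ₁) p (0, 1) = _ := zZ_fderiv h.cu h.upos h.c1 h.small p (0, 1)
  have e4 : fderiv ℝ (zP u ξ₁ ξ₂) p (1, 0) = _ := zP_fderiv h.cu h.upos h.c1 h.c2 h.small p (1, 0)
  have e5 : fderiv ℝ (zQ u ξ₁ ξ₂) p (1, 0) = _ := zQ_fderiv h.cu h.upos h.c1 h.c2 h.small p (1, 0)
  rw [r1, r5] at e3
  rw [r3, r4, r6] at e4
  rw [r3, r4, r6] at e5
  have R1' : fderiv ℝ (zZ u ξ₁) p (0, 1) = fderiv ℝ (zP u ξ₁ ξ₂) p (1, 0) -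
      zQ u ξ₁ ξ₂ p * aa η₂ ξ₁ ξ₂ G₁ p := by
    rw [e3, e4]
    exact R1
  have R2' : zZ u ξ₁ p * aa (fun q => -η₁ q) ξ₁ ξ₂ G₂ p = fderiv ℝ (zQ u ξ₁ ξ₂) p (1, 0) +
      zP u ξ₁ ξ₂ p * aa η₂ ξ₁ ξ₂ G₁ p := by
    rw [e5]
    exact R2
  have R1c : ((fderiv ℝ (zZ u ξ₁) p (0, 1) : ℝ) : ℂ) = (fderiv ℝ (zP u ξ₁ ξ₂) p (1, 0) : ℝ) -
      (zQ u ξ₁ ξ₂ p : ℂ) * (aa η₂ ξ₁ ξ₂ G₁ p : ℂ) := by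
    exact_mod_cast R1'
  have R2c : (zZ u ξ₁ p : ℂ) * (aa (fun q => -η₁ q) ξ₁ ξ₂ G₂ p : ℂ) =
      (fderiv ℝ (zQ u ξ₁ ξ₂) p (1, 0) : ℝ) + (zP u ξ₁ ξ₂ p : ℂ) * (aa η₂ ξ₁ ξ₂ G₁ p : ℂ) := by
    exact_mod_cast R2'
  rw [r7, r8]
  simp only [fderiv_const_apply, zero_apply, Complex.ofReal_zero, mul_zero,
    add_zero]
  set E := Complex.exp (Complex.I * (ψ p : ℂ))
  linear_combination E * R1c + (Complex.I * E) * R2c -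
    (zQ u ξ₁ ξ₂ p : ℂ) * (aa η₂ ξ₁ ξ₂ G₁ p : ℂ) * E * Complex.I_sq

end FD

end Vale.Agent.Lib.P205
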