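import Vale.Agent.Lib.P205.Partial

/-!
One variable derivatives and the algebraic identities behind the flat frame.
-/

open Real

namespace Vale.Agent.Lib.P205

section OneVar

variable {e ξ₁ ξ₂ G u : ℝ → ℝ} {e' a b G' u' t₀ : ℝ}

theorem hasDeriv_w (h1 : HasDerivAt ξ₁ a t₀) (h2 : HasDerivAt ξ₂ b t₀)
    (hpos : 0 < 1 - ξ₁ t₀ ^ 2 - ξ₂ t₀ ^ 2) :
    HasDerivAt (fun t => √(1 - ξ₁ t ^ 2 - ξ₂ t ^ 2))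
      (-(ξ₁ t₀ * a + ξ₂ t₀ * b) / √(1 - ξ₁ t₀ ^ 2 - ξ₂ t₀ ^ 2)) t₀ := by
  have h3 : HasDerivAt (fun t => 1 - ξ₁ t ^ 2 - ξ₂ t ^ 2)
      (-(2 * ξ₁ t₀ * a) - 2 * ξ₂ t₀ * b) t₀ := by
    have := ((hasDerivAt_const t₀ (1:ℝ)).fun_sub (h1.fun_pow 2)).fun_sub (h2.fun_pow 2)
    refine this.congr_deriv ?_
    simp
  have hne : 1 - ξ₁ t₀ ^ 2 - ξ₂ t₀ ^ 2 ≠ 0 := hpos.ne'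
  refine (h3.sqrt hne).congr_deriv ?_
  have hw : √(1 - ξ₁ t₀ ^ 2 - ξ₂ t₀ ^ 2) ≠ 0 := (Real.sqrt_pos.mpr hpos).ne'
  field_simp
  ring

theorem hasDeriv_s (h1 : HasDerivAt ξ₁ a t₀) (hpos : 0 < 1 - ξ₁ t₀ ^ 2) :
    HasDerivAt (fun t => √(1 - ξ₁ t ^ 2)) (-(ξ₁ t₀ * a) / √(1 - ξ₁ t₀ ^ 2)) t₀ := by
  have h3 : HasDerivAt (fun t => 1 - ξ₁ t ^ 2) (-(2 * ξ₁ t₀ * a)) t₀ := by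
    have := (hasDerivAt_const t₀ (1:ℝ)).fun_sub (h1.fun_pow 2)
    refine this.congr_deriv ?_
    simp
  have hne : 1 - ξ₁ t₀ ^ 2 ≠ 0 := hpos.ne'
  refine (h3.sqrt hne).congr_deriv ?_
  have hw : √(1 - ξ₁ t₀ ^ 2) ≠ 0 := (Real.sqrt_pos.mpr hpos).ne'
  field_simp

/-- The derivative of the connection coefficient. -/
theorem hasDeriv_c (he : HasDerivAt e e' t₀) (h1 : HasDerivAt ξ₁ a t₀) (h2 : HasDerivAt ξ₂ b t₀)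
    (hG : HasDerivAt G G' t₀) (hpos : 0 < 1 - ξ₁ t₀ ^ 2 - ξ₂ t₀ ^ 2) :
    HasDerivAt (fun t => (e t - ξ₂ t * G t / (1 - ξ₁ t ^ 2)) / √(1 - ξ₁ t ^ 2 - ξ₂ t ^ 2))
      ((e' - (b * G t₀ + ξ₂ t₀ * G') / (1 - ξ₁ t₀ ^ 2) -
          ξ₂ t₀ * G t₀ * (2 * ξ₁ t₀ * a) / (1 - ξ₁ t₀ ^ 2) ^ 2) / √(1 - ξ₁ t₀ ^ 2 - ξ₂ t₀ ^ 2) +
        (e t₀ - ξ₂ t₀ * G t₀ / (1 - ξ₁ t₀ ^ 2)) * (ξ₁ t₀ * a + ξ₂ t₀ * b) /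
          √(1 - ξ₁ t₀ ^ 2 - ξ₂ t₀ ^ 2) ^ 3) t₀ := by
  have hA : 0 < 1 - ξ₁ t₀ ^ 2 := by nlinarith [sq_nonneg (ξ₂ t₀)]
  have hAd : HasDerivAt (fun t => 1 - ξ₁ t ^ 2) (-(2 * ξ₁ t₀ * a)) t₀ := by
    have := (hasDerivAt_const t₀ (1:ℝ)).fun_sub (h1.fun_pow 2)
    refine this.congr_deriv ?_
    simp
  have hw := hasDeriv_w h1 h2 hpos
  have hwpos : 0 < √(1 - ξ₁ t₀ ^ 2 - ξ₂ t₀ ^ 2) := Real.sqrt_pos.mpr hpos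
  have hnum := he.fun_sub (((h2.fun_mul hG).fun_div hAd hA.ne'))
  refine (hnum.fun_div hw hwpos.ne').congr_deriv ?_
  have hA' := hA.ne'
  have hw' := hwpos.ne'
  generalize √(1 - ξ₁ t₀ ^ 2 - ξ₂ t₀ ^ 2) = w at *
  generalize 1 - ξ₁ t₀ ^ 2 = A at *
  field_simp
  ring

theorem hasDeriv_Z (h1 : HasDerivAt ξ₁ a t₀) (hu : HasDerivAt u u' t₀)
    (hpos : 0 < 1 - ξ₁ t₀ ^ 2) (hup : 0 < u t₀) :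
    HasDerivAt (fun t => √(1 - ξ₁ t ^ 2) / u t)
      (-(ξ₁ t₀ * a) / (√(1 - ξ₁ t₀ ^ 2) * u t₀) - √(1 - ξ₁ t₀ ^ 2) * u' / u t₀ ^ 2) t₀ := by
  have hs := hasDeriv_s h1 hpos
  have hsp : 0 < √(1 - ξ₁ t₀ ^ 2) := Real.sqrt_pos.mpr hpos
  refine (hs.fun_div hu hup.ne').congr_deriv ?_
  have h1' := hsp.ne'
  have h2' := hup.ne'
  field_simp

theorem hasDeriv_P (h1 : HasDerivAt ξ₁ a t₀) (h2 : HasDerivAt ξ₂ b t₀) (hu : HasDerivAt u u' t₀)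
    (hpos : 0 < 1 - ξ₁ t₀ ^ 2) (hup : 0 < u t₀) :
    HasDerivAt (fun t => -(ξ₁ t * ξ₂ t) / (u t * √(1 - ξ₁ t ^ 2)))
      (-(a * ξ₂ t₀ + ξ₁ t₀ * b) / (u t₀ * √(1 - ξ₁ t₀ ^ 2)) +
        ξ₁ t₀ * ξ₂ t₀ * u' / (u t₀ ^ 2 * √(1 - ξ₁ t₀ ^ 2)) -
        ξ₁ t₀ ^ 2 * ξ₂ t₀ * a / (u t₀ * √(1 - ξ₁ t₀ ^ 2) ^ 3)) t₀ := by
  have hs := hasDeriv_s h1 hpos
  have hsp : 0 < √(1 - ξ₁ t₀ ^ 2) := Real.sqrt_pos.mpr hpos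
  have hden := hu.fun_mul hs
  have hnum := (h1.fun_mul h2).fun_neg
  refine (hnum.fun_div hden (mul_pos hup hsp).ne').congr_deriv ?_
  have h1' := hsp.ne'
  have h2' := hup.ne'
  generalize √(1 - ξ₁ t₀ ^ 2) = s at *
  field_simp
  ring

theorem hasDeriv_Q (h1 : HasDerivAt ξ₁ a t₀) (h2 : HasDerivAt ξ₂ b t₀) (hu : HasDerivAt u u' t₀)
    (hpos : 0 < 1 - ξ₁ t₀ ^ 2 - ξ₂ t₀ ^ 2) (hup : 0 < u t₀) :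
    HasDerivAt (fun t => √(1 - ξ₁ t ^ 2 - ξ₂ t ^ 2) / (u t * √(1 - ξ₁ t ^ 2)))
      (-(ξ₁ t₀ * a + ξ₂ t₀ * b) / (√(1 - ξ₁ t₀ ^ 2 - ξ₂ t₀ ^ 2) * (u t₀ * √(1 - ξ₁ t₀ ^ 2))) -
        √(1 - ξ₁ t₀ ^ 2 - ξ₂ t₀ ^ 2) * u' / (u t₀ ^ 2 * √(1 - ξ₁ t₀ ^ 2)) +
        √(1 - ξ₁ t₀ ^ 2 - ξ₂ t₀ ^ 2) * (ξ₁ t₀ * a) / (u t₀ * √(1 - ξ₁ t₀ ^ 2) ^ 3)) t₀ := by
  have hA : 0 < 1 - ξ₁ t₀ ^ 2 := by nlinarith [sq_nonneg (ξ₂ t₀)]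
  have hs := hasDeriv_s h1 hA
  have hw := hasDeriv_w h1 h2 hpos
  have hsp : 0 < √(1 - ξ₁ t₀ ^ 2) := Real.sqrt_pos.mpr hA
  have hwp : 0 < √(1 - ξ₁ t₀ ^ 2 - ξ₂ t₀ ^ 2) := Real.sqrt_pos.mpr hpos
  have hden := hu.fun_mul hs
  refine (hw.fun_div hden (mul_pos hup hsp).ne').congr_deriv ?_
  have h1' := hsp.ne'
  have h2' := hup.ne'
  have h3' := hwp.ne'
  generalize √(1 - ξ₁ t₀ ^ 2 - ξ₂ t₀ ^ 2) = w at *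
  generalize √(1 - ξ₁ t₀ ^ 2) = s at *
  field_simp
  ring

end OneVar

section Algebra

/-- The curvature identity. -/
theorem algebra_C1 {A w ξ₁ ξ₂ G₁ G₂ H₁ H₂ q e₁ e₂ f₁ f₂ : ℝ} (hA : A ≠ 0) (hw : w ≠ 0)
    (hw2 : w ^ 2 = A - ξ₂ ^ 2) :
    ((f₂ - (H₂ * G₁ + ξ₂ * q) / A - ξ₂ * G₁ * (2 * ξ₁ * G₂) / A ^ 2) / w +
        (e₂ - ξ₂ * G₁ / A) * (ξ₁ * G₂ + ξ₂ * H₂) / w ^ 3) -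
      ((-f₁ - (H₁ * G₂ + ξ₂ * q) / A - ξ₂ * G₂ * (2 * ξ₁ * G₁) / A ^ 2) / w +
        (-e₁ - ξ₂ * G₂ / A) * (ξ₁ * G₁ + ξ₂ * H₁) / w ^ 3) =
      ((f₁ + f₂) * w ^ 2 - (G₁ * H₂ - G₂ * H₁) + e₁ * (ξ₁ * G₁ + ξ₂ * H₁) +
        e₂ * (ξ₁ * G₂ + ξ₂ * H₂)) / w ^ 3 := by
  have e : ((f₂ - (H₂ * G₁ + ξ₂ * q) / A - ξ₂ * G₁ * (2 * ξ₁ * G₂) / A ^ 2) / w +
        (e₂ - ξ₂ * G₁ / A) * (ξ₁ * G₂ + ξ₂ * H₂) / w ^ 3) -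
      ((-f₁ - (H₁ * G₂ + ξ₂ * q) / A - ξ₂ * G₂ * (2 * ξ₁ * G₁) / A ^ 2) / w +
        (-e₁ - ξ₂ * G₂ / A) * (ξ₁ * G₁ + ξ₂ * H₁) / w ^ 3) =
      ((f₁ + f₂ - (G₁ * H₂ - G₂ * H₁) / A) * w ^ 2 +
        (e₂ - ξ₂ * G₁ / A) * (ξ₁ * G₂ + ξ₂ * H₂) + (e₁ + ξ₂ * G₂ / A) * (ξ₁ * G₁ + ξ₂ * H₁)) / w ^ 3 := by
    field_simp
    ring
  rw [e, hw2]
  congr 1
  field_simp
  ring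

theorem algebra_R1 {s w u ξ₁ ξ₂ G₁ G₂ H₁ η₁ η₂ : ℝ} (hs : s ≠ 0) (hw : w ≠ 0) (hu : u ≠ 0)
    (hs2 : s ^ 2 = 1 - ξ₁ ^ 2) (hT : G₂ - H₁ = ξ₁ * η₂ - ξ₂ * η₁) :
    -(ξ₁ * G₂) / (s * u) - s * (u * η₂) / u ^ 2 =
      (-(G₁ * ξ₂ + ξ₁ * H₁) / (u * s) + ξ₁ * ξ₂ * (u * η₁) / (u ^ 2 * s) -
        ξ₁ ^ 2 * ξ₂ * G₁ / (u * s ^ 3)) -
      (w / (u * s)) * ((η₂ - ξ₂ * G₁ / (1 - ξ₁ ^ 2)) / w) := by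
  rw [← hs2]
  field_simp
  grind

theorem algebra_R2 {s w u ξ₁ ξ₂ G₁ G₂ H₁ η₁ η₂ : ℝ} (hs : s ≠ 0) (hw : w ≠ 0) (hu : u ≠ 0)
    (hs2 : s ^ 2 = 1 - ξ₁ ^ 2) (hw2 : w ^ 2 = 1 - ξ₁ ^ 2 - ξ₂ ^ 2)
    (hT : G₂ - H₁ = ξ₁ * η₂ - ξ₂ * η₁) :
    (s / u) * ((-η₁ - ξ₂ * G₂ / (1 - ξ₁ ^ 2)) / w) =
      (-(ξ₁ * G₁ + ξ₂ * H₁) / (w * (u * s)) - w * (u * η₁) / (u ^ 2 * s) +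
        w * (ξ₁ * G₁) / (u * s ^ 3)) +
      (-(ξ₁ * ξ₂) / (u * s)) * ((η₂ - ξ₂ * G₁ / (1 - ξ₁ ^ 2)) / w) := by
  rw [← hs2]
  field_simp
  grind

end Algebra

end Vale.Agent.Lib.P205
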