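import Mathlib

/-!
One-dimensional Fourier series of periodic functions, in elementary form.
-/

open Real MeasureTheory intervalIntegral
open scoped ContDiff ComplexConjugate

namespace Vale.Agent.Lib.P205

/-- The character `t ↦ exp (2 π i m t)`. -/
noncomputable def ch (m : ℤ) (t : ℝ) : ℂ := Complex.exp (2 * π * Complex.I * m * t)

theorem ch_add_one (m : ℤ) (t : ℝ) : ch m (t + 1) = ch m t := by
  unfold ch
  have : (2 * π * Complex.I * m * ((t + 1 : ℝ) : ℂ)) =
      2 * π * Complex.I * m * t + m * (2 * π * Complex.I) := by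
    push_cast; ring
  rw [this, Complex.exp_add, Complex.exp_int_mul_two_pi_mul_I, mul_one]

theorem ch_zero_right (m : ℤ) : ch m 0 = 1 := by simp [ch]

theorem ch_one_right (m : ℤ) : ch m 1 = 1 := by
  have := ch_add_one m 0
  rw [zero_add] at this
  rw [this, ch_zero_right]

theorem norm_ch (m : ℤ) (t : ℝ) : ‖ch m t‖ = 1 := by
  unfold ch
  have : (2 * π * Complex.I * m * (t : ℂ)) = ((2 * π * m * t : ℝ) : ℂ) * Complex.I := by
    push_cast; ring
  rw [this, Complex.norm_exp_ofReal_mul_I]

theorem ch_continuous (m : ℤ) : Continuous (ch m) := by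
  unfold ch
  fun_prop

theorem ch_hasDerivAt (m : ℤ) (t : ℝ) :
    HasDerivAt (ch m) (2 * π * Complex.I * m * ch m t) t := by
  unfold ch
  have h : HasDerivAt (fun t : ℝ => (2 * π * Complex.I * m * (t : ℂ))) (2 * π * Complex.I * m) t := by
    have := (Complex.ofRealCLM.hasDerivAt (x := t)).const_mul (2 * π * Complex.I * (m : ℂ))
    simpa using this
  exact (h.cexp).congr_deriv (by ring)

theorem ch_add (m n : ℤ) (t : ℝ) : ch (m + n) t = ch m t * ch n t := by
  unfold ch
  rw [← Complex.exp_add]
  congr 1
  push_cast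
  ring

theorem ch_neg (m : ℤ) (t : ℝ) : ch (-m) t = conj (ch m t) := by
  unfold ch
  rw [← Complex.exp_conj]
  congr 1
  simp only [map_mul, Complex.conj_ofReal, Complex.conj_I, map_intCast, map_ofNat]
  push_cast
  ring

/-- The `m`-th Fourier coefficient of a 1-periodic function. -/
noncomputable def coef1 (g : ℝ → ℂ) (m : ℤ) : ℂ := ∫ t in (0:ℝ)..1, g t * ch (-m) t

theorem norm_coef1_le {g : ℝ → ℂ} {S : ℝ} (hS : ∀ t, ‖g t‖ ≤ S) (m : ℤ) :
    ‖coef1 g m‖ ≤ S := by
  unfold coef1
  have := intervalIntegral.norm_integral_le_of_norm_le_const (a := 0) (b := 1)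
    (f := fun t => g t * ch (-m) t) (C := S) (fun t _ => by
      rw [norm_mul, norm_ch, mul_one]
      exact hS t)
  simpa using this

/-- Integration by parts for a periodic function against a character. -/
theorem coef1_deriv {g g' : ℝ → ℂ} (hd : ∀ t, HasDerivAt g (g' t) t) (hc : Continuous g')
    (hp : ∀ t, g (t + 1) = g t) (m : ℤ) :
    coef1 g' m = 2 * π * Complex.I * m * coef1 g m := by
  have hgc : Continuous g := continuous_iff_continuousAt.mpr fun t => (hd t).continuousAt
  have hF : ∀ t ∈ Set.uIcc (0:ℝ) 1, HasDerivAt (fun t => g t * ch (-m) t)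
      (g' t * ch (-m) t + g t * (2 * π * Complex.I * ((-m : ℤ) : ℂ) * ch (-m) t)) t :=
    fun t _ => (hd t).mul (ch_hasDerivAt (-m) t)
  have hcont : Continuous fun t => g' t * ch (-m) t +
      g t * (2 * π * Complex.I * ((-m : ℤ) : ℂ) * ch (-m) t) :=
    (hc.mul (ch_continuous _)).add (hgc.mul (continuous_const.mul (ch_continuous _)))
  have hi := intervalIntegral.integral_eq_sub_of_hasDerivAt hF (hcont.intervalIntegrable _ _)
  have h1 : g 1 = g 0 := by simpa using hp 0
  rw [ch_one_right, ch_zero_right, h1, sub_self] at hi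
  have h4 := intervalIntegral.integral_add (a := 0) (b := 1) (μ := volume)
    (f := fun t => g' t * ch (-m) t)
    (g := fun t => g t * (2 * π * Complex.I * ((-m : ℤ) : ℂ) * ch (-m) t))
    ((hc.mul (ch_continuous _)).intervalIntegrable _ _)
    ((hgc.mul (continuous_const.mul (ch_continuous _))).intervalIntegrable _ _)
  rw [h4] at hi
  have h3 : (∫ t in (0:ℝ)..1, g t * (2 * π * Complex.I * ((-m : ℤ) : ℂ) * ch (-m) t)) =
      -(2 * π * Complex.I * m) * ∫ t in (0:ℝ)..1, g t * ch (-m) t := by
    rw [← intervalIntegral.integral_const_mul]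
    congr 1
    ext t
    push_cast
    ring
  rw [h3] at hi
  unfold coef1
  linear_combination hi

/-- A continuous 1-periodic function with summable Fourier coefficients is the sum of its series. -/
theorem hasSum_coef1 {g : ℝ → ℂ} (hg : Continuous g) (hp : ∀ t, g (t + 1) = g t)
    (hs : Summable (coef1 g)) (t : ℝ) : HasSum (fun m => coef1 g m * ch m t) (g t) := by
  have hper : Function.Periodic g 1 := hp
  let f : C(AddCircle (1:ℝ), ℂ) := ⟨hper.lift, by
    apply continuous_coinduced_dom.mpr
    exact hg⟩
  have hf : ∀ x : ℝ, f (x : AddCircle (1:ℝ)) = g x := fun x => hper.lift_coe x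
  have hco : ∀ m, fourierCoeff f m = coef1 g m := by
    intro m
    rw [fourierCoeff_eq_intervalIntegral f m 0]
    simp only [zero_add, one_div, inv_one, one_smul]
    unfold coef1
    congr 1
    ext x
    rw [hf, fourier_coe_apply, smul_eq_mul, mul_comm]
    unfold ch
    congr 2
    push_cast
    ring
  have hs' : Summable (fourierCoeff f) := by
    have : fourierCoeff f = coef1 g := funext hco
    rwa [this]
  have := has_pointwise_sum_fourier_series_of_summable hs' (t : AddCircle (1:ℝ))
  rw [hf] at this
  have e : (fun m => coef1 g m * ch m t) =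
      fun i => fourierCoeff f i • fourier i (t : AddCircle (1:ℝ)) := by
    ext m
    rw [hco, fourier_coe_apply, smul_eq_mul]
    congr 1
    unfold ch
    congr 1
    push_cast
    ring
  rw [e]
  exact this

end Vale.Agent.Lib.P205
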