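import Vale.Agent.Lib.P205.FourierOne

/-!
Two-dimensional Fourier series of smooth doubly periodic functions: rapid decay of the
coefficients, and convergence to the function.
-/

open Real MeasureTheory intervalIntegral
open scoped ContDiff ComplexConjugate Topology

namespace Vale.Agent.Lib.P205

/-- Smooth functions on the plane with period one in both variables. -/
def SP (G : ℝ × ℝ → ℂ) : Prop :=
  ContDiff ℝ ∞ G ∧ (∀ x y, G (x + 1, y) = G (x, y)) ∧ (∀ x y, G (x, y + 1) = G (x, y))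

/-- Partial derivative in the first variable. -/
noncomputable def d1 (G : ℝ × ℝ → ℂ) (p : ℝ × ℝ) : ℂ := fderiv ℝ G p (1, 0)

/-- Partial derivative in the second variable. -/
noncomputable def d2 (G : ℝ × ℝ → ℂ) (p : ℝ × ℝ) : ℂ := fderiv ℝ G p (0, 1)

theorem d1_hasDerivAt {G : ℝ × ℝ → ℂ} (hG : ContDiff ℝ ∞ G) (x y : ℝ) :
    HasDerivAt (fun x => G (x, y)) (d1 G (x, y)) x := by
  have h0 : HasFDerivAt G (fderiv ℝ G (x, y)) (x, y) :=
    (hG.differentiable (by simp) (x, y)).hasFDerivAt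
  have h1 : HasDerivAt (fun x : ℝ => (x, y)) ((1 : ℝ), (0 : ℝ)) x :=
    (hasDerivAt_id x).prodMk (hasDerivAt_const x y)
  exact h0.comp_hasDerivAt x h1

theorem d2_hasDerivAt {G : ℝ × ℝ → ℂ} (hG : ContDiff ℝ ∞ G) (x y : ℝ) :
    HasDerivAt (fun y => G (x, y)) (d2 G (x, y)) y := by
  have h0 : HasFDerivAt G (fderiv ℝ G (x, y)) (x, y) :=
    (hG.differentiable (by simp) (x, y)).hasFDerivAt
  have h1 : HasDerivAt (fun y : ℝ => (x, y)) ((0 : ℝ), (1 : ℝ)) y :=
    (hasDerivAt_const y x).prodMk (hasDerivAt_id y)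
  exact h0.comp_hasDerivAt y h1

theorem SP.d1 {G : ℝ × ℝ → ℂ} (h : SP G) : SP (d1 G) := by
  obtain ⟨hc, h1, h2⟩ := h
  have hf : ContDiff ℝ ∞ (fderiv ℝ G) := hc.fderiv_right (m := ∞) (by simp)
  refine ⟨hf.clm_apply contDiff_const, ?_, ?_⟩
  · intro x y
    have e : (fun p : ℝ × ℝ => G (p + ((1:ℝ), (0:ℝ)))) = G := by
      ext ⟨a, b⟩
      simp only [Prod.mk_add_mk, add_zero]
      exact h1 a b
    have := fderiv_comp_add_right (𝕜 := ℝ) (f := G) (x := (x, y)) ((1:ℝ), (0:ℝ))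
    rw [e] at this
    unfold Vale.Agent.Lib.P205.d1
    simp only [Prod.mk_add_mk, add_zero] at this
    rw [← this]
  · intro x y
    have e : (fun p : ℝ × ℝ => G (p + ((0:ℝ), (1:ℝ)))) = G := by
      ext ⟨a, b⟩
      simp only [Prod.mk_add_mk, add_zero]
      exact h2 a b
    have := fderiv_comp_add_right (𝕜 := ℝ) (f := G) (x := (x, y)) ((0:ℝ), (1:ℝ))
    rw [e] at this
    unfold Vale.Agent.Lib.P205.d1
    simp only [Prod.mk_add_mk, add_zero] at this
    rw [← this]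

theorem SP.d2 {G : ℝ × ℝ → ℂ} (h : SP G) : SP (d2 G) := by
  obtain ⟨hc, h1, h2⟩ := h
  have hf : ContDiff ℝ ∞ (fderiv ℝ G) := hc.fderiv_right (m := ∞) (by simp)
  refine ⟨hf.clm_apply contDiff_const, ?_, ?_⟩
  · intro x y
    have e : (fun p : ℝ × ℝ => G (p + ((1:ℝ), (0:ℝ)))) = G := by
      ext ⟨a, b⟩
      simp only [Prod.mk_add_mk, add_zero]
      exact h1 a b
    have := fderiv_comp_add_right (𝕜 := ℝ) (f := G) (x := (x, y)) ((1:ℝ), (0:ℝ))
    rw [e] at this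
    unfold Vale.Agent.Lib.P205.d2
    simp only [Prod.mk_add_mk, add_zero] at this
    rw [← this]
  · intro x y
    have e : (fun p : ℝ × ℝ => G (p + ((0:ℝ), (1:ℝ)))) = G := by
      ext ⟨a, b⟩
      simp only [Prod.mk_add_mk, add_zero]
      exact h2 a b
    have := fderiv_comp_add_right (𝕜 := ℝ) (f := G) (x := (x, y)) ((0:ℝ), (1:ℝ))
    rw [e] at this
    unfold Vale.Agent.Lib.P205.d2
    simp only [Prod.mk_add_mk, add_zero] at this
    rw [← this]

/-- Functions with period one in both variables are bounded. -/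
theorem SP.bounded {G : ℝ × ℝ → ℂ} (h : SP G) : ∃ S, 0 ≤ S ∧ ∀ p, ‖G p‖ ≤ S := by
  obtain ⟨hc, h1, h2⟩ := h
  have hcomp : IsCompact (Set.Icc (0:ℝ) 1 ×ˢ Set.Icc (0:ℝ) 1) := isCompact_Icc.prod isCompact_Icc
  obtain ⟨S, hS⟩ := hcomp.exists_bound_of_continuousOn hc.continuous.continuousOn
  refine ⟨max S 0, le_max_right _ _, ?_⟩
  rintro ⟨x, y⟩
  have hp1 : Function.Periodic (fun x => G (x, y)) 1 := fun x => h1 x y
  have e1 : G (x, y) = G (Int.fract x, y) := by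
    have := hp1.sub_int_mul_eq (x := x) ⌊x⌋
    simp only [mul_one] at this
    exact this.symm
  have hp2 : Function.Periodic (fun y => G (Int.fract x, y)) 1 := fun y => h2 _ y
  have e2 : G (Int.fract x, y) = G (Int.fract x, Int.fract y) := by
    have := hp2.sub_int_mul_eq (x := y) ⌊y⌋
    simp only [mul_one] at this
    exact this.symm
  rw [e1, e2]
  refine (hS _ ?_).trans (le_max_left _ _)
  exact ⟨⟨Int.fract_nonneg x, (Int.fract_lt_one x).le⟩, ⟨Int.fract_nonneg y, (Int.fract_lt_one y).le⟩⟩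

/-- Two-dimensional Fourier coefficient. -/
noncomputable def Coef (G : ℝ × ℝ → ℂ) (n : ℤ × ℤ) : ℂ :=
  coef1 (fun x => coef1 (fun y => G (x, y)) n.2) n.1

theorem norm_Coef_le {G : ℝ × ℝ → ℂ} {S : ℝ} (hS : ∀ p, ‖G p‖ ≤ S) (n : ℤ × ℤ) :
    ‖Coef G n‖ ≤ S :=
  norm_coef1_le (fun x => norm_coef1_le (fun y => hS (x, y)) n.2) n.1

theorem coef1_const_mul (c : ℂ) (g : ℝ → ℂ) (m : ℤ) :
    coef1 (fun t => c * g t) m = c * coef1 g m := by
  unfold coef1
  rw [← intervalIntegral.integral_const_mul]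
  congr 1
  ext t
  ring

theorem Coef_d2 {G : ℝ × ℝ → ℂ} (h : SP G) (n : ℤ × ℤ) :
    Coef (d2 G) n = 2 * π * Complex.I * n.2 * Coef G n := by
  obtain ⟨hc, h1, h2⟩ := id h
  obtain ⟨hc', -, -⟩ := h.d2
  unfold Coef
  have e : (fun x => coef1 (fun y => d2 G (x, y)) n.2) =
      fun x => (2 * π * Complex.I * n.2) * coef1 (fun y => G (x, y)) n.2 := by
    ext x
    exact coef1_deriv (fun y => d2_hasDerivAt hc x y)
      (hc'.continuous.comp (by fun_prop)) (fun y => h2 x y) n.2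
  rw [e, coef1_const_mul]

/-- Differentiation of a Fourier coefficient with respect to a parameter. -/
theorem coef1_param_hasDerivAt {G : ℝ × ℝ → ℂ} (h : SP G) (m : ℤ) (x : ℝ) :
    HasDerivAt (fun x => coef1 (fun y => G (x, y)) m) (coef1 (fun y => d1 G (x, y)) m) x := by
  obtain ⟨hc, h1, h2⟩ := id h
  obtain ⟨hc', -, -⟩ := h.d1
  obtain ⟨S, hS0, hS⟩ := h.d1.bounded
  unfold coef1
  have hm : ∀ x, Continuous fun y => G (x, y) * ch (-m) y := fun x =>
    (hc.continuous.comp (by fun_prop)).mul (ch_continuous _)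
  have hm' : Continuous fun y => d1 G (x, y) * ch (-m) y :=
    (hc'.continuous.comp (by fun_prop)).mul (ch_continuous _)
  have := intervalIntegral.hasDerivAt_integral_of_dominated_loc_of_deriv_le (μ := volume)
    (a := 0) (b := 1) (x₀ := x) (s := Set.univ) (bound := fun _ => S)
    (F := fun x y => G (x, y) * ch (-m) y) (F' := fun x y => d1 G (x, y) * ch (-m) y)
    Filter.univ_mem (Filter.Eventually.of_forall fun x => (hm x).aestronglyMeasurable)
    ((hm x).intervalIntegrable _ _) (hm'.aestronglyMeasurable)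
    (Filter.Eventually.of_forall fun y _ x' _ => by
      rw [norm_mul, norm_ch, mul_one]
      exact hS _)
    (continuous_const.intervalIntegrable _ _)
    (Filter.Eventually.of_forall fun y _ x' _ => (d1_hasDerivAt hc x' y).mul_const _)
  exact this.2

theorem coef1_param_periodic {G : ℝ × ℝ → ℂ} (h : SP G) (m : ℤ) (x : ℝ) :
    coef1 (fun y => G (x + 1, y)) m = coef1 (fun y => G (x, y)) m := by
  obtain ⟨hc, h1, h2⟩ := h
  simp only [h1]

theorem coef1_param_continuous {G : ℝ × ℝ → ℂ} (h : SP G) (m : ℤ) :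
    Continuous (fun x => coef1 (fun y => G (x, y)) m) :=
  continuous_iff_continuousAt.mpr fun x => (coef1_param_hasDerivAt h m x).continuousAt

theorem Coef_d1 {G : ℝ × ℝ → ℂ} (h : SP G) (n : ℤ × ℤ) :
    Coef (d1 G) n = 2 * π * Complex.I * n.1 * Coef G n :=
  coef1_deriv (fun x => coef1_param_hasDerivAt h n.2 x)
    (coef1_param_continuous h.d1 n.2) (coef1_param_periodic h n.2) n.1

theorem norm_two_pi_I_mul (m : ℤ) : ‖(2 * π * Complex.I * m : ℂ)‖ = 2 * π * |(m : ℝ)| := by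
  have : (2 * π * Complex.I * m : ℂ) = ((2 * π * m : ℝ) : ℂ) * Complex.I := by
    push_cast; ring
  rw [this, norm_mul, Complex.norm_I, mul_one, Complex.norm_real, Real.norm_eq_abs, abs_mul,
    abs_mul]
  simp [abs_of_pos pi_pos]

theorem decay1 (K : ℕ) : ∀ G : ℝ × ℝ → ℂ, SP G → ∃ C, 0 ≤ C ∧ ∀ n : ℤ × ℤ,
    |(n.1 : ℝ)| ^ K * ‖Coef G n‖ ≤ C := by
  induction K with
  | zero =>
    intro G h
    obtain ⟨S, hS0, hS⟩ := h.bounded
    exact ⟨S, hS0, fun n => by simpa using norm_Coef_le hS n⟩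
  | succ K ih =>
    intro G h
    obtain ⟨C, hC0, hC⟩ := ih (d1 G) h.d1
    refine ⟨C, hC0, fun n => ?_⟩
    have h1 := hC n
    rw [Coef_d1 h, norm_mul, norm_two_pi_I_mul] at h1
    have h2 : (1:ℝ) ≤ 2 * π := by nlinarith [pi_gt_three]
    have h3 : 0 ≤ |(n.1:ℝ)| ^ (K + 1) * ‖Coef G n‖ := by positivity
    calc |(n.1:ℝ)| ^ (K + 1) * ‖Coef G n‖
        ≤ 2 * π * (|(n.1:ℝ)| ^ (K + 1) * ‖Coef G n‖) := le_mul_of_one_le_left h3 h2
      _ = |(n.1:ℝ)| ^ K * (2 * π * |(n.1:ℝ)| * ‖Coef G n‖) := by ring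
      _ ≤ C := h1

theorem decay2 (K : ℕ) : ∀ G : ℝ × ℝ → ℂ, SP G → ∃ C, 0 ≤ C ∧ ∀ n : ℤ × ℤ,
    |(n.2 : ℝ)| ^ K * ‖Coef G n‖ ≤ C := by
  induction K with
  | zero =>
    intro G h
    obtain ⟨S, hS0, hS⟩ := h.bounded
    exact ⟨S, hS0, fun n => by simpa using norm_Coef_le hS n⟩
  | succ K ih =>
    intro G h
    obtain ⟨C, hC0, hC⟩ := ih (d2 G) h.d2
    refine ⟨C, hC0, fun n => ?_⟩
    have h1 := hC n
    rw [Coef_d2 h, norm_mul, norm_two_pi_I_mul] at h1
    have h2 : (1:ℝ) ≤ 2 * π := by nlinarith [pi_gt_three]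
    have h3 : 0 ≤ |(n.2:ℝ)| ^ (K + 1) * ‖Coef G n‖ := by positivity
    calc |(n.2:ℝ)| ^ (K + 1) * ‖Coef G n‖
        ≤ 2 * π * (|(n.2:ℝ)| ^ (K + 1) * ‖Coef G n‖) := le_mul_of_one_le_left h3 h2
      _ = |(n.2:ℝ)| ^ K * (2 * π * |(n.2:ℝ)| * ‖Coef G n‖) := by ring
      _ ≤ C := h1

/-- The size of an index. -/
noncomputable def nrm (n : ℤ × ℤ) : ℝ := |(n.1 : ℝ)| + |(n.2 : ℝ)|

theorem nrm_nonneg (n : ℤ × ℤ) : 0 ≤ nrm n := add_nonneg (abs_nonneg _) (abs_nonneg _)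

theorem nrm_add_le (n m : ℤ × ℤ) : nrm (n + m) ≤ nrm n + nrm m := by
  unfold nrm
  simp only [Prod.fst_add, Prod.snd_add, Int.cast_add]
  have h1 := abs_add_le (n.1 : ℝ) (m.1 : ℝ)
  have h2 := abs_add_le (n.2 : ℝ) (m.2 : ℝ)
  linarith

theorem nrm_neg (n : ℤ × ℤ) : nrm (-n) = nrm n := by
  unfold nrm
  simp

theorem nrm_zero : nrm (0 : ℤ × ℤ) = 0 := by
  unfold nrm
  simp

/-- A polynomial weight is dominated by three pure powers. -/
theorem pow_weight_le (a b : ℝ) (ha : 0 ≤ a) (hb : 0 ≤ b) (K : ℕ) :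
    (1 + a + b) ^ K ≤ 3 ^ K * (1 + a ^ K + b ^ K) := by
  have hA : 0 ≤ a ^ K := by positivity
  have hB : 0 ≤ b ^ K := by positivity
  rcases le_total 1 (max a b) with h | h
  · rcases le_total a b with hab | hab
    · rw [max_eq_right hab] at h
      have h1 : 1 + a + b ≤ 3 * b := by linarith
      calc (1 + a + b) ^ K ≤ (3 * b) ^ K := pow_le_pow_left₀ (by linarith) h1 K
        _ = 3 ^ K * b ^ K := mul_pow _ _ _
        _ ≤ _ := by
          apply mul_le_mul_of_nonneg_left _ (by positivity)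
          linarith
    · rw [max_eq_left hab] at h
      have h1 : 1 + a + b ≤ 3 * a := by linarith
      calc (1 + a + b) ^ K ≤ (3 * a) ^ K := pow_le_pow_left₀ (by linarith) h1 K
        _ = 3 ^ K * a ^ K := mul_pow _ _ _
        _ ≤ _ := by
          apply mul_le_mul_of_nonneg_left _ (by positivity)
          linarith
  · have ha1 : a ≤ 1 := (le_max_left a b).trans h
    have hb1 : b ≤ 1 := (le_max_right a b).trans h
    have h1 : 1 + a + b ≤ 3 := by linarith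
    calc (1 + a + b) ^ K ≤ 3 ^ K := pow_le_pow_left₀ (by linarith) h1 K
      _ ≤ _ := by
        apply le_mul_of_one_le_right (by positivity)
        linarith

theorem decay_weight {G : ℝ × ℝ → ℂ} (h : SP G) (K : ℕ) :
    ∃ C, 0 ≤ C ∧ ∀ n : ℤ × ℤ, (1 + nrm n) ^ K * ‖Coef G n‖ ≤ C := by
  obtain ⟨C₀, hC₀, h₀⟩ := h.bounded
  obtain ⟨C₁, hC₁, h₁⟩ := decay1 K G h
  obtain ⟨C₂, hC₂, h₂⟩ := decay2 K G h
  refine ⟨3 ^ K * (C₀ + C₁ + C₂), by positivity, fun n => ?_⟩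
  have hw := pow_weight_le |(n.1:ℝ)| |(n.2:ℝ)| (abs_nonneg _) (abs_nonneg _) K
  have h0 := norm_Coef_le h₀ n
  have hn : 0 ≤ ‖Coef G n‖ := norm_nonneg _
  unfold nrm
  rw [← add_assoc]
  calc (1 + |(n.1:ℝ)| + |(n.2:ℝ)|) ^ K * ‖Coef G n‖
      ≤ 3 ^ K * (1 + |(n.1:ℝ)| ^ K + |(n.2:ℝ)| ^ K) * ‖Coef G n‖ :=
        mul_le_mul_of_nonneg_right hw hn
    _ = 3 ^ K * (‖Coef G n‖ + |(n.1:ℝ)| ^ K * ‖Coef G n‖ + |(n.2:ℝ)| ^ K * ‖Coef G n‖) := by ring
    _ ≤ 3 ^ K * (C₀ + C₁ + C₂) := by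
      apply mul_le_mul_of_nonneg_left _ (by positivity)
      linarith [h₁ n, h₂ n]

theorem summable_one_div_one_add_sq : Summable fun m : ℤ => 1 / (1 + (m:ℝ) ^ 2) := by
  have h1 : Summable fun m : ℤ => 1 / (m:ℝ) ^ 2 := Real.summable_one_div_int_pow.mpr one_lt_two
  have h2 : Summable fun m : ℤ => if m = 0 then (1:ℝ) else 0 := (hasSum_ite_eq (0:ℤ) (1:ℝ)).summable
  refine Summable.of_nonneg_of_le (fun m => by positivity) (fun m => ?_) (h1.add h2)
  by_cases hm : m = 0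
  · subst hm; simp
  · have hm' : (m:ℝ) ≠ 0 := by exact_mod_cast hm
    simp only [hm, if_false, add_zero]
    apply one_div_le_one_div_of_le (by positivity)
    linarith

theorem one_add_sq_le_nrm_sq (n : ℤ × ℤ) :
    (1 + (n.1:ℝ) ^ 2) * (1 + (n.2:ℝ) ^ 2) ≤ (1 + nrm n) ^ 4 := by
  unfold nrm
  have ha := abs_nonneg (n.1:ℝ)
  have hb := abs_nonneg (n.2:ℝ)
  have h1 : (n.1:ℝ) ^ 2 = |(n.1:ℝ)| ^ 2 := (sq_abs _).symm
  have h2 : (n.2:ℝ) ^ 2 = |(n.2:ℝ)| ^ 2 := (sq_abs _).symm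
  rw [h1, h2]
  set a := |(n.1:ℝ)|
  set b := |(n.2:ℝ)|
  have h3 : 1 + a ^ 2 ≤ (1 + (a + b)) ^ 2 := by nlinarith
  have h4 : 1 + b ^ 2 ≤ (1 + (a + b)) ^ 2 := by nlinarith
  calc (1 + a ^ 2) * (1 + b ^ 2) ≤ (1 + (a + b)) ^ 2 * (1 + (a + b)) ^ 2 :=
        mul_le_mul h3 h4 (by positivity) (by positivity)
    _ = _ := by ring

theorem summable_inv_nrm : Summable fun n : ℤ × ℤ =>
    (1 / (1 + (n.1:ℝ) ^ 2)) * (1 / (1 + (n.2:ℝ) ^ 2)) :=
  summable_one_div_one_add_sq.mul_of_nonneg summable_one_div_one_add_sq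
    (fun m => by positivity) (fun m => by positivity)

/-- A sequence all of whose polynomially weighted versions are bounded is rapidly summable. -/
theorem rapid_of_bounded {c : ℤ × ℤ → ℝ} (hc0 : ∀ n, 0 ≤ c n)
    (hc : ∀ K : ℕ, ∃ C, 0 ≤ C ∧ ∀ n : ℤ × ℤ, (1 + nrm n) ^ K * c n ≤ C) (k : ℕ) :
    Summable fun n => c n * (1 + nrm n) ^ k := by
  obtain ⟨C, hC0, hC⟩ := hc (k + 4)
  refine Summable.of_nonneg_of_le (fun n => mul_nonneg (hc0 n) (by
      have := nrm_nonneg n; positivity)) (fun n => ?_) (summable_inv_nrm.mul_left C)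
  have hn := nrm_nonneg n
  have h1 : 0 < (1 + (n.1:ℝ) ^ 2) * (1 + (n.2:ℝ) ^ 2) := by positivity
  have h2 := one_add_sq_le_nrm_sq n
  have h3 := hC n
  have e : C * (1 / (1 + (n.1:ℝ) ^ 2) * (1 / (1 + (n.2:ℝ) ^ 2))) =
      C / ((1 + (n.1:ℝ) ^ 2) * (1 + (n.2:ℝ) ^ 2)) := by
    field_simp
  rw [e, le_div_iff₀ h1]
  have h4 : 0 ≤ c n * (1 + nrm n) ^ k := mul_nonneg (hc0 n) (by positivity)
  calc c n * (1 + nrm n) ^ k * ((1 + (n.1:ℝ) ^ 2) * (1 + (n.2:ℝ) ^ 2))
      ≤ c n * (1 + nrm n) ^ k * (1 + nrm n) ^ 4 := mul_le_mul_of_nonneg_left h2 h4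
    _ = (1 + nrm n) ^ (k + 4) * c n := by ring
    _ ≤ C := h3

/-- Summability of the coefficients of a twice differentiable periodic function. -/
theorem summable_coef1_of_deriv2 {g g' g'' : ℝ → ℂ} (hd : ∀ t, HasDerivAt g (g' t) t)
    (hd' : ∀ t, HasDerivAt g' (g'' t) t) (hc'' : Continuous g'') (hp : ∀ t, g (t + 1) = g t)
    (hp' : ∀ t, g' (t + 1) = g' t) {S₀ S₂ : ℝ} (h0 : ∀ t, ‖g t‖ ≤ S₀) (h2 : ∀ t, ‖g'' t‖ ≤ S₂) :
    Summable (coef1 g) := by
  have hc' : Continuous g' := continuous_iff_continuousAt.mpr fun t => (hd' t).continuousAt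
  have hS₀ : 0 ≤ S₀ := (norm_nonneg _).trans (h0 0)
  have hS₂ : 0 ≤ S₂ := (norm_nonneg _).trans (h2 0)
  apply Summable.of_norm
  refine Summable.of_nonneg_of_le (fun m => norm_nonneg _) (fun m => ?_)
    (summable_one_div_one_add_sq.mul_left (S₀ + S₂))
  have e1 : coef1 g'' m = (2 * π * Complex.I * m) * ((2 * π * Complex.I * m) * coef1 g m) := by
    rw [coef1_deriv hd' hc'' hp', coef1_deriv hd hc' hp]
  have h3 := norm_coef1_le h2 m
  rw [e1, norm_mul, norm_two_pi_I_mul, norm_mul, norm_two_pi_I_mul] at h3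
  have h4 := norm_coef1_le h0 m
  have h5 : 0 ≤ ‖coef1 g m‖ := norm_nonneg _
  have hm2 : |(m:ℝ)| ^ 2 = (m:ℝ) ^ 2 := sq_abs _
  have hpi : (1:ℝ) ≤ (2 * π) ^ 2 := by nlinarith [pi_gt_three]
  have h6 : (m:ℝ) ^ 2 * ‖coef1 g m‖ ≤ S₂ := by
    have e2 : (2 * π * |(m:ℝ)|) * ((2 * π * |(m:ℝ)|) * ‖coef1 g m‖) =
        (2 * π) ^ 2 * ((m:ℝ) ^ 2 * ‖coef1 g m‖) := by
      rw [← hm2]; ring
    rw [e2] at h3
    have h7 : 0 ≤ (m:ℝ) ^ 2 * ‖coef1 g m‖ := by positivity
    nlinarith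
  rw [mul_one_div, le_div_iff₀ (by positivity)]
  linarith

/-- **Fourier series of smooth doubly periodic functions.** -/
theorem SP.hasSum {G : ℝ × ℝ → ℂ} (h : SP G) (p : ℝ × ℝ) :
    HasSum (fun n : ℤ × ℤ => Coef G n * (ch n.1 p.1 * ch n.2 p.2)) (G p) := by
  obtain ⟨hc, h1, h2⟩ := id h
  obtain ⟨s, t⟩ := p
  -- summability on the product
  have hrapid : Summable fun n : ℤ × ℤ => ‖Coef G n‖ := by
    have := rapid_of_bounded (c := fun n => ‖Coef G n‖) (fun n => norm_nonneg _)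
      (fun K => decay_weight h K) 0
    simpa using this
  -- first expansion, in the second variable
  have hfirst : HasSum (fun m => coef1 (fun y => G (s, y)) m * ch m t) (G (s, t)) := by
    have hc1 : Continuous fun y => G (s, y) := hc.continuous.comp (by fun_prop)
    obtain ⟨S₀, -, h0⟩ := h.bounded
    obtain ⟨S₂, -, h22⟩ := h.d2.d2.bounded
    refine hasSum_coef1 hc1 (fun y => h2 s y) ?_ t
    exact summable_coef1_of_deriv2 (fun y => d2_hasDerivAt hc s y)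
      (fun y => d2_hasDerivAt h.d2.1 s y)
      (h.d2.d2.1.continuous.comp (by fun_prop)) (fun y => h2 s y)
      (fun y => h.d2.2.2 s y) (fun y => h0 _) (fun y => h22 _)
  -- second expansion, in the first variable
  have hsecond : ∀ m, HasSum (fun n => Coef G (n, m) * ch n s)
      (coef1 (fun y => G (s, y)) m) := by
    intro m
    have hs : Summable (fun n => Coef G (n, m)) := by
      apply Summable.of_norm
      have hinj : Function.Injective (fun n : ℤ => (n, m)) := fun a b hab => by simpa using hab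
      exact hrapid.comp_injective hinj
    exact hasSum_coef1 (coef1_param_continuous h m) (coef1_param_periodic h m) hs s
  -- combine
  have hsum' : Summable fun q : ℤ × ℤ => Coef G (q.2, q.1) * (ch q.2 s * ch q.1 t) := by
    apply Summable.of_norm
    have := (Equiv.prodComm ℤ ℤ).summable_iff.mpr hrapid
    refine this.congr fun q => ?_
    simp [norm_ch, Prod.swap]
  have hfib : ∀ m, HasSum (fun n => Coef G (n, m) * (ch n s * ch m t))
      (coef1 (fun y => G (s, y)) m * ch m t) := by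
    intro m
    have := (hsecond m).mul_right (ch m t)
    refine this.congr_fun ?_ |> id
    intro n
    ring
  have htot := hsum'.hasSum.prod_fiberwise (fun m => by
    simpa using hfib m)
  have heq := htot.unique hfirst
  have hfinal := hsum'.hasSum
  rw [heq] at hfinal
  have hfinal' : HasSum ((fun n : ℤ × ℤ => Coef G n * (ch n.1 s * ch n.2 t)) ∘
      (Equiv.prodComm ℤ ℤ)) (G (s, t)) := hfinal
  exact (Equiv.prodComm ℤ ℤ).hasSum_iff.mp hfinal'

end Vale.Agent.Lib.P205
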