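import Vale.Agent.Lib.P205.Weight

/-!
Characters of a lattice in the plane, series in those characters, and the Fourier expansion of
smooth periodic functions.
-/

open Real MeasureTheory
open scoped ContDiff ComplexConjugate Topology

namespace Vale.Agent.Lib.P205

/-- A lattice in the plane, with basis `(a, b)`, `(c, d)`. -/
structure Lat where
  a : ℝ
  b : ℝ
  c : ℝ
  d : ℝ
  det_ne : a * d - b * c ≠ 0

namespace Lat

variable (L : Lat)

/-- The determinant of the basis. -/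
noncomputable def det : ℝ := L.a * L.d - L.b * L.c

theorem det_ne' : L.det ≠ 0 := L.det_ne

/-- First basis vector. -/
noncomputable def w1 : ℝ × ℝ := (L.a, L.b)

/-- Second basis vector. -/
noncomputable def w2 : ℝ × ℝ := (L.c, L.d)

/-- First coordinate of the dual vector of index `n`. -/
noncomputable def fr1 (n : ℤ × ℤ) : ℝ := ((n.1 : ℝ) * L.d - (n.2 : ℝ) * L.b) / L.det

/-- Second coordinate of the dual vector of index `n`. -/
noncomputable def fr2 (n : ℤ × ℤ) : ℝ := (-(n.1 : ℝ) * L.c + (n.2 : ℝ) * L.a) / L.det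

/-- Coordinates with respect to the basis. -/
noncomputable def crd (p : ℝ × ℝ) : ℝ × ℝ :=
  ((p.1 * L.d - p.2 * L.c) / L.det, (-p.1 * L.b + p.2 * L.a) / L.det)

/-- The linear map from coordinates to the plane. -/
noncomputable def emb (q : ℝ × ℝ) : ℝ × ℝ := (q.1 * L.a + q.2 * L.c, q.1 * L.b + q.2 * L.d)

theorem det_eq : L.det = L.a * L.d - L.b * L.c := rfl

theorem crd_emb (q : ℝ × ℝ) : L.crd (L.emb q) = q := by
  have h := L.det_ne'
  ext
  · simp only [crd, emb]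
    field_simp
    rw [L.det_eq]
    ring
  · simp only [crd, emb]
    field_simp
    rw [L.det_eq]
    ring

theorem emb_crd (p : ℝ × ℝ) : L.emb (L.crd p) = p := by
  have h := L.det_ne'
  ext
  · simp only [crd, emb]
    field_simp
    rw [L.det_eq]
    ring
  · simp only [crd, emb]
    field_simp
    rw [L.det_eq]
    ring

theorem emb_add_one_left (x y : ℝ) : L.emb (x + 1, y) = L.emb (x, y) + L.w1 := by
  ext <;> simp only [emb, w1, Prod.fst_add, Prod.snd_add] <;> ring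

theorem emb_add_one_right (x y : ℝ) : L.emb (x, y + 1) = L.emb (x, y) + L.w2 := by
  ext <;> simp only [emb, w2, Prod.fst_add, Prod.snd_add] <;> ring

/-- The character of index `n`. -/
noncomputable def e (n : ℤ × ℤ) (p : ℝ × ℝ) : ℂ :=
  Complex.exp (2 * π * Complex.I * ((L.fr1 n * p.1 + L.fr2 n * p.2 : ℝ) : ℂ))

theorem e_eq_ch (n : ℤ × ℤ) (p : ℝ × ℝ) :
    L.e n p = ch n.1 (L.crd p).1 * ch n.2 (L.crd p).2 := by
  have h := L.det_ne'
  have hC : (L.det : ℂ) ≠ 0 := by exact_mod_cast h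
  unfold e ch
  rw [← Complex.exp_add]
  congr 1
  simp only [fr1, fr2, crd]
  push_cast
  field_simp
  ring

theorem norm_e (n : ℤ × ℤ) (p : ℝ × ℝ) : ‖L.e n p‖ = 1 := by
  rw [e_eq_ch, norm_mul, norm_ch, norm_ch, one_mul]

theorem fr1_add (m n : ℤ × ℤ) : L.fr1 (m + n) = L.fr1 m + L.fr1 n := by
  simp only [fr1, Prod.fst_add, Prod.snd_add, Int.cast_add]
  ring

theorem fr2_add (m n : ℤ × ℤ) : L.fr2 (m + n) = L.fr2 m + L.fr2 n := by
  simp only [fr2, Prod.fst_add, Prod.snd_add, Int.cast_add]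
  ring

theorem fr1_neg (n : ℤ × ℤ) : L.fr1 (-n) = -L.fr1 n := by
  simp only [fr1, Prod.fst_neg, Prod.snd_neg, Int.cast_neg]
  ring

theorem fr2_neg (n : ℤ × ℤ) : L.fr2 (-n) = -L.fr2 n := by
  simp only [fr2, Prod.fst_neg, Prod.snd_neg, Int.cast_neg]
  ring

theorem fr1_zero : L.fr1 0 = 0 := by
  simp [fr1]

theorem fr2_zero : L.fr2 0 = 0 := by
  simp [fr2]

theorem e_add (m n : ℤ × ℤ) (p : ℝ × ℝ) : L.e (m + n) p = L.e m p * L.e n p := by
  unfold e
  rw [← Complex.exp_add, fr1_add, fr2_add]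
  congr 1
  push_cast
  ring

theorem e_zero (p : ℝ × ℝ) : L.e 0 p = 1 := by
  simp [e, fr1_zero, fr2_zero]

theorem e_neg (n : ℤ × ℤ) (p : ℝ × ℝ) : L.e (-n) p = conj (L.e n p) := by
  unfold e
  rw [← Complex.exp_conj, fr1_neg, fr2_neg]
  congr 1
  simp only [map_mul, Complex.conj_ofReal, Complex.conj_I, map_ofNat]
  push_cast
  ring

theorem e_add_w1 (n : ℤ × ℤ) (p : ℝ × ℝ) : L.e n (p + L.w1) = L.e n p := by
  have h := L.det_ne'
  have e1 : L.fr1 n * (p + L.w1).1 + L.fr2 n * (p + L.w1).2 =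
      L.fr1 n * p.1 + L.fr2 n * p.2 + (n.1 : ℝ) := by
    simp only [fr1, fr2, w1, Prod.fst_add, Prod.snd_add]
    field_simp
    rw [L.det_eq]
    ring
  unfold e
  rw [e1]
  push_cast
  rw [mul_add, Complex.exp_add]
  have : (2 * π * Complex.I * (n.1 : ℂ)) = (n.1 : ℂ) * (2 * π * Complex.I) := by ring
  rw [this, Complex.exp_int_mul_two_pi_mul_I, mul_one]

theorem e_add_w2 (n : ℤ × ℤ) (p : ℝ × ℝ) : L.e n (p + L.w2) = L.e n p := by
  have h := L.det_ne'
  have e1 : L.fr1 n * (p + L.w2).1 + L.fr2 n * (p + L.w2).2 =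
      L.fr1 n * p.1 + L.fr2 n * p.2 + (n.2 : ℝ) := by
    simp only [fr1, fr2, w2, Prod.fst_add, Prod.snd_add]
    field_simp
    rw [L.det_eq]
    ring
  unfold e
  rw [e1]
  push_cast
  rw [mul_add, Complex.exp_add]
  have : (2 * π * Complex.I * (n.2 : ℂ)) = (n.2 : ℂ) * (2 * π * Complex.I) := by ring
  rw [this, Complex.exp_int_mul_two_pi_mul_I, mul_one]

/-- The sum of the squares of the basis coordinates. -/
noncomputable def S : ℝ := L.a ^ 2 + L.b ^ 2 + L.c ^ 2 + L.d ^ 2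

/-- The squared length of a dual vector. -/
noncomputable def q (n : ℤ × ℤ) : ℝ := L.fr1 n ^ 2 + L.fr2 n ^ 2

theorem q_nonneg (n : ℤ × ℤ) : 0 ≤ L.q n := by
  unfold q; positivity

theorem q_zero : L.q 0 = 0 := by
  simp [q, fr1_zero, fr2_zero]

theorem q_neg (n : ℤ × ℤ) : L.q (-n) = L.q n := by
  simp [q, fr1_neg, fr2_neg]

theorem index_eq (n : ℤ × ℤ) : (n.1 : ℝ) = L.fr1 n * L.a + L.fr2 n * L.b ∧
    (n.2 : ℝ) = L.fr1 n * L.c + L.fr2 n * L.d := by
  have h := L.det_ne'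
  constructor
  · simp only [fr1, fr2]
    field_simp
    rw [L.det_eq]
    ring
  · simp only [fr1, fr2]
    field_simp
    rw [L.det_eq]
    ring

/-- The lower bound for the nonzero dual vectors. -/
theorem one_le_q_mul (n : ℤ × ℤ) (hn : n ≠ 0) : 1 ≤ L.q n * L.S := by
  obtain ⟨h1, h2⟩ := L.index_eq n
  have hsq : 1 ≤ (n.1 : ℝ) ^ 2 + (n.2 : ℝ) ^ 2 := by
    by_cases h : n.1 = 0
    · have h' : n.2 ≠ 0 := fun h2' => hn (Prod.ext h h2')
      have : (1 : ℤ) ≤ n.2 ^ 2 := by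
        have := sq_pos_of_ne_zero h'
        omega
      have h3 : (1 : ℝ) ≤ (n.2 : ℝ) ^ 2 := by exact_mod_cast this
      have := sq_nonneg (n.1 : ℝ)
      linarith
    · have : (1 : ℤ) ≤ n.1 ^ 2 := by
        have := sq_pos_of_ne_zero h
        omega
      have h3 : (1 : ℝ) ≤ (n.1 : ℝ) ^ 2 := by exact_mod_cast this
      have := sq_nonneg (n.2 : ℝ)
      linarith
  refine hsq.trans ?_
  rw [h1, h2]
  unfold q S
  nlinarith [sq_nonneg (L.fr1 n * L.b - L.fr2 n * L.a), sq_nonneg (L.fr1 n * L.d - L.fr2 n * L.c),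
    sq_nonneg (L.fr1 n * L.a), sq_nonneg (L.fr2 n * L.b), sq_nonneg (L.fr1 n * L.c),
    sq_nonneg (L.fr2 n * L.d)]

theorem S_pos : 0 < L.S := by
  have := L.one_le_q_mul (1, 0) (by simp [Prod.ext_iff])
  have h2 := L.q_nonneg (1, 0)
  by_contra hcon
  push Not at hcon
  nlinarith

theorem q_pos (n : ℤ × ℤ) (hn : n ≠ 0) : 0 < L.q n := by
  have h1 := L.one_le_q_mul n hn
  have h2 := L.q_nonneg n
  rcases h2.lt_or_eq with h | h
  · exact h
  · rw [← h] at h1
    norm_num at h1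

theorem abs_fr1_le (n : ℤ × ℤ) :
    |L.fr1 n| ≤ ((|L.b| + |L.d|) / |L.det|) * (1 + nrm n) := by
  have hd : 0 < |L.det| := abs_pos.mpr L.det_ne'
  unfold fr1
  rw [abs_div, div_mul_eq_mul_div]
  apply div_le_div_of_nonneg_right _ hd.le
  have h1 : |(n.1 : ℝ) * L.d - (n.2 : ℝ) * L.b| ≤ |(n.1 : ℝ)| * |L.d| + |(n.2 : ℝ)| * |L.b| := by
    rw [← abs_mul, ← abs_mul]
    exact abs_sub _ _
  have ha := abs_nonneg (n.1 : ℝ)
  have hb := abs_nonneg (n.2 : ℝ)
  have hc := abs_nonneg L.b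
  have hd' := abs_nonneg L.d
  unfold nrm
  nlinarith [mul_nonneg ha hc, mul_nonneg hb hd']

theorem abs_fr2_le (n : ℤ × ℤ) :
    |L.fr2 n| ≤ ((|L.a| + |L.c|) / |L.det|) * (1 + nrm n) := by
  have hd : 0 < |L.det| := abs_pos.mpr L.det_ne'
  unfold fr2
  rw [abs_div, div_mul_eq_mul_div]
  apply div_le_div_of_nonneg_right _ hd.le
  have h1 : |-(n.1 : ℝ) * L.c + (n.2 : ℝ) * L.a| ≤ |(n.1 : ℝ)| * |L.c| + |(n.2 : ℝ)| * |L.a| := by
    rw [← abs_mul, ← abs_mul]
    have := abs_add_le (-(n.1 : ℝ) * L.c) ((n.2 : ℝ) * L.a)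
    simpa [abs_mul] using this
  have ha := abs_nonneg (n.1 : ℝ)
  have hb := abs_nonneg (n.2 : ℝ)
  have hc := abs_nonneg L.a
  have hd' := abs_nonneg L.c
  unfold nrm
  nlinarith [mul_nonneg ha hc, mul_nonneg hb hd']

/-- The series with coefficients `c`. -/
noncomputable def Fn (c : ℤ × ℤ → ℂ) (p : ℝ × ℝ) : ℂ := ∑' n, c n * L.e n p

/-- Coefficients of the partial derivative in the first variable. -/
noncomputable def dc1 (c : ℤ × ℤ → ℂ) (n : ℤ × ℤ) : ℂ := 2 * π * Complex.I * (L.fr1 n : ℂ) * c n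

/-- Coefficients of the partial derivative in the second variable. -/
noncomputable def dc2 (c : ℤ × ℤ → ℂ) (n : ℤ × ℤ) : ℂ := 2 * π * Complex.I * (L.fr2 n : ℂ) * c n

end Lat

/-- Rapid decay of a sequence. -/
def Rapid (c : ℤ × ℤ → ℂ) : Prop := ∀ k : ℕ, Summable fun n => ‖c n‖ * (1 + nrm n) ^ k

theorem Rapid.summable_norm {c : ℤ × ℤ → ℂ} (h : Rapid c) : Summable fun n => ‖c n‖ := by
  simpa using h 0

namespace Lat

variable (L : Lat)

theorem summable_term {c : ℤ × ℤ → ℂ} (h : Summable fun n => ‖c n‖) (p : ℝ × ℝ) :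
    Summable fun n => c n * L.e n p := by
  apply Summable.of_norm
  refine h.congr fun n => ?_
  rw [norm_mul, norm_e, mul_one]

theorem norm_Fn_le {c : ℤ × ℤ → ℂ} (h : Summable fun n => ‖c n‖) (p : ℝ × ℝ) :
    ‖L.Fn c p‖ ≤ ∑' n, ‖c n‖ := by
  unfold Fn
  refine (norm_tsum_le_tsum_norm ?_).trans (le_of_eq ?_)
  · refine h.congr fun n => ?_
    rw [norm_mul, norm_e, mul_one]
  · congr 1
    ext n
    rw [norm_mul, norm_e, mul_one]

theorem rapid_mul {c : ℤ × ℤ → ℂ} (h : Rapid c) {s : ℤ × ℤ → ℂ} {C : ℝ}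
    (hs : ∀ n, ‖s n‖ ≤ C * (1 + nrm n)) : Rapid fun n => s n * c n := by
  intro k
  have hC : 0 ≤ C := by
    have h1 := (norm_nonneg _).trans (hs 0)
    simpa [nrm_zero] using h1
  refine Summable.of_nonneg_of_le (fun n => ?_) (fun n => ?_) ((h (k + 1)).mul_left C)
  · have := nrm_nonneg n
    positivity
  · have hn := nrm_nonneg n
    rw [norm_mul]
    have h1 : ‖s n‖ * ‖c n‖ * (1 + nrm n) ^ k ≤
        (C * (1 + nrm n)) * ‖c n‖ * (1 + nrm n) ^ k := by
      gcongr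
      exact hs n
    refine h1.trans (le_of_eq ?_)
    ring

theorem norm_two_pi_I_mul_real (t : ℝ) : ‖(2 * π * Complex.I * (t : ℂ) : ℂ)‖ = 2 * π * |t| := by
  have : (2 * π * Complex.I * (t : ℂ) : ℂ) = ((2 * π * t : ℝ) : ℂ) * Complex.I := by
    push_cast; ring
  rw [this, norm_mul, Complex.norm_I, mul_one, Complex.norm_real, Real.norm_eq_abs, abs_mul,
    abs_mul]
  simp [abs_of_pos pi_pos]

theorem rapid_dc1 {c : ℤ × ℤ → ℂ} (h : Rapid c) : Rapid (L.dc1 c) := by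
  refine rapid_mul h (s := fun n => 2 * π * Complex.I * (L.fr1 n : ℂ))
    (C := 2 * π * ((|L.b| + |L.d|) / |L.det|)) fun n => ?_
  rw [norm_two_pi_I_mul_real, mul_assoc (2 * π)]
  exact mul_le_mul_of_nonneg_left (L.abs_fr1_le n) (by have := pi_pos; positivity)

theorem rapid_dc2 {c : ℤ × ℤ → ℂ} (h : Rapid c) : Rapid (L.dc2 c) := by
  refine rapid_mul h (s := fun n => 2 * π * Complex.I * (L.fr2 n : ℂ))
    (C := 2 * π * ((|L.a| + |L.c|) / |L.det|)) fun n => ?_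
  rw [norm_two_pi_I_mul_real, mul_assoc (2 * π)]
  exact mul_le_mul_of_nonneg_left (L.abs_fr2_le n) (by have := pi_pos; positivity)

theorem e_hasFDerivAt (n : ℤ × ℤ) (p : ℝ × ℝ) :
    HasFDerivAt (L.e n)
      ((ContinuousLinearMap.fst ℝ ℝ ℝ).smulRight (2 * π * Complex.I * (L.fr1 n : ℂ) * L.e n p) +
        (ContinuousLinearMap.snd ℝ ℝ ℝ).smulRight (2 * π * Complex.I * (L.fr2 n : ℂ) * L.e n p))
      p := by
  have h1 : HasFDerivAt (fun p : ℝ × ℝ => L.fr1 n * p.1 + L.fr2 n * p.2)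
      (L.fr1 n • ContinuousLinearMap.fst ℝ ℝ ℝ + L.fr2 n • ContinuousLinearMap.snd ℝ ℝ ℝ) p :=
    (hasFDerivAt_fst.const_mul _).add (hasFDerivAt_snd.const_mul _)
  have h2 := (Complex.ofRealCLM.hasFDerivAt (x := L.fr1 n * p.1 + L.fr2 n * p.2)).comp p h1
  have h3 := (h2.const_mul (2 * π * Complex.I : ℂ)).cexp
  refine h3.congr_fderiv ?_
  ext
  · simp [e]
    ring
  · simp [e]
    ring

theorem Fn_hasFDerivAt {c : ℤ × ℤ → ℂ} (h : Rapid c) (p : ℝ × ℝ) :
    HasFDerivAt (L.Fn c)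
      ((ContinuousLinearMap.fst ℝ ℝ ℝ).smulRight (L.Fn (L.dc1 c) p) +
        (ContinuousLinearMap.snd ℝ ℝ ℝ).smulRight (L.Fn (L.dc2 c) p)) p := by
  have h1 := (L.rapid_dc1 h).summable_norm
  have h2 := (L.rapid_dc2 h).summable_norm
  let g' : ℤ × ℤ → ℝ × ℝ → (ℝ × ℝ →L[ℝ] ℂ) := fun n p =>
    (ContinuousLinearMap.fst ℝ ℝ ℝ).smulRight (L.dc1 c n * L.e n p) +
      (ContinuousLinearMap.snd ℝ ℝ ℝ).smulRight (L.dc2 c n * L.e n p)
  have hg : ∀ n p, HasFDerivAt (fun p => c n * L.e n p) (g' n p) p := by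
    intro n p
    refine ((L.e_hasFDerivAt n p).const_mul (c n)).congr_fderiv ?_
    ext
    · simp [g', dc1, dc2]
      ring
    · simp [g', dc1, dc2]
      ring
  have hb : ∀ n p, ‖g' n p‖ ≤ ‖L.dc1 c n‖ + ‖L.dc2 c n‖ := by
    intro n p
    refine (norm_add_le _ _).trans (add_le_add ?_ ?_)
    · rw [ContinuousLinearMap.norm_smulRight_apply, norm_mul, norm_e, mul_one]
      exact mul_le_of_le_one_left (norm_nonneg _) (ContinuousLinearMap.norm_fst_le ℝ ℝ ℝ)
    · rw [ContinuousLinearMap.norm_smulRight_apply, norm_mul, norm_e, mul_one]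
      exact mul_le_of_le_one_left (norm_nonneg _) (ContinuousLinearMap.norm_snd_le ℝ ℝ ℝ)
  have := hasFDerivAt_tsum (h1.add h2) hg hb (L.summable_term h.summable_norm 0) p
  have hs1 : HasSum (fun n => (ContinuousLinearMap.fst ℝ ℝ ℝ).smulRight (L.dc1 c n * L.e n p))
      ((ContinuousLinearMap.fst ℝ ℝ ℝ).smulRight (L.Fn (L.dc1 c) p)) :=
    (ContinuousLinearMap.smulRightL ℝ (ℝ × ℝ) ℂ (ContinuousLinearMap.fst ℝ ℝ ℝ)).hasSum
      (L.summable_term h1 p).hasSum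
  have hs2 : HasSum (fun n => (ContinuousLinearMap.snd ℝ ℝ ℝ).smulRight (L.dc2 c n * L.e n p))
      ((ContinuousLinearMap.snd ℝ ℝ ℝ).smulRight (L.Fn (L.dc2 c) p)) :=
    (ContinuousLinearMap.smulRightL ℝ (ℝ × ℝ) ℂ (ContinuousLinearMap.snd ℝ ℝ ℝ)).hasSum
      (L.summable_term h2 p).hasSum
  rw [(hs1.add hs2).tsum_eq] at this
  exact this

theorem Fn_contDiff_nat (k : ℕ) : ∀ {c : ℤ × ℤ → ℂ}, Rapid c → ContDiff ℝ k (L.Fn c) := by
  induction k with
  | zero =>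
    intro c h
    rw [Nat.cast_zero, contDiff_zero]
    exact continuous_iff_continuousAt.mpr fun p => (L.Fn_hasFDerivAt h p).continuousAt
  | succ k ih =>
    intro c h
    have hd : Differentiable ℝ (L.Fn c) := fun p => (L.Fn_hasFDerivAt h p).differentiableAt
    have e1 : fderiv ℝ (L.Fn c) = fun p =>
        (ContinuousLinearMap.fst ℝ ℝ ℝ).smulRight (L.Fn (L.dc1 c) p) +
        (ContinuousLinearMap.snd ℝ ℝ ℝ).smulRight (L.Fn (L.dc2 c) p) :=
      funext fun p => (L.Fn_hasFDerivAt h p).fderiv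
    have h1 := ih (L.rapid_dc1 h)
    have h2 := ih (L.rapid_dc2 h)
    rw [Nat.cast_succ, contDiff_succ_iff_fderiv]
    refine ⟨hd, by simp, ?_⟩
    rw [e1]
    exact (contDiff_const.smulRight h1).add (contDiff_const.smulRight h2)

theorem Fn_contDiff {c : ℤ × ℤ → ℂ} (h : Rapid c) : ContDiff ℝ ∞ (L.Fn c) :=
  contDiff_infty.mpr fun k => L.Fn_contDiff_nat k h

theorem Fn_add_w1 (c : ℤ × ℤ → ℂ) (p : ℝ × ℝ) : L.Fn c (p + L.w1) = L.Fn c p := by
  unfold Fn
  simp only [e_add_w1]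

theorem Fn_add_w2 (c : ℤ × ℤ → ℂ) (p : ℝ × ℝ) : L.Fn c (p + L.w2) = L.Fn c p := by
  unfold Fn
  simp only [e_add_w2]

theorem emb_contDiff : ContDiff ℝ ∞ L.emb := by
  unfold emb
  fun_prop

end Lat

theorem conj_intervalIntegral01 (g : ℝ → ℂ) :
    (∫ t in (0:ℝ)..1, conj (g t)) = conj (∫ t in (0:ℝ)..1, g t) := by
  rw [intervalIntegral.integral_of_le zero_le_one, intervalIntegral.integral_of_le zero_le_one,
    integral_conj]

theorem coef1_conj (g : ℝ → ℂ) (m : ℤ) :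
    coef1 (fun t => conj (g t)) (-m) = conj (coef1 g m) := by
  unfold coef1
  rw [← conj_intervalIntegral01]
  congr 1
  ext t
  rw [map_mul, ← ch_neg, neg_neg]

theorem Coef_neg_of_real {G : ℝ × ℝ → ℂ} (hG : ∀ p, conj (G p) = G p) (n : ℤ × ℤ) :
    Coef G (-n) = conj (Coef G n) := by
  unfold Coef
  have e1 : (fun x => coef1 (fun y => G (x, y)) (-n).2) =
      fun x => conj (coef1 (fun y => G (x, y)) n.2) := by
    ext x
    rw [← coef1_conj]
    simp only [hG, Prod.snd_neg]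
  rw [e1, Prod.fst_neg, coef1_conj]

namespace Lat

variable (L : Lat)

/-- The Fourier expansion of a smooth real periodic function. -/
theorem fourier_data {F : ℝ × ℝ → ℝ} (hF : ContDiff ℝ ∞ F) (h1 : ∀ p, F (p + L.w1) = F p)
    (h2 : ∀ p, F (p + L.w2) = F p) :
    ∃ c : ℤ × ℤ → ℂ, Rapid c ∧ (∀ n, c (-n) = conj (c n)) ∧
      ∀ p, HasSum (fun n => c n * L.e n p) (F p : ℂ) := by
  let G : ℝ × ℝ → ℂ := fun q => (F (L.emb q) : ℂ)
  have hSP : SP G := by
    refine ⟨Complex.ofRealCLM.contDiff.comp (hF.comp L.emb_contDiff), ?_, ?_⟩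
    · intro x y
      simp only [G]
      rw [L.emb_add_one_left, h1]
    · intro x y
      simp only [G]
      rw [L.emb_add_one_right, h2]
  refine ⟨Coef G, ?_, ?_, ?_⟩
  · intro k
    exact rapid_of_bounded (c := fun n => ‖Coef G n‖) (fun n => norm_nonneg _)
      (fun K => decay_weight hSP K) k
  · intro n
    exact Coef_neg_of_real (fun p => Complex.conj_ofReal _) n
  · intro p
    have h := hSP.hasSum (L.crd p)
    simp only [G, L.emb_crd, ← L.e_eq_ch] at h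
    exact h

end Lat

end Vale.Agent.Lib.P205
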