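import Vale.Agent.Lib.P205.ArcLength

/-!
Unit speed Legendrian curves in the three-sphere with prescribed holonomy and length.
-/

open Real MeasureTheory intervalIntegral
open scoped ContDiff ComplexConjugate

namespace Vale.Agent.Lib.P205

/-- The latitude function. -/
noncomputable def latS (σ ε : ℝ) (N : ℕ) (τ : ℝ) : ℝ := σ + ε * Real.sin (2 * π * N * τ)

/-- Derivative of the latitude function. -/
noncomputable def latS' (ε : ℝ) (N : ℕ) (τ : ℝ) : ℝ := ε * (2 * π * N * Real.cos (2 * π * N * τ))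

/-- The phase. -/
noncomputable def phaseA (σ ε : ℝ) (N : ℕ) (τ : ℝ) : ℝ :=
  -(4 * π) * (σ * τ - ε * (Real.cos (2 * π * N * τ) / (2 * π * N)))

/-- The speed function. -/
noncomputable def speedV (σ ε : ℝ) (N : ℕ) (τ : ℝ) : ℝ :=
  Real.sqrt (latS' ε N τ ^ 2 / (4 * (latS σ ε N τ * (1 - latS σ ε N τ))) +
    16 * π ^ 2 * (latS σ ε N τ * (1 - latS σ ε N τ)))

theorem latS_hasDerivAt (σ ε : ℝ) (N : ℕ) (τ : ℝ) :
    HasDerivAt (latS σ ε N) (latS' ε N τ) τ := by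
  unfold latS latS'
  have h : HasDerivAt (fun τ : ℝ => 2 * π * N * τ) (2 * π * N) τ := by
    simpa using (hasDerivAt_id τ).const_mul (2 * π * (N : ℝ))
  have h2 := ((h.sin).const_mul ε).const_add σ
  exact h2.congr_deriv (by ring)

theorem phaseA_hasDerivAt (σ ε : ℝ) {N : ℕ} (hN : N ≠ 0) (τ : ℝ) :
    HasDerivAt (phaseA σ ε N) (-(4 * π) * latS σ ε N τ) τ := by
  unfold phaseA latS
  have hNr : (N : ℝ) ≠ 0 := by exact_mod_cast hN
  have h : HasDerivAt (fun τ : ℝ => 2 * π * N * τ) (2 * π * N) τ := by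
    simpa using (hasDerivAt_id τ).const_mul (2 * π * (N : ℝ))
  have h2 := ((h.cos).div_const (2 * π * N)).const_mul ε
  have h3 := (((hasDerivAt_id' τ).const_mul σ).fun_sub h2).const_mul (-(4 * π))
  have hpi : π ≠ 0 := pi_ne_zero
  refine h3.congr_deriv ?_
  field_simp
  ring

theorem latS_bounds {σ ε : ℝ} (hσ : 0 < σ) (hσ' : σ ≤ 1 / 2) (hε : 0 ≤ ε) (hε' : ε ≤ σ / 2)
    (N : ℕ) (τ : ℝ) : 0 < latS σ ε N τ ∧ latS σ ε N τ < 1 := by
  unfold latS
  have h1 := Real.neg_one_le_sin (2 * π * N * τ)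
  have h2 := Real.sin_le_one (2 * π * N * τ)
  constructor <;> nlinarith

theorem latS_periodic (σ ε : ℝ) (N : ℕ) (τ : ℝ) : latS σ ε N (τ + 1) = latS σ ε N τ := by
  unfold latS
  have : 2 * π * N * (τ + 1) = 2 * π * N * τ + N * (2 * π) := by ring
  rw [this, Real.sin_add_nat_mul_two_pi]

theorem latS'_periodic (ε : ℝ) (N : ℕ) (τ : ℝ) : latS' ε N (τ + 1) = latS' ε N τ := by
  unfold latS'
  have : 2 * π * N * (τ + 1) = 2 * π * N * τ + N * (2 * π) := by ring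
  rw [this, Real.cos_add_nat_mul_two_pi]

theorem phaseA_shift (σ ε : ℝ) (N : ℕ) (τ : ℝ) :
    phaseA σ ε N (τ + 1) = phaseA σ ε N τ - 4 * π * σ := by
  unfold phaseA
  have : 2 * π * N * (τ + 1) = 2 * π * N * τ + N * (2 * π) := by ring
  rw [this, Real.cos_add_nat_mul_two_pi]
  ring

theorem speedV_periodic (σ ε : ℝ) (N : ℕ) (τ : ℝ) : speedV σ ε N (τ + 1) = speedV σ ε N τ := by
  unfold speedV
  rw [latS_periodic, latS'_periodic]

theorem speedV_pos {σ ε : ℝ} (hσ : 0 < σ) (hσ' : σ ≤ 1 / 2) (hε : 0 ≤ ε) (hε' : ε ≤ σ / 2)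
    (N : ℕ) (τ : ℝ) : 0 < speedV σ ε N τ := by
  obtain ⟨h0, h1⟩ := latS_bounds hσ hσ' hε hε' N τ
  have hp : 0 < latS σ ε N τ * (1 - latS σ ε N τ) := mul_pos h0 (by linarith)
  unfold speedV
  apply Real.sqrt_pos.mpr
  have : 0 ≤ latS' ε N τ ^ 2 / (4 * (latS σ ε N τ * (1 - latS σ ε N τ))) := by positivity
  have h2 : 0 < 16 * π ^ 2 * (latS σ ε N τ * (1 - latS σ ε N τ)) := by positivity
  linarith

theorem latS_contDiff (σ ε : ℝ) (N : ℕ) : ContDiff ℝ ∞ (latS σ ε N) := by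
  unfold latS
  fun_prop

theorem latS'_contDiff (ε : ℝ) (N : ℕ) : ContDiff ℝ ∞ (latS' ε N) := by
  unfold latS'
  fun_prop

theorem speedV_contDiff {σ ε : ℝ} (hσ : 0 < σ) (hσ' : σ ≤ 1 / 2) (hε : 0 ≤ ε) (hε' : ε ≤ σ / 2)
    (N : ℕ) : ContDiff ℝ ∞ (speedV σ ε N) := by
  have hS := latS_contDiff σ ε N
  have hS' := latS'_contDiff ε N
  have hne : ∀ τ, 4 * (latS σ ε N τ * (1 - latS σ ε N τ)) ≠ 0 := by
    intro τ
    obtain ⟨h0, h1⟩ := latS_bounds hσ hσ' hε hε' N τ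
    have hp : 0 < latS σ ε N τ * (1 - latS σ ε N τ) := mul_pos h0 (by linarith)
    positivity
  unfold speedV
  apply ContDiff.sqrt
  · apply ContDiff.add
    · apply ContDiff.div (hS'.pow 2) _ hne
      exact contDiff_const.mul (hS.mul (contDiff_const.sub hS))
    · exact contDiff_const.mul (hS.mul (contDiff_const.sub hS))
  · intro τ
    exact (Real.sqrt_pos.mp (speedV_pos hσ hσ' hε hε' N τ)).ne'

/-- Clipping the amplitude parameter. -/
noncomputable def clipE (σ ε : ℝ) : ℝ := max 0 (min ε (σ / 2))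

theorem clipE_bounds {σ : ℝ} (hσ : 0 < σ) (ε : ℝ) : 0 ≤ clipE σ ε ∧ clipE σ ε ≤ σ / 2 := by
  unfold clipE
  constructor
  · exact le_max_left _ _
  · apply max_le (by linarith) (min_le_right _ _)

theorem clipE_continuous (σ : ℝ) : Continuous (clipE σ) := by
  unfold clipE
  fun_prop

theorem clipE_of_mem {σ ε : ℝ} (h0 : 0 ≤ ε) (h1 : ε ≤ σ / 2) : clipE σ ε = ε := by
  unfold clipE
  rw [min_eq_left h1, max_eq_right h0]

theorem length_continuous {σ : ℝ} (hσ : 0 < σ) (hσ' : σ ≤ 1 / 2) (N : ℕ) :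
    Continuous fun ε => ∫ τ in (0:ℝ)..1, speedV σ (clipE σ ε) N τ := by
  apply intervalIntegral.continuous_parametric_intervalIntegral_of_continuous'
  have hc := clipE_continuous σ
  have hS : Continuous (fun p : ℝ × ℝ => latS σ (clipE σ p.1) N p.2) := by
    unfold latS
    fun_prop
  have hS' : Continuous (fun p : ℝ × ℝ => latS' (clipE σ p.1) N p.2) := by
    unfold latS'
    fun_prop
  have hne : ∀ p : ℝ × ℝ,
      4 * (latS σ (clipE σ p.1) N p.2 * (1 - latS σ (clipE σ p.1) N p.2)) ≠ 0 := by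
    intro p
    obtain ⟨h0', h1'⟩ := clipE_bounds hσ p.1
    obtain ⟨h0, h1⟩ := latS_bounds hσ hσ' h0' h1' N p.2
    have hp : 0 < latS σ (clipE σ p.1) N p.2 * (1 - latS σ (clipE σ p.1) N p.2) :=
      mul_pos h0 (by linarith)
    positivity
  change Continuous (fun p : ℝ × ℝ => speedV σ (clipE σ p.1) N p.2)
  unfold speedV
  apply Continuous.sqrt
  apply Continuous.add
  · apply Continuous.div (hS'.pow 2) _ hne
    exact continuous_const.mul (hS.mul (continuous_const.sub hS))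
  · exact continuous_const.mul (hS.mul (continuous_const.sub hS))

theorem length_zero_le {σ : ℝ} (hσ : 0 < σ) (hσ' : σ ≤ 1 / 2) (N : ℕ) :
    ∫ τ in (0:ℝ)..1, speedV σ 0 N τ ≤ 2 * π := by
  have h : ∀ τ, speedV σ 0 N τ ≤ 2 * π := by
    intro τ
    unfold speedV latS latS'
    simp only [zero_mul, add_zero, ne_eq, OfNat.ofNat_ne_zero, not_false_eq_true, zero_pow,
      zero_div, zero_add]
    apply Real.sqrt_le_iff.mpr
    constructor
    · positivity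
    · have : σ * (1 - σ) ≤ 1 / 4 := by nlinarith [sq_nonneg (σ - 1 / 2)]
      have hpi : 0 ≤ π ^ 2 := by positivity
      nlinarith
  have hcont : Continuous (speedV σ 0 N) :=
    (speedV_contDiff hσ hσ' le_rfl (by linarith) N).continuous
  have := intervalIntegral.integral_mono_on (a := 0) (b := 1) (zero_le_one)
    (hcont.intervalIntegrable _ _) (continuous_const.intervalIntegrable (μ := volume) _ _)
    (fun x _ => h x)
  simpa using this

theorem speedV_ge {σ ε : ℝ} (hσ : 0 < σ) (hσ' : σ ≤ 1 / 2) (hε : 0 ≤ ε) (hε' : ε ≤ σ / 2)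
    {N : ℕ} (τ : ℝ) :
    ε * (2 * π * N) * (Real.cos (2 * π * N * τ)) ^ 2 ≤ speedV σ ε N τ := by
  obtain ⟨h0, h1⟩ := latS_bounds hσ hσ' hε hε' N τ
  set S := latS σ ε N τ with hS
  have hp : 0 < S * (1 - S) := mul_pos h0 (by linarith)
  have hp' : 4 * (S * (1 - S)) ≤ 1 := by nlinarith [sq_nonneg (S - 1 / 2)]
  set c := Real.cos (2 * π * N * τ) with hc
  have hc1 : c ^ 2 ≤ 1 := by nlinarith [Real.cos_sq_le_one (2 * π * N * τ)]
  set w := ε * (2 * π * N) with hw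
  have hw0 : 0 ≤ w := by positivity
  unfold speedV
  rw [← hS]
  apply Real.le_sqrt_of_sq_le
  have hS' : latS' ε N τ = w * c := by unfold latS'; rw [hw, hc]; ring
  rw [hS']
  have h4 : 0 < 4 * (S * (1 - S)) := by positivity
  have h5 : (w * c) ^ 2 ≤ (w * c) ^ 2 / (4 * (S * (1 - S))) := by
    rw [le_div_iff₀ h4]
    nlinarith [sq_nonneg (w * c)]
  have h6 : (w * c ^ 2) ^ 2 ≤ (w * c) ^ 2 := by
    have : (w * c ^ 2) ^ 2 = (w * c) ^ 2 * c ^ 2 := by ring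
    rw [this]
    nlinarith [sq_nonneg (w * c)]
  have h7 : 0 ≤ 16 * π ^ 2 * (S * (1 - S)) := by positivity
  linarith

theorem length_ge {σ ε : ℝ} (hσ : 0 < σ) (hσ' : σ ≤ 1 / 2) (hε : 0 ≤ ε) (hε' : ε ≤ σ / 2)
    {N : ℕ} (hN : N ≠ 0) :
    ε * (π * N) ≤ ∫ τ in (0:ℝ)..1, speedV σ ε N τ := by
  have hNr : (N : ℝ) ≠ 0 := by exact_mod_cast hN
  have hpi : π ≠ 0 := pi_ne_zero
  set w : ℝ := 2 * π * N with hw
  have hw0 : w ≠ 0 := by rw [hw]; positivity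
  have hF : ∀ τ ∈ Set.uIcc (0:ℝ) 1,
      HasDerivAt (fun τ : ℝ => τ / 2 + Real.sin (2 * (w * τ)) / (4 * w))
        ((Real.cos (w * τ)) ^ 2) τ := by
    intro τ _
    have h : HasDerivAt (fun τ : ℝ => 2 * (w * τ)) (2 * w) τ := by
      simpa using ((hasDerivAt_id τ).const_mul w).const_mul 2
    have h2 := (((hasDerivAt_id' τ).div_const 2).fun_add ((h.sin).div_const (4 * w)))
    refine h2.congr_deriv ?_
    rw [Real.cos_sq]
    field_simp
    ring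
  have hint : ∫ τ in (0:ℝ)..1, (Real.cos (w * τ)) ^ 2 = 1 / 2 := by
    rw [intervalIntegral.integral_eq_sub_of_hasDerivAt hF
      ((by fun_prop : Continuous fun τ => (Real.cos (w * τ)) ^ 2).intervalIntegrable _ _)]
    have : Real.sin (2 * (w * 1)) = 0 := by
      have : 2 * (w * 1) = ((4 * N : ℕ) : ℝ) * π := by rw [hw]; push_cast; ring
      rw [this]
      exact Real.sin_nat_mul_pi _
    rw [this]
    simp
  have hcont1 : Continuous fun τ : ℝ => ε * (2 * π * N) * (Real.cos (2 * π * N * τ)) ^ 2 := by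
    fun_prop
  have hmono := intervalIntegral.integral_mono_on (a := 0) (b := 1) (μ := volume) (zero_le_one)
    (hcont1.intervalIntegrable _ _)
    ((speedV_contDiff hσ hσ' hε hε' N).continuous.intervalIntegrable _ _)
    (fun x _ => speedV_ge hσ hσ' hε hε' x)
  rw [intervalIntegral.integral_const_mul, ← hw, hint] at hmono
  calc ε * (π * N) = ε * w * (1 / 2) := by rw [hw]; ring
    _ ≤ _ := hmono

/-- There is an amplitude whose total length is exactly `T`. -/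
theorem exists_amplitude {σ T : ℝ} (hσ : 0 < σ) (hσ' : σ ≤ 1 / 2) (hT : 2 * π ≤ T) :
    ∃ (N : ℕ) (ε : ℝ), N ≠ 0 ∧ 0 ≤ ε ∧ ε ≤ σ / 2 ∧ ∫ τ in (0:ℝ)..1, speedV σ ε N τ = T := by
  obtain ⟨N, hN⟩ := exists_nat_gt (2 * T / (σ * π) + 1)
  have hTpos : 0 < T := by nlinarith [pi_pos]
  have hN1 : (1:ℝ) < N := by
    have : 0 < 2 * T / (σ * π) := by positivity
    linarith
  have hN0 : N ≠ 0 := by
    rintro rfl
    simp at hN1
    linarith
  have hcont := length_continuous hσ hσ' N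
  have h0 : ∫ τ in (0:ℝ)..1, speedV σ (clipE σ 0) N τ ≤ T := by
    rw [clipE_of_mem le_rfl (by linarith)]
    exact (length_zero_le hσ hσ' N).trans hT
  have h1 : T ≤ ∫ τ in (0:ℝ)..1, speedV σ (clipE σ (σ / 2)) N τ := by
    rw [clipE_of_mem (by linarith) le_rfl]
    refine le_trans ?_ (length_ge hσ hσ' (by linarith) le_rfl hN0)
    have h2 : 2 * T / (σ * π) < N := by linarith
    rw [div_lt_iff₀ (by positivity)] at h2
    nlinarith
  have hmem : T ∈ Set.Icc (∫ τ in (0:ℝ)..1, speedV σ (clipE σ 0) N τ)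
      (∫ τ in (0:ℝ)..1, speedV σ (clipE σ (σ / 2)) N τ) := ⟨h0, h1⟩
  obtain ⟨ε, hε, hεT⟩ := intermediate_value_Icc (by linarith : (0:ℝ) ≤ σ / 2)
    hcont.continuousOn hmem
  refine ⟨N, ε, hN0, hε.1, hε.2, ?_⟩
  simpa [clipE_of_mem hε.1 hε.2] using hεT

theorem conj_cexp_mul_self (θ : ℝ) :
    conj (Complex.exp (Complex.I * θ)) * Complex.exp (Complex.I * θ) = 1 := by
  rw [← Complex.exp_conj]
  simp only [map_mul, Complex.conj_I, Complex.conj_ofReal]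
  rw [← Complex.exp_add]
  simp

theorem normSq_cexp (θ : ℝ) : Complex.normSq (Complex.exp (Complex.I * θ)) = 1 := by
  rw [Complex.normSq_eq_norm_sq, mul_comm, Complex.norm_exp_ofReal_mul_I]
  simp

/-- The explicit closed Legendrian curve in `ℂ × ℂ` before reparametrisation. -/
theorem legendrian_param {σ ε : ℝ} (hσ : 0 < σ) (hσ' : σ ≤ 1 / 2) (hε : 0 ≤ ε) (hε' : ε ≤ σ / 2)
    {N : ℕ} (hN : N ≠ 0) :
    ∃ η₁ η₂ δ₁ δ₂ : ℝ → ℂ, ContDiff ℝ ∞ η₁ ∧ ContDiff ℝ ∞ η₂ ∧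
      (∀ τ, HasDerivAt η₁ (δ₁ τ) τ) ∧ (∀ τ, HasDerivAt η₂ (δ₂ τ) τ) ∧
      (∀ τ, Complex.normSq (η₁ τ) + Complex.normSq (η₂ τ) = 1) ∧
      (∀ τ, conj (η₁ τ) * δ₁ τ + conj (η₂ τ) * δ₂ τ = 0) ∧
      (∀ τ, Complex.normSq (δ₁ τ) + Complex.normSq (δ₂ τ) = speedV σ ε N τ ^ 2) ∧
      (∀ τ, η₁ (τ + 1) = Complex.exp (Complex.I * ((-(4 * π * σ) : ℝ) : ℂ)) * η₁ τ) ∧
      (∀ τ, η₂ (τ + 1) = Complex.exp (Complex.I * ((-(4 * π * σ) : ℝ) : ℂ)) * η₂ τ) := by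
  have hb := latS_bounds hσ hσ' hε hε' N
  set S := latS σ ε N with hSdef
  set S' := latS' ε N with hS'def
  set A := phaseA σ ε N with hAdef
  have hS : ContDiff ℝ ∞ S := latS_contDiff σ ε N
  have hSd : ∀ τ, HasDerivAt S (S' τ) τ := latS_hasDerivAt σ ε N
  have hAd : ∀ τ, HasDerivAt A (-(4 * π) * S τ) τ := phaseA_hasDerivAt σ ε hN
  have hAc : ContDiff ℝ ∞ A := by
    rw [hAdef]; unfold phaseA; fun_prop
  let a₁ : ℝ → ℝ := fun τ => Real.sqrt (1 - S τ)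
  let a₂ : ℝ → ℝ := fun τ => Real.sqrt (S τ)
  have ha₁pos : ∀ τ, 0 < a₁ τ := fun τ => Real.sqrt_pos.mpr (by linarith [(hb τ).2])
  have ha₂pos : ∀ τ, 0 < a₂ τ := fun τ => Real.sqrt_pos.mpr (hb τ).1
  have ha₁sq : ∀ τ, a₁ τ ^ 2 = 1 - S τ := fun τ => Real.sq_sqrt (by linarith [(hb τ).2])
  have ha₂sq : ∀ τ, a₂ τ ^ 2 = S τ := fun τ => Real.sq_sqrt (hb τ).1.le
  have ha₁d : ∀ τ, HasDerivAt a₁ (-(S' τ) / (2 * a₁ τ)) τ := by
    intro τ
    have h := ((hSd τ).const_sub 1).sqrt (by linarith [(hb τ).2] : 1 - S τ ≠ 0)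
    simpa using h
  have ha₂d : ∀ τ, HasDerivAt a₂ (S' τ / (2 * a₂ τ)) τ := by
    intro τ
    exact (hSd τ).sqrt (hb τ).1.ne'
  have ha₁c : ContDiff ℝ ∞ a₁ := (contDiff_const.sub hS).sqrt
    (fun τ => by linarith [(hb τ).2])
  have ha₂c : ContDiff ℝ ∞ a₂ := hS.sqrt (fun τ => (hb τ).1.ne')
  let e₁ : ℝ → ℂ := fun τ => Complex.exp (Complex.I * (A τ : ℝ))
  let e₂ : ℝ → ℂ := fun τ => Complex.exp (Complex.I * ((A τ + 4 * π * τ : ℝ) : ℂ))
  have he₁d : ∀ τ, HasDerivAt e₁ (Complex.I * ((-(4 * π) * S τ : ℝ) : ℂ) * e₁ τ) τ := by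
    intro τ
    have h1 : HasDerivAt (fun τ : ℝ => ((A τ : ℝ) : ℂ)) ((-(4 * π) * S τ : ℝ) : ℂ) τ :=
      (hAd τ).ofReal_comp
    have h2 := ((h1.const_mul Complex.I).cexp)
    exact h2.congr_deriv (by ring)
  have he₂d : ∀ τ, HasDerivAt e₂
      (Complex.I * ((-(4 * π) * S τ + 4 * π : ℝ) : ℂ) * e₂ τ) τ := by
    intro τ
    have h0 : HasDerivAt (fun τ : ℝ => A τ + 4 * π * τ) (-(4 * π) * S τ + 4 * π) τ := by
      have := (hAd τ).fun_add ((hasDerivAt_id' τ).const_mul (4 * π))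
      simpa using this
    have h1 : HasDerivAt (fun τ : ℝ => ((A τ + 4 * π * τ : ℝ) : ℂ))
        ((-(4 * π) * S τ + 4 * π : ℝ) : ℂ) τ := h0.ofReal_comp
    have h2 := ((h1.const_mul Complex.I).cexp)
    exact h2.congr_deriv (by ring)
  have he₁c : ContDiff ℝ ∞ e₁ := by
    have : ContDiff ℝ ∞ (fun τ : ℝ => ((A τ : ℝ) : ℂ)) :=
      Complex.ofRealCLM.contDiff.comp hAc
    exact (contDiff_const.mul this).cexp
  have he₂c : ContDiff ℝ ∞ e₂ := by
    have h0 : ContDiff ℝ ∞ (fun τ : ℝ => A τ + 4 * π * τ) := hAc.add (by fun_prop)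
    have : ContDiff ℝ ∞ (fun τ : ℝ => ((A τ + 4 * π * τ : ℝ) : ℂ)) :=
      Complex.ofRealCLM.contDiff.comp h0
    exact (contDiff_const.mul this).cexp
  have he₁cj := fun τ => conj_cexp_mul_self (A τ)
  have he₂cj := fun τ => conj_cexp_mul_self (A τ + 4 * π * τ)
  refine ⟨fun τ => (a₁ τ : ℂ) * e₁ τ, fun τ => (a₂ τ : ℂ) * e₂ τ,
    fun τ => (((-(S' τ) / (2 * a₁ τ) : ℝ) : ℂ) + (a₁ τ : ℂ) *
      (Complex.I * ((-(4 * π) * S τ : ℝ) : ℂ))) * e₁ τ,
    fun τ => (((S' τ / (2 * a₂ τ) : ℝ) : ℂ) + (a₂ τ : ℂ) *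
      (Complex.I * ((-(4 * π) * S τ + 4 * π : ℝ) : ℂ))) * e₂ τ,
    (Complex.ofRealCLM.contDiff.comp ha₁c).mul he₁c,
    (Complex.ofRealCLM.contDiff.comp ha₂c).mul he₂c, ?_, ?_, ?_, ?_, ?_, ?_, ?_⟩
  · intro τ
    have h := ((ha₁d τ).ofReal_comp).fun_mul (he₁d τ)
    exact h.congr_deriv (by ring)
  · intro τ
    have h := ((ha₂d τ).ofReal_comp).fun_mul (he₂d τ)
    exact h.congr_deriv (by ring)
  · intro τ
    simp only [map_mul, Complex.normSq_ofReal]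
    have h1 : Complex.normSq (e₁ τ) = 1 := normSq_cexp _
    have h2 : Complex.normSq (e₂ τ) = 1 := normSq_cexp _
    rw [h1, h2]
    have := ha₁sq τ
    have := ha₂sq τ
    nlinarith
  · intro τ
    have h1 : conj (e₁ τ) * e₁ τ = 1 := he₁cj τ
    have h2 : conj (e₂ τ) * e₂ τ = 1 := he₂cj τ
    have hsq1 := ha₁sq τ
    have hsq2 := ha₂sq τ
    have hne1 := (ha₁pos τ).ne'
    have hne2 := (ha₂pos τ).ne'
    simp only [map_mul, Complex.conj_ofReal]
    calc (a₁ τ : ℂ) * conj (e₁ τ) * ((((-(S' τ) / (2 * a₁ τ) : ℝ) : ℂ) + (a₁ τ : ℂ) *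
          (Complex.I * ((-(4 * π) * S τ : ℝ) : ℂ))) * e₁ τ) +
        (a₂ τ : ℂ) * conj (e₂ τ) * ((((S' τ / (2 * a₂ τ) : ℝ) : ℂ) + (a₂ τ : ℂ) *
          (Complex.I * ((-(4 * π) * S τ + 4 * π : ℝ) : ℂ))) * e₂ τ)
        = (a₁ τ : ℂ) * (conj (e₁ τ) * e₁ τ) * (((-(S' τ) / (2 * a₁ τ) : ℝ) : ℂ) + (a₁ τ : ℂ) *
          (Complex.I * ((-(4 * π) * S τ : ℝ) : ℂ))) +
        (a₂ τ : ℂ) * (conj (e₂ τ) * e₂ τ) * (((S' τ / (2 * a₂ τ) : ℝ) : ℂ) + (a₂ τ : ℂ) *
          (Complex.I * ((-(4 * π) * S τ + 4 * π : ℝ) : ℂ))) := by ring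
      _ = ((a₁ τ * (-(S' τ) / (2 * a₁ τ)) + a₂ τ * (S' τ / (2 * a₂ τ)) : ℝ) : ℂ) +
          Complex.I * (((a₁ τ ^ 2 * (-(4 * π) * S τ) +
            a₂ τ ^ 2 * (-(4 * π) * S τ + 4 * π) : ℝ)) : ℂ) := by
        rw [h1, h2]
        push_cast
        ring
      _ = 0 := by
        have e1 : a₁ τ * (-(S' τ) / (2 * a₁ τ)) + a₂ τ * (S' τ / (2 * a₂ τ)) = 0 := by
          field_simp
          ring
        have e2 : a₁ τ ^ 2 * (-(4 * π) * S τ) + a₂ τ ^ 2 * (-(4 * π) * S τ + 4 * π) = 0 := by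
          rw [hsq1, hsq2]; ring
        rw [e1, e2]
        simp
  · intro τ
    have h1 : Complex.normSq (e₁ τ) = 1 := normSq_cexp _
    have h2 : Complex.normSq (e₂ τ) = 1 := normSq_cexp _
    have hsq1 := ha₁sq τ
    have hsq2 := ha₂sq τ
    have hne1 := (ha₁pos τ).ne'
    have hne2 := (ha₂pos τ).ne'
    have hS0 := (hb τ).1
    have hS1 := (hb τ).2
    have key : ∀ (p q : ℝ), Complex.normSq ((p : ℂ) + (q : ℂ) * Complex.I) = p ^ 2 + q ^ 2 := by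
      intro p q
      rw [Complex.normSq_add_mul_I]
    have n1 : ((-(S' τ) / (2 * a₁ τ) : ℝ) : ℂ) + (a₁ τ : ℂ) *
        (Complex.I * ((-(4 * π) * S τ : ℝ) : ℂ)) =
        ((-(S' τ) / (2 * a₁ τ) : ℝ) : ℂ) + ((a₁ τ * (-(4 * π) * S τ) : ℝ) : ℂ) * Complex.I := by
      push_cast; ring
    have n2 : ((S' τ / (2 * a₂ τ) : ℝ) : ℂ) + (a₂ τ : ℂ) *
        (Complex.I * ((-(4 * π) * S τ + 4 * π : ℝ) : ℂ)) =
        ((S' τ / (2 * a₂ τ) : ℝ) : ℂ) + ((a₂ τ * (-(4 * π) * S τ + 4 * π) : ℝ) : ℂ) * Complex.I := by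
      push_cast; ring
    simp only [map_mul]
    rw [h1, h2, n1, n2, key, key, mul_one, mul_one]
    have hv : speedV σ ε N τ ^ 2 = S' τ ^ 2 / (4 * (S τ * (1 - S τ))) +
        16 * π ^ 2 * (S τ * (1 - S τ)) := by
      unfold speedV
      rw [Real.sq_sqrt]
      have hp : 0 < S τ * (1 - S τ) := mul_pos hS0 (by linarith)
      have : 0 ≤ S' τ ^ 2 / (4 * (S τ * (1 - S τ))) := by positivity
      have h3 : 0 ≤ 16 * π ^ 2 * (S τ * (1 - S τ)) := by positivity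
      exact add_nonneg this h3
    rw [hv]
    have hS1' : 1 - S τ ≠ 0 := by linarith
    have hS0' : S τ ≠ 0 := hS0.ne'
    have e1 : (-(S' τ) / (2 * a₁ τ)) ^ 2 = S' τ ^ 2 / (4 * (1 - S τ)) := by
      rw [div_pow, mul_pow, hsq1]; ring
    have e2 : (S' τ / (2 * a₂ τ)) ^ 2 = S' τ ^ 2 / (4 * S τ) := by
      rw [div_pow, mul_pow, hsq2]; ring
    have e3 : (a₁ τ * (-(4 * π) * S τ)) ^ 2 = (1 - S τ) * (16 * π ^ 2 * S τ ^ 2) := by
      rw [mul_pow, hsq1]; ring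
    have e4 : (a₂ τ * (-(4 * π) * S τ + 4 * π)) ^ 2 = S τ * (16 * π ^ 2 * (1 - S τ) ^ 2) := by
      rw [mul_pow, hsq2]; ring
    rw [e1, e2, e3, e4]
    field_simp
    ring
  · intro τ
    have hA : A (τ + 1) = A τ - 4 * π * σ := phaseA_shift σ ε N τ
    have hper : S (τ + 1) = S τ := latS_periodic σ ε N τ
    have h1 : a₁ (τ + 1) = a₁ τ := by simp only [a₁, hper]
    have h2 : e₁ (τ + 1) = Complex.exp (Complex.I * ((-(4 * π * σ) : ℝ) : ℂ)) * e₁ τ := by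
      simp only [e₁]
      rw [← Complex.exp_add, hA]
      congr 1
      push_cast
      ring
    simp only [h1, h2]
    ring
  · intro τ
    have hA : A (τ + 1) = A τ - 4 * π * σ := phaseA_shift σ ε N τ
    have hper : S (τ + 1) = S τ := latS_periodic σ ε N τ
    have h1 : a₂ (τ + 1) = a₂ τ := by simp only [a₂, hper]
    have h2 : e₂ (τ + 1) = Complex.exp (Complex.I * ((-(4 * π * σ) : ℝ) : ℂ)) * e₂ τ := by
      simp only [e₂]
      rw [← Complex.exp_add, hA]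
      have : ((A τ - 4 * π * σ + 4 * π * (τ + 1) : ℝ) : ℂ) =
          ((A τ + 4 * π * τ - 4 * π * σ : ℝ) : ℂ) + ((4 * π : ℝ) : ℂ) := by
        push_cast; ring
      rw [this, mul_add, Complex.exp_add]
      have h4 : Complex.exp (Complex.I * ((4 * π : ℝ) : ℂ)) = 1 := by
        have : Complex.I * ((4 * π : ℝ) : ℂ) = ((2 : ℕ) : ℂ) * (2 * π * Complex.I) := by
          push_cast; ring
        rw [this, Complex.exp_nat_mul_two_pi_mul_I]
      rw [h4, mul_one]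
      congr 1
      push_cast
      ring
    simp only [h1, h2]
    ring

/-- **Legendrian curves with prescribed length and holonomy.** For every `T ≥ 2π` and every `θ`
there is a smooth unit speed curve in the unit sphere of `ℂ²`, horizontal for the Hopf fibration,
with `ζ (t + T) = exp (i θ) ζ t`. -/
theorem exists_legendrian (T θ : ℝ) (hT : 2 * π ≤ T) :
    ∃ z₁ z₂ d₁ d₂ : ℝ → ℂ, ContDiff ℝ ∞ z₁ ∧ ContDiff ℝ ∞ z₂ ∧
      (∀ t, HasDerivAt z₁ (d₁ t) t) ∧ (∀ t, HasDerivAt z₂ (d₂ t) t) ∧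
      (∀ t, Complex.normSq (z₁ t) + Complex.normSq (z₂ t) = 1) ∧
      (∀ t, conj (z₁ t) * d₁ t + conj (z₂ t) * d₂ t = 0) ∧
      (∀ t, Complex.normSq (d₁ t) + Complex.normSq (d₂ t) = 1) ∧
      (∀ t, z₁ (t + T) = Complex.exp (Complex.I * θ) * z₁ t) ∧
      (∀ t, z₂ (t + T) = Complex.exp (Complex.I * θ) * z₂ t) := by
  have h2pi : (0:ℝ) < 2 * π := by positivity
  obtain ⟨k, hk, -⟩ := existsUnique_add_zsmul_mem_Ioc h2pi (-θ) 0
  simp only [zero_add, Set.mem_Ioc, zsmul_eq_mul] at hk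
  set a : ℝ := -θ + k * (2 * π) with ha
  set σ : ℝ := a / (4 * π) with hσdef
  have hpi := pi_pos
  have hσ : 0 < σ := div_pos hk.1 (by positivity)
  have hσ' : σ ≤ 1 / 2 := by
    rw [hσdef, div_le_iff₀ (by positivity)]
    linarith [hk.2]
  obtain ⟨N, ε, hN, hε, hε', hlen⟩ := exists_amplitude hσ hσ' hT
  obtain ⟨η₁, η₂, δ₁, δ₂, hη₁, hη₂, hδ₁, hδ₂, hn, hl, hs, hp₁, hp₂⟩ :=
    legendrian_param hσ hσ' hε hε' hN
  have hvc := speedV_contDiff hσ hσ' hε hε' N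
  have hvp := speedV_pos hσ hσ' hε hε' N
  obtain ⟨φ, hφc, hφd, hφp⟩ :=
    exists_arcLength_inverse (speedV σ ε N) hvc hvp (speedV_periodic σ ε N) T hlen
  have hphase : Complex.exp (Complex.I * ((-(4 * π * σ) : ℝ) : ℂ)) =
      Complex.exp (Complex.I * θ) := by
    have h4 : 4 * π * σ = a := by
      rw [hσdef]; field_simp
    rw [h4]
    have : Complex.I * ((-a : ℝ) : ℂ) = Complex.I * θ + (-k : ℤ) * (2 * π * Complex.I) := by
      rw [ha]
      push_cast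
      ring
    rw [this, Complex.exp_add, Complex.exp_int_mul_two_pi_mul_I, mul_one]
  refine ⟨fun t => η₁ (φ t), fun t => η₂ (φ t),
    fun t => ((1 / speedV σ ε N (φ t) : ℝ) : ℂ) * δ₁ (φ t),
    fun t => ((1 / speedV σ ε N (φ t) : ℝ) : ℂ) * δ₂ (φ t),
    hη₁.comp hφc, hη₂.comp hφc, ?_, ?_, ?_, ?_, ?_, ?_, ?_⟩
  · intro t
    have := (hδ₁ (φ t)).scomp t (hφd t)
    exact this.congr_deriv (by simp [Complex.real_smul])
  · intro t
    have := (hδ₂ (φ t)).scomp t (hφd t)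
    exact this.congr_deriv (by simp [Complex.real_smul])
  · intro t; exact hn (φ t)
  · intro t
    have h := hl (φ t)
    calc conj (η₁ (φ t)) * (((1 / speedV σ ε N (φ t) : ℝ) : ℂ) * δ₁ (φ t)) +
          conj (η₂ (φ t)) * (((1 / speedV σ ε N (φ t) : ℝ) : ℂ) * δ₂ (φ t))
        = ((1 / speedV σ ε N (φ t) : ℝ) : ℂ) *
            (conj (η₁ (φ t)) * δ₁ (φ t) + conj (η₂ (φ t)) * δ₂ (φ t)) := by ring
      _ = 0 := by rw [h, mul_zero]
  · intro t
    simp only [map_mul, Complex.normSq_ofReal]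
    have h := hs (φ t)
    have hne := (hvp (φ t)).ne'
    calc 1 / speedV σ ε N (φ t) * (1 / speedV σ ε N (φ t)) * Complex.normSq (δ₁ (φ t)) +
          1 / speedV σ ε N (φ t) * (1 / speedV σ ε N (φ t)) * Complex.normSq (δ₂ (φ t))
        = (Complex.normSq (δ₁ (φ t)) + Complex.normSq (δ₂ (φ t))) /
            speedV σ ε N (φ t) ^ 2 := by
          field_simp
      _ = 1 := by rw [h]; field_simp
  · intro t
    simp only
    rw [hφp, hp₁, hphase]
  · intro t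
    simp only
    rw [hφp, hp₂, hphase]

end Vale.Agent.Lib.P205
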