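import Vale.Agent.Lib.P205.Family

/-!
Partial derivatives on the plane and the Poincaré lemma in the form used below.
-/

open Real
open scoped ContDiff

namespace Vale.Agent.Lib.P205

section Partial

variable {F : Type*} [NormedAddCommGroup F] [NormedSpace ℝ F]

/-- The partial derivative in the first variable. -/
noncomputable def dx (f : ℝ × ℝ → F) (p : ℝ × ℝ) : F := fderiv ℝ f p (1, 0)

/-- The partial derivative in the second variable. -/
noncomputable def dy (f : ℝ × ℝ → F) (p : ℝ × ℝ) : F := fderiv ℝ f p (0, 1)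

theorem hasFDerivAt_of_contDiff {f : ℝ × ℝ → F} (hf : ContDiff ℝ ∞ f) (p : ℝ × ℝ) :
    HasFDerivAt f (fderiv ℝ f p) p :=
  (hf.differentiable (by simp) p).hasFDerivAt

theorem line_hasDerivAt {f : ℝ × ℝ → F} (hf : ContDiff ℝ ∞ f) (p u : ℝ × ℝ) :
    HasDerivAt (fun t : ℝ => f (p + t • u)) (fderiv ℝ f p u) 0 := by
  have h0 : HasFDerivAt f (fderiv ℝ f p) (p + (0:ℝ) • u) := by
    simpa using hasFDerivAt_of_contDiff hf p
  have hline : HasDerivAt (fun t : ℝ => p + t • u) u 0 := by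
    have := ((hasDerivAt_id (0:ℝ)).smul_const u).const_add p
    simpa using this
  exact h0.comp_hasDerivAt (0:ℝ) hline

theorem fderiv_eq_of_line {f : ℝ × ℝ → F} (hf : ContDiff ℝ ∞ f) {p u : ℝ × ℝ} {a : F}
    (h : HasDerivAt (fun t : ℝ => f (p + t • u)) a 0) : fderiv ℝ f p u = a :=
  (line_hasDerivAt hf p u).unique h

theorem contDiff_fderiv_apply {f : ℝ × ℝ → F} (hf : ContDiff ℝ ∞ f) (u : ℝ × ℝ) :
    ContDiff ℝ ∞ (fun p => fderiv ℝ f p u) :=
  (hf.fderiv_right (m := ∞) (by simp)).clm_apply contDiff_const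

theorem contDiff_dx {f : ℝ × ℝ → F} (hf : ContDiff ℝ ∞ f) : ContDiff ℝ ∞ (dx f) :=
  contDiff_fderiv_apply hf _

theorem contDiff_dy {f : ℝ × ℝ → F} (hf : ContDiff ℝ ∞ f) : ContDiff ℝ ∞ (dy f) :=
  contDiff_fderiv_apply hf _

theorem fderiv_apply_eq (f : ℝ × ℝ → F) (p v : ℝ × ℝ) :
    fderiv ℝ f p v = v.1 • dx f p + v.2 • dy f p := by
  have e : v = v.1 • ((1:ℝ), (0:ℝ)) + v.2 • ((0:ℝ), (1:ℝ)) := by
    ext <;> simp
  conv_lhs => rw [e]
  rw [map_add, map_smul, map_smul]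
  rfl

theorem fderiv_fderiv_apply {f : ℝ × ℝ → F} (hf : ContDiff ℝ ∞ f) (p u v : ℝ × ℝ) :
    fderiv ℝ (fun q => fderiv ℝ f q u) p v = fderiv ℝ (fderiv ℝ f) p v u := by
  have h1 : HasFDerivAt (fderiv ℝ f) (fderiv ℝ (fderiv ℝ f) p) p :=
    ((hf.fderiv_right (m := ∞) (by simp)).differentiable (by simp) p).hasFDerivAt
  have h2 := h1.clm_apply (hasFDerivAt_const u p)
  rw [h2.fderiv]
  simp

theorem dy_dx_comm {f : ℝ × ℝ → F} (hf : ContDiff ℝ ∞ f) (p : ℝ × ℝ) :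
    dy (dx f) p = dx (dy f) p := by
  have hs : IsSymmSndFDerivAt ℝ f p :=
    ((contDiff_infty.mp hf 2).contDiffAt (x := p)).isSymmSndFDerivAt (by
      rw [minSmoothness_of_isRCLikeNormedField]
      norm_num)
  show fderiv ℝ (fun q => fderiv ℝ f q (1, 0)) p (0, 1) =
    fderiv ℝ (fun q => fderiv ℝ f q (0, 1)) p (1, 0)
  rw [fderiv_fderiv_apply hf, fderiv_fderiv_apply hf]
  exact hs _ _

/-- The derivative of a map with prescribed partial derivatives. -/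
theorem fderiv_of_partials {f : ℝ × ℝ → F} {f₁ f₂ : ℝ × ℝ → F}
    (h₁ : ∀ p, dx f p = f₁ p) (h₂ : ∀ p, dy f p = f₂ p) (p v : ℝ × ℝ) :
    fderiv ℝ f p v = v.1 • f₁ p + v.2 • f₂ p := by
  rw [fderiv_apply_eq, h₁, h₂]

/-- **The Poincaré lemma.** -/
theorem exists_primitive2 [CompleteSpace F] {f₁ f₂ : ℝ × ℝ → F} (h₁ : ContDiff ℝ ∞ f₁)
    (h₂ : ContDiff ℝ ∞ f₂) (hc : ∀ p, dy f₁ p = dx f₂ p) :
    ∃ P : ℝ × ℝ → F, ContDiff ℝ ∞ P ∧ P 0 = 0 ∧ (∀ p, dx P p = f₁ p) ∧ (∀ p, dy P p = f₂ p) := by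
  let om : ℝ × ℝ → (ℝ × ℝ →L[ℝ] F) := fun p =>
    (ContinuousLinearMap.fst ℝ ℝ ℝ).smulRight (f₁ p) +
      (ContinuousLinearMap.snd ℝ ℝ ℝ).smulRight (f₂ p)
  have hom : ContDiff ℝ ∞ om := (contDiff_const.smulRight h₁).add (contDiff_const.smulRight h₂)
  have hd : ∀ a x y, fderiv ℝ om a x y = y.1 • fderiv ℝ f₁ a x + y.2 • fderiv ℝ f₂ a x := by
    intro a x y
    have hf₁ := hasFDerivAt_of_contDiff h₁ a
    have hf₂ := hasFDerivAt_of_contDiff h₂ a
    have e1 : HasFDerivAt om (((ContinuousLinearMap.smulRightL ℝ (ℝ × ℝ) F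
        (ContinuousLinearMap.fst ℝ ℝ ℝ)).comp (fderiv ℝ f₁ a)) +
        ((ContinuousLinearMap.smulRightL ℝ (ℝ × ℝ) F
        (ContinuousLinearMap.snd ℝ ℝ ℝ)).comp (fderiv ℝ f₂ a))) a :=
      ((ContinuousLinearMap.smulRightL ℝ (ℝ × ℝ) F
        (ContinuousLinearMap.fst ℝ ℝ ℝ)).hasFDerivAt.comp a hf₁).add
      ((ContinuousLinearMap.smulRightL ℝ (ℝ × ℝ) F
        (ContinuousLinearMap.snd ℝ ℝ ℝ)).hasFDerivAt.comp a hf₂)
    rw [e1.fderiv]
    simp
  have hsym : ∀ a ∈ (Set.univ : Set (ℝ × ℝ)), ∀ x y, fderiv ℝ om a x y = fderiv ℝ om a y x := by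
    intro a _ x y
    rw [hd, hd, fderiv_apply_eq f₁, fderiv_apply_eq f₂, fderiv_apply_eq f₁, fderiv_apply_eq f₂,
      hc a]
    simp only [smul_add, smul_smul]
    have e : ∀ r s : ℝ, ∀ z : F, (r * s) • z = (s * r) • z := fun r s z => by rw [mul_comm]
    rw [e y.1 x.2, e y.2 x.1, e y.2 x.2, e y.1 x.1]
    abel
  obtain ⟨f, hf⟩ := convex_univ.exists_forall_hasFDerivAt_of_fderiv_symmetric isOpen_univ
    (hom.differentiable (by simp)).differentiableOn hsym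
  have hf' : ∀ a, HasFDerivAt (fun p => f p - f 0) (om a) a := fun a =>
    (hf a (Set.mem_univ a)).sub_const (f 0)
  have hfd : fderiv ℝ (fun p => f p - f 0) = om := funext fun a => (hf' a).fderiv
  refine ⟨fun p => f p - f 0, ?_, by simp, fun p => ?_, fun p => ?_⟩
  · rw [contDiff_infty_iff_fderiv]
    refine ⟨fun a => (hf' a).differentiableAt, ?_⟩
    rw [hfd]
    exact hom
  · show fderiv ℝ (fun p => f p - f 0) p (1, 0) = f₁ p
    rw [hfd]
    simp [om]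
  · show fderiv ℝ (fun p => f p - f 0) p (0, 1) = f₂ p
    rw [hfd]
    simp [om]

/-- The value of the primitive, as an integral along the segment from the origin. -/
theorem primitive_formula [CompleteSpace F] {P f₁ f₂ : ℝ × ℝ → F} (hP : ContDiff ℝ ∞ P)
    (h₀ : P 0 = 0) (h₁ : ∀ p, dx P p = f₁ p) (h₂ : ∀ p, dy P p = f₂ p)
    (hc₁ : Continuous f₁) (hc₂ : Continuous f₂) (p : ℝ × ℝ) :
    P p = ∫ s in (0:ℝ)..1, (p.1 • f₁ (s • p) + p.2 • f₂ (s • p)) := by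
  have hd : ∀ s ∈ Set.uIcc (0:ℝ) 1, HasDerivAt (fun s : ℝ => P (s • p))
      (p.1 • f₁ (s • p) + p.2 • f₂ (s • p)) s := by
    intro s _
    have h0 := hasFDerivAt_of_contDiff hP (s • p)
    have hline : HasDerivAt (fun t : ℝ => t • p) p s := by
      simpa using (hasDerivAt_id s).smul_const p
    have := h0.comp_hasDerivAt s hline
    rw [fderiv_of_partials h₁ h₂] at this
    exact this
  have hcont : Continuous fun s : ℝ => p.1 • f₁ (s • p) + p.2 • f₂ (s • p) := by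
    fun_prop
  have := intervalIntegral.integral_eq_sub_of_hasDerivAt hd (hcont.intervalIntegrable _ _)
  rw [this]
  simp [h₀]

/-- A function with vanishing partial derivatives is constant. -/
theorem const_of_partials_zero {f : ℝ × ℝ → F} (hf : ContDiff ℝ ∞ f)
    (h₁ : ∀ p, dx f p = 0) (h₂ : ∀ p, dy f p = 0) (p q : ℝ × ℝ) : f p = f q := by
  have hd : ∀ a, fderiv ℝ f a = 0 := by
    intro a
    ext <;> simp <;> [exact h₁ a; exact h₂ a]
  exact is_const_of_fderiv_eq_zero (hf.differentiable (by simp)) hd p q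

end Partial

end Vale.Agent.Lib.P205
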