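import Vale.Agent.Lib.P205.DevFour
import Vale.Agent.Lib.P205.Assembly

/-!
The choice of the parameter and of the horizontal curve.
-/

open Real
open scoped ContDiff ComplexConjugate

namespace Vale.Agent.Lib.P205

/-- The horizontal curve for a length of either sign. -/
theorem exists_legendrian' (T θ : ℝ) (hT : 2 * π ≤ |T|) :
    ∃ z₁ z₂ d₁ d₂ : ℝ → ℂ, ContDiff ℝ ∞ z₁ ∧ ContDiff ℝ ∞ z₂ ∧
      (∀ t, HasDerivAt z₁ (d₁ t) t) ∧ (∀ t, HasDerivAt z₂ (d₂ t) t) ∧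
      (∀ t, Complex.normSq (z₁ t) + Complex.normSq (z₂ t) = 1) ∧
      (∀ t, conj (z₁ t) * d₁ t + conj (z₂ t) * d₂ t = 0) ∧
      (∀ t, Complex.normSq (d₁ t) + Complex.normSq (d₂ t) = 1) ∧
      (∀ t, z₁ (t + T) = Complex.exp (Complex.I * θ) * z₁ t) ∧
      (∀ t, z₂ (t + T) = Complex.exp (Complex.I * θ) * z₂ t) := by
  rcases le_total 0 T with h0 | h0
  · rw [abs_of_nonneg h0] at hT
    exact exists_legendrian T θ hT
  · rw [abs_of_nonpos h0] at hT
    obtain ⟨z₁, z₂, d₁, d₂, c₁, c₂, h₁, h₂, hn, hl, hs, p₁, p₂⟩ := exists_legendrian (-T) θ hT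
    have hneg : ContDiff ℝ ∞ (fun t : ℝ => -t) := contDiff_id.neg
    refine ⟨fun t => z₁ (-t), fun t => z₂ (-t), fun t => -d₁ (-t), fun t => -d₂ (-t),
      c₁.comp hneg, c₂.comp hneg, fun t => ?_, fun t => ?_, fun t => hn _, fun t => ?_, fun t => ?_,
      fun t => ?_, fun t => ?_⟩
    · have := HasDerivAt.scomp t (h₁ (-t)) (hasDerivAt_neg t)
      exact this.congr_deriv (by simp)
    · have := HasDerivAt.scomp t (h₂ (-t)) (hasDerivAt_neg t)
      exact this.congr_deriv (by simp)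
    · have := hl (-t)
      simp only
      linear_combination -this
    · simp only [Complex.normSq_neg]
      exact hs _
    · have : -(t + T) = -t + -T := by ring
      simp only [this, p₁]
    · have : -(t + T) = -t + -T := by ring
      simp only [this, p₂]

/-- The choice of the parameter. -/
theorem exists_parameter {V₁ V₂ : ℝ → ℂ} (c₁ : Continuous V₁) (c₂ : Continuous V₂) {a : ℝ}
    (ha : 0 < a) (h0 : (conj (V₁ 0) * V₂ 0).im ≠ 0) :
    ∃ (s : ℝ) (k : ℕ), 0 < s ∧ s ≤ a ∧ 0 < ‖V₁ s‖ ∧ ‖V₁ s‖ = 2 * π * k * s ∧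
      2 * π ≤ |(conj (V₁ s) * V₂ s).im| / (‖V₁ s‖ * s) := by
  have hN : Continuous fun s => ‖V₁ s‖ := c₁.norm
  have hC : Continuous fun s => |(conj (V₁ s) * V₂ s).im| :=
    (Complex.continuous_im.comp ((Complex.continuous_conj.comp c₁).mul c₂)).abs
  have hV0 : V₁ 0 ≠ 0 := by
    intro h
    apply h0
    simp [h]
  have hN0 : 0 < ‖V₁ 0‖ := norm_pos_iff.mpr hV0
  have hC0 : 0 < |(conj (V₁ 0) * V₂ 0).im| := abs_pos.mpr h0
  set c₀ : ℝ := |(conj (V₁ 0) * V₂ 0).im| / (2 * ‖V₁ 0‖) with hc₀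
  have hc₀p : 0 < c₀ := by positivity
  have hF : Continuous fun s => |(conj (V₁ s) * V₂ s).im| - c₀ * ‖V₁ s‖ :=
    hC.sub (continuous_const.mul hN)
  have hF0 : 0 < |(conj (V₁ 0) * V₂ 0).im| - c₀ * ‖V₁ 0‖ := by
    have : c₀ * ‖V₁ 0‖ = |(conj (V₁ 0) * V₂ 0).im| / 2 := by
      rw [hc₀]
      field_simp
    rw [this]
    linarith
  have hev : ∀ᶠ s in nhds (0:ℝ), 0 < |(conj (V₁ s) * V₂ s).im| - c₀ * ‖V₁ s‖ ∧ 0 < ‖V₁ s‖ :=
    (hF.continuousAt.eventually (lt_mem_nhds hF0)).and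
      (hN.continuousAt.eventually (lt_mem_nhds hN0))
  obtain ⟨δ, hδ, hball⟩ := Metric.eventually_nhds_iff.mp hev
  let s₁ : ℝ := min a (min (δ / 2) (c₀ / (2 * π)))
  have hpi := pi_pos
  have hs₁ : 0 < s₁ := lt_min ha (lt_min (by positivity) (by positivity))
  have hs₁a : s₁ ≤ a := min_le_left _ _
  have hs₁δ : s₁ ≤ δ / 2 := (min_le_right _ _).trans (min_le_left _ _)
  have hs₁c : s₁ ≤ c₀ / (2 * π) := (min_le_right _ _).trans (min_le_right _ _)
  have hgood : ∀ s, 0 ≤ s → s ≤ s₁ → 0 < |(conj (V₁ s) * V₂ s).im| - c₀ * ‖V₁ s‖ ∧ 0 < ‖V₁ s‖ := by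
    intro s h1 h2
    apply hball
    rw [Real.dist_eq, sub_zero, abs_of_nonneg h1]
    linarith
  obtain ⟨k, hk⟩ := exists_nat_gt (‖V₁ s₁‖ / (2 * π * s₁))
  have hk' : ‖V₁ s₁‖ < 2 * π * k * s₁ := by
    rw [div_lt_iff₀ (by positivity)] at hk
    linarith
  have hcont : ContinuousOn (fun s => ‖V₁ s‖ - 2 * π * k * s) (Set.Icc 0 s₁) :=
    (hN.sub (continuous_const.mul continuous_id)).continuousOn
  have hivt := intermediate_value_Icc' hs₁.le hcont
  have h00 : (0:ℝ) ∈ Set.Icc (‖V₁ s₁‖ - 2 * π * k * s₁) (‖V₁ 0‖ - 2 * π * k * 0) := by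
    constructor
    · linarith
    · simp only [mul_zero, sub_zero]
      exact hN0.le
  obtain ⟨s, ⟨hs0, hs1⟩, hs⟩ := hivt h00
  simp only at hs
  have hspos : 0 < s := by
    rcases hs0.lt_or_eq with h | h
    · exact h
    · subst h
      simp only [mul_zero, sub_zero] at hs
      exact absurd hs hN0.ne'
  obtain ⟨hg1, hg2⟩ := hgood s hs0 hs1
  refine ⟨s, k, hspos, hs1.trans hs₁a, hg2, by linarith, ?_⟩
  rw [le_div_iff₀ (by positivity)]
  have h3 : 2 * π * s ≤ c₀ := by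
    have := hs1.trans hs₁c
    rw [le_div_iff₀ (by positivity)] at this
    linarith
  have h4 : 2 * π * s * ‖V₁ s‖ ≤ c₀ * ‖V₁ s‖ := mul_le_mul_of_nonneg_right h3 hg2.le
  nlinarith

/-- The algebra of the induced metric of a rotated frame. -/
theorem rotated_metric {U : ℂ} (hU : Complex.normSq U = 1) (A B A' B' s : ℝ) :
    (U * ((A : ℂ) + Complex.I * (B : ℂ)) / (s : ℂ)).re *
        (U * ((A' : ℂ) + Complex.I * (B' : ℂ)) / (s : ℂ)).re +
      (U * ((A : ℂ) + Complex.I * (B : ℂ)) / (s : ℂ)).im *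
        (U * ((A' : ℂ) + Complex.I * (B' : ℂ)) / (s : ℂ)).im =
      (A * A' + B * B') / s ^ 2 := by
  have e : ∀ z : ℂ, z / (s : ℂ) = ((s⁻¹ : ℝ) : ℂ) * z := fun z => by
    rw [div_eq_inv_mul]
    push_cast
    rfl
  rw [e, e]
  simp only [Complex.mul_re, Complex.mul_im, Complex.ofReal_re, Complex.ofReal_im, Complex.add_re,
    Complex.add_im, Complex.I_re, Complex.I_im, zero_mul, sub_zero, add_zero, one_mul, zero_add,
    mul_zero]
  rw [Complex.normSq_apply] at hU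
  rw [div_eq_mul_inv, ← inv_pow]
  linear_combination (s⁻¹ ^ 2 * (A * A' + B * B')) * hU

/-- The algebra of the frame coefficients. -/
theorem frame_algebra {u s w x y : ℝ} (hu : u ≠ 0) (hs : s ≠ 0) (hs2 : s ^ 2 = 1 - x ^ 2)
    (hw2 : w ^ 2 = 1 - x ^ 2 - y ^ 2) :
    u ^ 2 * (s / u) ^ 2 = 1 - x ^ 2 ∧
      u ^ 2 * ((s / u) * (-(x * y) / (u * s))) = -(x * y) ∧
      u ^ 2 * ((-(x * y) / (u * s)) ^ 2 + (w / (u * s)) ^ 2) = 1 - y ^ 2 := by
  refine ⟨?_, ?_, ?_⟩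
  · field_simp
    exact hs2
  · field_simp
  · field_simp
    rw [hw2, hs2]
    ring

end Vale.Agent.Lib.P205
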