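import Vale.Agent.Lib.P205.TorusA

/-!
**Conformally flat metrics on tori have smooth isometric immersions into four-space.**
-/

open Real
open scoped ContDiff ComplexConjugate

namespace Vale.Agent.Lib.P205

theorem exp_I_add_two_pi (x : ℝ) (k : ℕ) :
    Complex.exp (Complex.I * ((x + 2 * π * k : ℝ) : ℂ)) = Complex.exp (Complex.I * (x : ℂ)) := by
  have : Complex.I * ((x + 2 * π * k : ℝ) : ℂ) =
      Complex.I * (x : ℂ) + (k : ℂ) * (2 * π * Complex.I) := by
    push_cast; ring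
  rw [this, Complex.exp_add, Complex.exp_nat_mul_two_pi_mul_I, mul_one]

/-- **Main theorem.** Let `w₁, w₂` be a basis of the plane and `lam` a smooth positive function
periodic with respect to the lattice spanned by `w₁, w₂`. Then the metric `lam² (dx² + dy²)` on the
flat torus has a smooth isometric immersion into Euclidean four-space. -/
theorem conformal_torus (w₁ w₂ : ℝ × ℝ) (hdet : w₁.1 * w₂.2 - w₁.2 * w₂.1 ≠ 0) (lam : ℝ × ℝ → ℝ)
    (hlam : ContDiff ℝ ∞ lam) (hpos : ∀ p, 0 < lam p) (hp₁ : ∀ p, lam (p + w₁) = lam p)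
    (hp₂ : ∀ p, lam (p + w₂) = lam p) :
    ∃ Φ : ℝ × ℝ → EuclideanSpace ℝ (Fin 4), ContDiff ℝ ∞ Φ ∧ (∀ p, Φ (p + w₁) = Φ p) ∧
      (∀ p, Φ (p + w₂) = Φ p) ∧
      ∀ p e f, inner ℝ (fderiv ℝ Φ p e) (fderiv ℝ Φ p f) = lam p ^ 2 * (e.1 * f.1 + e.2 * f.2) := by
  let L : Lat := ⟨w₁.1, w₁.2, w₂.1, w₂.2, hdet⟩
  have hw1 : L.w1 = w₁ := rfl
  have hw2 : L.w2 = w₂ := rfl
  -- the logarithm of the conformal factor and its derivatives
  let Λ : ℝ × ℝ → ℝ := fun p => Real.log (lam p)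
  have hΛ : PF L Λ := by
    refine ⟨hlam.log fun p => (hpos p).ne', fun p => ?_, fun p => ?_⟩
    · simp only [Λ, hw1, hp₁]
    · simp only [Λ, hw2, hp₂]
  have h₁ : PF L (dx Λ) := pf_dx hΛ
  have h₂ : PF L (dy Λ) := pf_dy hΛ
  have h₁₁ : PF L (dx (dx Λ)) := pf_dx h₁
  have h₁₂ : PF L (dy (dx Λ)) := pf_dy h₁
  have h₂₂ : PF L (dy (dy Λ)) := pf_dy h₂
  have hl : LD (dx Λ) (dy Λ) (dx (dx Λ)) (dy (dx Λ)) (dy (dy Λ)) :=
    ⟨fun p => rfl, fun p => rfl, fun p => (dy_dx_comm hΛ.1 p).symm, fun p => rfl⟩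
  have hlamd : ∀ p e, fderiv ℝ lam p e = lam p * (e.1 * dx Λ p + e.2 * dy Λ p) := by
    intro p e
    have h1 := line_hasDerivAt hlam p e
    have h2 : HasDerivAt (fun t : ℝ => Λ (p + t • e)) (fderiv ℝ lam p e / lam p) 0 := by
      have := h1.log (by simpa using (hpos p).ne')
      simpa only [zero_smul, add_zero] using this
    have h3 := fderiv_eq_of_line hΛ.1 h2
    rw [fderiv_apply_eq] at h3
    simp only [smul_eq_mul] at h3
    rw [h3]
    have := (hpos p).ne'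
    field_simp
  obtain ⟨a, ha, v, v₁, v₂, v₁₁, v₁₂, v₂₂, ψ, D, hsol, cψ, cD, Dx, Dy, Dw1, Dw2, cV₁, cV₂, V10, V20⟩ :=
    exists_development_family L h₁ h₂ h₁₁ h₁₂ h₂₂ hl
  -- the choice of the parameter
  have h0 : (conj (D 0 L.w1) * D 0 L.w2).im ≠ 0 := by
    rw [V10, V20]
    have : (conj ((L.a : ℂ) + Complex.I * (L.b : ℂ)) * ((L.c : ℂ) + Complex.I * (L.d : ℂ))).im =
        L.a * L.d - L.b * L.c := by
      simp
      ring
    rw [this]
    exact hdet
  obtain ⟨s, k, hs0, hsa, hN, hNk, hT⟩ := exists_parameter cV₁ cV₂ ha h0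
  have hclip : clip a s = s := clip_of_mem hs0.le hsa
  have hsol' := hsol s
  rw [hclip] at hsol'
  have hfd := sol_fd hsol' h₁ h₂ hl
  have hDx := Dx s
  have hDy := Dy s
  rw [hclip] at hDx hDy
  -- the rotation aligning the first period
  set V₁ := D s L.w1 with hV₁
  set V₂ := D s L.w2 with hV₂
  have hNC : ((‖V₁‖ : ℝ) : ℂ) ≠ 0 := by exact_mod_cast hN.ne'
  have hsC : (s : ℂ) ≠ 0 := by exact_mod_cast hs0.ne'
  let c : ℂ := conj V₁ / ((‖V₁‖ : ℝ) : ℂ)
  have hcV : c * V₁ = ((‖V₁‖ : ℝ) : ℂ) := by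
    simp only [c]
    rw [div_mul_eq_mul_div, div_eq_iff hNC, mul_comm (conj V₁), Complex.mul_conj,
      Complex.normSq_eq_norm_sq]
    push_cast
    ring
  have hcn : Complex.normSq c = 1 := by
    simp only [c]
    rw [map_div₀, Complex.normSq_conj, Complex.normSq_ofReal, Complex.normSq_eq_norm_sq]
    have : ‖V₁‖ ≠ 0 := hN.ne'
    field_simp
  let Dh : ℝ × ℝ → ℂ := fun p => c * D s p / (s : ℂ)
  let κ : ℝ × ℝ → ℝ := fun p => (Dh p).re
  let τ : ℝ × ℝ → ℝ := fun p => (Dh p).im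
  have cDh : ContDiff ℝ ∞ Dh := (contDiff_const.mul (cD s)).div_const _
  have cκ : ContDiff ℝ ∞ κ := Complex.reCLM.contDiff.comp cDh
  have cτ : ContDiff ℝ ∞ τ := Complex.imCLM.contDiff.comp cDh
  let θ : ℝ := (c * V₂ / (s : ℂ)).re
  let T : ℝ := (c * V₂ / (s : ℂ)).im
  have hcV₂ : c * V₂ / (s : ℂ) = (θ : ℂ) + Complex.I * (T : ℂ) := by
    rw [mul_comm Complex.I]
    exact (Complex.re_add_im _).symm
  have hTabs : 2 * π ≤ |T| := by
    have e1 : T = (conj V₁ * V₂).im / (‖V₁‖ * s) := by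
      have e2 : c * V₂ / (s : ℂ) = (conj V₁ * V₂) / ((‖V₁‖ * s : ℝ) : ℂ) := by
        simp only [c]
        push_cast
        field_simp
      simp only [T]
      rw [e2, Complex.div_ofReal_im]
    rw [e1, abs_div, abs_of_pos (mul_pos hN hs0)]
    exact hT
  have hDh1 : ∀ p, Dh (p + w₁) = Dh p + ((2 * π * k : ℝ) : ℂ) := by
    intro p
    simp only [Dh]
    rw [← hw1, Dw1 s p, mul_add, add_div, ← hV₁, hcV, hNk]
    congr 1
    push_cast
    field_simp
  have hDh2 : ∀ p, Dh (p + w₂) = Dh p + ((θ : ℂ) + Complex.I * (T : ℂ)) := by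
    intro p
    simp only [Dh]
    rw [← hw2, Dw2 s p, mul_add, add_div, ← hV₂, hcV₂]
  have hκ1 : ∀ p, κ (p + w₁) = κ p + 2 * π * k := fun p => by
    simp only [κ, hDh1, Complex.add_re, Complex.ofReal_re]
  have hτ1 : ∀ p, τ (p + w₁) = τ p := fun p => by
    simp only [τ, hDh1, Complex.add_im, Complex.ofReal_im, add_zero]
  have hκ2 : ∀ p, κ (p + w₂) = κ p + θ := fun p => by
    simp only [κ, hDh2]
    simp
  have hτ2 : ∀ p, τ (p + w₂) = τ p + T := fun p => by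
    simp only [τ, hDh2]
    simp
  -- the horizontal curve
  obtain ⟨z₁, z₂, d₁, d₂, c₁, c₂, h₁', h₂', hn, hleg, hspeed, p₁, p₂⟩ :=
    exists_legendrian' T (-θ) hTabs
  -- the radius
  let r : ℝ × ℝ → ℝ := fun p => s * lam p * (1 + v s p)
  have cr : ContDiff ℝ ∞ r := (contDiff_const.mul hlam).mul (contDiff_const.add hsol'.pv.1)
  have hr1 : ∀ p, r (p + w₁) = r p := fun p => by
    have := hsol'.pv.2.1 p
    rw [hw1] at this
    simp only [r, hp₁, this]
  have hr2 : ∀ p, r (p + w₂) = r p := fun p => by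
    have := hsol'.pv.2.2 p
    rw [hw2] at this
    simp only [r, hp₂, this]
  obtain ⟨hΦ, hmetric⟩ := hopf_cone c₁ c₂ h₁' h₂' hn hleg hspeed cr cκ cτ
  refine ⟨_, hΦ, fun p => ?_, fun p => ?_, fun p e f => ?_⟩
  · -- the first period
    have e1 : Complex.exp (Complex.I * (κ (p + w₁) : ℂ)) = Complex.exp (Complex.I * (κ p : ℂ)) := by
      rw [hκ1, exp_I_add_two_pi]
    simp only [hr1, e1, hτ1]
  · -- the second period
    have e1 : Complex.exp (Complex.I * (κ (p + w₂) : ℂ)) * Complex.exp (Complex.I * ((-θ : ℝ) : ℂ)) =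
        Complex.exp (Complex.I * (κ p : ℂ)) := by
      rw [hκ2, ← Complex.exp_add]
      congr 1
      push_cast
      ring
    have e2 : ∀ z : ℂ, (r p : ℂ) * Complex.exp (Complex.I * (κ (p + w₂) : ℂ)) *
        (Complex.exp (Complex.I * ((-θ : ℝ) : ℂ)) * z) =
        (r p : ℂ) * Complex.exp (Complex.I * (κ p : ℂ)) * z := by
      intro z
      rw [← e1]
      ring
    simp only [hr2, hτ2, p₁, p₂, e2]
  · -- the metric
    rw [hmetric p e f]
    set ξ₁ := sX s (v s) (v₁ s) (dx Λ) with hξ₁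
    set ξ₂ := sX s (v s) (v₂ s) (dy Λ) with hξ₂
    -- the derivative of the radius
    have hrd : ∀ e : ℝ × ℝ, fderiv ℝ r p e = lam p * (e.1 * ξ₁ p + e.2 * ξ₂ p) := by
      intro e
      have h3 := line_hasDerivAt hlam p e
      have h4 := line_hasDerivAt hsol'.pv.1 p e
      have h5 := ((h3.const_mul s).fun_mul (h4.const_add 1))
      simp only [zero_smul, add_zero] at h5
      have h6 := fderiv_eq_of_line cr h5
      rw [h6, hlamd p e]
      have h7 := fderiv_apply_eq (v s) p e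
      simp only [smul_eq_mul] at h7
      have h8 : dx (v s) p = v₁ s p := hsol'.dx p
      have h9 : dy (v s) p = v₂ s p := hsol'.dy p
      rw [h7, h8, h9]
      simp only [hξ₁, hξ₂, sX]
      ring
    -- the derivative of the development
    set E := Complex.exp (Complex.I * (ψ s p : ℂ)) with hE
    set Z := zZ (sU (v s)) ξ₁ with hZ
    set P := zP (sU (v s)) ξ₁ ξ₂ with hP
    set Q := zQ (sU (v s)) ξ₁ ξ₂ with hQ
    have hDd : ∀ e : ℝ × ℝ, fderiv ℝ Dh p e =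
        (c * E) * (((e.1 * Z p + e.2 * P p : ℝ) : ℂ) + Complex.I * ((e.2 * Q p : ℝ) : ℂ)) /
          (s : ℂ) := by
      intro e
      have h3 := ((line_hasDerivAt (cD s) p e).const_mul c).div_const (s : ℂ)
      have h4 := fderiv_eq_of_line cDh h3
      rw [h4, fderiv_apply_eq, hDx, hDy]
      simp only [cf, hE, Complex.real_smul]
      push_cast
      ring
    have hκd : ∀ e : ℝ × ℝ, fderiv ℝ κ p e = (fderiv ℝ Dh p e).re := by
      intro e
      have h3 := line_hasDerivAt cDh p e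
      have h4 := Complex.reCLM.hasFDerivAt.comp_hasDerivAt (0:ℝ) h3
      exact fderiv_eq_of_line cκ h4
    have hτd : ∀ e : ℝ × ℝ, fderiv ℝ τ p e = (fderiv ℝ Dh p e).im := by
      intro e
      have h3 := line_hasDerivAt cDh p e
      have h4 := Complex.imCLM.hasFDerivAt.comp_hasDerivAt (0:ℝ) h3
      exact fderiv_eq_of_line cτ h4
    have hU : Complex.normSq (c * E) = 1 := by
      rw [map_mul, hcn, one_mul, hE]
      exact normSq_exp_I _
    rw [hrd e, hrd f, hκd e, hκd f, hτd e, hτd f, hDd e, hDd f, rotated_metric hU]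
    -- the final algebra
    have hW := pos_W hfd.small p
    have hA := pos_A hfd.small p
    have hwp := Real.sqrt_pos.mpr hW
    have hsp := Real.sqrt_pos.mpr hA
    have hup := hfd.upos p
    have hs2 : √(1 - ξ₁ p ^ 2) ^ 2 = 1 - ξ₁ p ^ 2 := Real.sq_sqrt hA.le
    have hw2' : √(1 - ξ₁ p ^ 2 - ξ₂ p ^ 2) ^ 2 = 1 - ξ₁ p ^ 2 - ξ₂ p ^ 2 := Real.sq_sqrt hW.le
    obtain ⟨f1, f2, f3⟩ := frame_algebra hup.ne' hsp.ne' hs2 hw2'
    have eZ : Z p = √(1 - ξ₁ p ^ 2) / sU (v s) p := rfl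
    have eP : P p = -(ξ₁ p * ξ₂ p) / (sU (v s) p * √(1 - ξ₁ p ^ 2)) := rfl
    have eQ : Q p = √(1 - ξ₁ p ^ 2 - ξ₂ p ^ 2) / (sU (v s) p * √(1 - ξ₁ p ^ 2)) := rfl
    rw [← eZ] at f1
    rw [← eZ, ← eP] at f2
    rw [← eP, ← eQ] at f3
    have er : r p = s * lam p * sU (v s) p := rfl
    rw [er]
    have hs' : s ≠ 0 := hs0.ne'
    field_simp
    have key : sU (v s) p ^ 2 * ((e.1 * Z p + e.2 * P p) * (f.1 * Z p + f.2 * P p) +
        e.2 * Q p * (f.2 * Q p)) =
        e.1 * f.1 * (1 - ξ₁ p ^ 2) + (e.1 * f.2 + e.2 * f.1) * (-(ξ₁ p * ξ₂ p)) +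
          e.2 * f.2 * (1 - ξ₂ p ^ 2) := by
      rw [← f1, ← f2, ← f3]
      ring
    linear_combination (lam p ^ 2) * key

end Vale.Agent.Lib.P205
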