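import Vale.Agent.Lib.P205.FourierTwo

/-!
A submultiplicative weight on `ℤ × ℤ`, growing faster than every polynomial,
adapted to a given rapidly decreasing sequence.
-/

open Real
open scoped BigOperators Nat

namespace Vale.Agent.Lib.P205

/-- The running sums of a nonnegative sequence, shifted to be at least one. -/
noncomputable def runM (A : ℕ → ℝ) (j : ℕ) : ℝ := ∑ i ∈ Finset.range (j + 1), (1 + A i)

theorem runM_one_le {A : ℕ → ℝ} (hA : ∀ k, 0 ≤ A k) (j : ℕ) : 1 ≤ runM A j := by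
  unfold runM
  rw [Finset.sum_range_succ']
  have h0 : 0 ≤ ∑ i ∈ Finset.range j, (1 + A (i + 1)) :=
    Finset.sum_nonneg fun i _ => by linarith [hA (i + 1)]
  linarith [hA 0]

theorem runM_le_succ {A : ℕ → ℝ} (hA : ∀ k, 0 ≤ A k) (j : ℕ) : runM A j ≤ runM A (j + 1) := by
  unfold runM
  rw [Finset.sum_range_succ _ (j + 1)]
  linarith [hA (j + 1)]

theorem runM_mono {A : ℕ → ℝ} (hA : ∀ k, 0 ≤ A k) : Monotone (runM A) :=
  monotone_nat_of_le_succ (runM_le_succ hA)

theorem le_runM {A : ℕ → ℝ} (hA : ∀ k, 0 ≤ A k) (j : ℕ) : A j ≤ runM A j := by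
  unfold runM
  rw [Finset.sum_range_succ]
  have h0 : 0 ≤ ∑ i ∈ Finset.range j, (1 + A i) :=
    Finset.sum_nonneg fun i _ => by linarith [hA i]
  linarith

/-- The denominators of the weight series. -/
noncomputable def prodM (A : ℕ → ℝ) (k : ℕ) : ℝ := ∏ j ∈ Finset.range k, runM A (j + 1)

theorem prodM_zero (A : ℕ → ℝ) : prodM A 0 = 1 := by simp [prodM]

theorem prodM_succ (A : ℕ → ℝ) (k : ℕ) : prodM A (k + 1) = prodM A k * runM A (k + 1) := by
  simp [prodM, Finset.prod_range_succ]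

theorem prodM_one_le {A : ℕ → ℝ} (hA : ∀ k, 0 ≤ A k) (k : ℕ) : 1 ≤ prodM A k := by
  induction k with
  | zero => simp [prodM_zero]
  | succ k ih =>
    rw [prodM_succ]
    have := runM_one_le hA (k + 1)
    nlinarith

theorem prodM_pos {A : ℕ → ℝ} (hA : ∀ k, 0 ≤ A k) (k : ℕ) : 0 < prodM A k :=
  lt_of_lt_of_le one_pos (prodM_one_le hA k)

theorem le_prodM {A : ℕ → ℝ} (hA : ∀ k, 0 ≤ A k) (k : ℕ) : A (k + 1) ≤ prodM A (k + 1) := by
  rw [prodM_succ]
  have h1 := le_runM hA (k + 1)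
  have h2 := prodM_one_le hA k
  have h3 := runM_one_le hA (k + 1)
  nlinarith

theorem prodM_mul_le {A : ℕ → ℝ} (hA : ∀ k, 0 ≤ A k) (i j : ℕ) :
    prodM A i * prodM A j ≤ prodM A (i + j) := by
  induction j with
  | zero => simp [prodM_zero]
  | succ j ih =>
    rw [prodM_succ, ← add_assoc, prodM_succ, ← mul_assoc]
    have h1 : runM A (j + 1) ≤ runM A (i + j + 1) := runM_mono hA (by omega)
    have h2 := prodM_pos hA i
    have h3 := prodM_pos hA j
    have h4 := runM_one_le hA (j + 1)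
    have h5 := prodM_pos hA (i + j)
    calc prodM A i * prodM A j * runM A (j + 1)
        ≤ prodM A (i + j) * runM A (j + 1) := mul_le_mul_of_nonneg_right ih (by linarith)
      _ ≤ prodM A (i + j) * runM A (i + j + 1) := mul_le_mul_of_nonneg_left h1 h5.le

/-- The term of the weight series. -/
noncomputable def wTerm (A : ℕ → ℝ) (x : ℝ) (k : ℕ) : ℝ := x ^ k / (k ! * prodM A k)

/-- The weight as a function of a nonnegative real number. -/
noncomputable def wFun (A : ℕ → ℝ) (x : ℝ) : ℝ := ∑' k, wTerm A x k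

theorem wTerm_nonneg {A : ℕ → ℝ} (hA : ∀ k, 0 ≤ A k) {x : ℝ} (hx : 0 ≤ x) (k : ℕ) :
    0 ≤ wTerm A x k := by
  unfold wTerm
  have := prodM_pos hA k
  positivity

theorem wTerm_summable {A : ℕ → ℝ} (hA : ∀ k, 0 ≤ A k) {x : ℝ} (hx : 0 ≤ x) :
    Summable (wTerm A x) := by
  refine Summable.of_nonneg_of_le (wTerm_nonneg hA hx) (fun k => ?_) (Real.summable_pow_div_factorial x)
  unfold wTerm
  have h1 := prodM_one_le hA k
  have hk : (0:ℝ) < k ! := by positivity
  apply div_le_div_of_nonneg_left (by positivity) hk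
  nlinarith

theorem le_wFun {A : ℕ → ℝ} (hA : ∀ k, 0 ≤ A k) {x : ℝ} (hx : 0 ≤ x) (k : ℕ) :
    wTerm A x k ≤ wFun A x :=
  (wTerm_summable hA hx).le_tsum k (fun j _ => wTerm_nonneg hA hx j)

theorem one_le_wFun {A : ℕ → ℝ} (hA : ∀ k, 0 ≤ A k) {x : ℝ} (hx : 0 ≤ x) : 1 ≤ wFun A x := by
  have := le_wFun hA hx 0
  simpa [wTerm, prodM_zero] using this

theorem wFun_zero (A : ℕ → ℝ) : wFun A 0 = 1 := by
  unfold wFun
  rw [tsum_eq_single 0]
  · simp [wTerm, prodM_zero]
  · intro k hk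
    simp [wTerm, hk]

theorem wFun_mono {A : ℕ → ℝ} (hA : ∀ k, 0 ≤ A k) {x y : ℝ} (hx : 0 ≤ x) (hxy : x ≤ y) :
    wFun A x ≤ wFun A y := by
  have hy : 0 ≤ y := hx.trans hxy
  refine (wTerm_summable hA hx).tsum_le_tsum (fun k => ?_) (wTerm_summable hA hy)
  unfold wTerm
  have := prodM_pos hA k
  apply div_le_div_of_nonneg_right (pow_le_pow_left₀ hx hxy k) (by positivity)

/-- Submultiplicativity of the weight. -/
theorem wFun_add_le {A : ℕ → ℝ} (hA : ∀ k, 0 ≤ A k) {x y : ℝ} (hx : 0 ≤ x) (hy : 0 ≤ y) :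
    wFun A (x + y) ≤ wFun A x * wFun A y := by
  have hsx := wTerm_summable hA hx
  have hsy := wTerm_summable hA hy
  have hnx : Summable fun k => ‖wTerm A x k‖ := hsx.norm
  have hny : Summable fun k => ‖wTerm A y k‖ := hsy.norm
  unfold wFun
  rw [tsum_mul_tsum_eq_tsum_sum_antidiagonal_of_summable_norm hnx hny]
  have hsum : Summable fun k => ∑ q ∈ Finset.HasAntidiagonal.antidiagonal k, wTerm A x q.1 * wTerm A y q.2 :=
    summable_norm_sum_mul_antidiagonal_of_summable_norm hnx hny |>.of_norm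
  refine (wTerm_summable hA (add_nonneg hx hy)).tsum_le_tsum (fun k => ?_) hsum
  unfold wTerm
  rw [(Commute.all x y).add_pow' k, Finset.sum_div]
  refine Finset.sum_le_sum fun q hq => ?_
  have hk : q.1 + q.2 = k := Finset.HasAntidiagonal.mem_antidiagonal.mp hq
  subst hk
  have h1 := prodM_mul_le hA q.1 q.2
  have h2 := prodM_pos hA q.1
  have h3 := prodM_pos hA q.2
  have h4 := prodM_pos hA (q.1 + q.2)
  have hch : ((q.1 + q.2).choose q.1 : ℝ) * (q.1 ! * q.2 !) = (q.1 + q.2)! := by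
    have h0 : (q.1 + q.2).choose q.1 * q.1 ! * (q.1 + q.2 - q.1)! = (q.1 + q.2)! :=
      Nat.choose_mul_factorial_mul_factorial (by omega)
    rw [Nat.add_sub_cancel_left, mul_assoc] at h0
    exact_mod_cast h0
  have hf1 : (0:ℝ) < q.1 ! := by positivity
  have hf2 : (0:ℝ) < q.2 ! := by positivity
  have hf3 : (0:ℝ) < (q.1 + q.2)! := by positivity
  have hxy' : 0 ≤ x ^ q.1 * y ^ q.2 := by positivity
  have e1 : ((q.1 + q.2).choose q.1 • (x ^ q.1 * y ^ q.2)) / (((q.1 + q.2)! : ℝ) * prodM A (q.1 + q.2)) =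
      (x ^ q.1 * y ^ q.2) / ((q.1 ! * q.2 ! : ℝ) * prodM A (q.1 + q.2)) := by
    rw [nsmul_eq_mul, ← hch]
    have hc : ((q.1 + q.2).choose q.1 : ℝ) ≠ 0 := by
      have : 0 < (q.1 + q.2).choose q.1 := Nat.choose_pos (by omega)
      positivity
    field_simp
  have e2 : x ^ q.1 / ((q.1 ! : ℝ) * prodM A q.1) * (y ^ q.2 / ((q.2 ! : ℝ) * prodM A q.2)) =
      (x ^ q.1 * y ^ q.2) / ((q.1 ! * q.2 ! : ℝ) * (prodM A q.1 * prodM A q.2)) := by
    field_simp
  rw [e1, e2]
  apply div_le_div_of_nonneg_left hxy' (by positivity)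
  exact mul_le_mul_of_nonneg_left h1 (by positivity)

/-- The weight dominates every polynomial. -/
theorem pow_le_wFun {A : ℕ → ℝ} (hA : ∀ k, 0 ≤ A k) (k : ℕ) :
    ∃ C, 0 < C ∧ ∀ x : ℝ, 0 ≤ x → (1 + x) ^ k ≤ C * wFun A x := by
  refine ⟨∑ i ∈ Finset.range (k + 1), ((k.choose i : ℝ) * (i ! * prodM A i)) + 1, ?_, fun x hx => ?_⟩
  · have : 0 ≤ ∑ i ∈ Finset.range (k + 1), ((k.choose i : ℝ) * (i ! * prodM A i)) :=
      Finset.sum_nonneg fun i _ => by
        have := prodM_pos hA i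
        positivity
    linarith
  · have h1 : (1 + x) ^ k = ∑ i ∈ Finset.range (k + 1), x ^ i * (k.choose i : ℝ) := by
      rw [add_comm, add_pow]
      simp
    have hW := one_le_wFun hA hx
    rw [h1, add_mul, Finset.sum_mul]
    have h2 : ∑ i ∈ Finset.range (k + 1), x ^ i * (k.choose i : ℝ) ≤
        ∑ i ∈ Finset.range (k + 1), (k.choose i : ℝ) * (i ! * prodM A i) * wFun A x := by
      refine Finset.sum_le_sum fun i _ => ?_
      have h3 := le_wFun hA hx i
      have h4 := prodM_pos hA i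
      have hf : (0:ℝ) < i ! := by positivity
      unfold wTerm at h3
      rw [div_le_iff₀ (by positivity)] at h3
      have hc : (0:ℝ) ≤ (k.choose i : ℝ) := by positivity
      calc x ^ i * (k.choose i : ℝ) ≤ (wFun A x * (i ! * prodM A i)) * (k.choose i : ℝ) :=
            mul_le_mul_of_nonneg_right h3 hc
        _ = _ := by ring
    have h5 : 0 ≤ 1 * wFun A x := by linarith
    linarith

/-- The weighted moments of a sequence. -/
noncomputable def moment (d : ℤ × ℤ → ℝ) (k : ℕ) : ℝ := ∑' n, d n * (1 + nrm n) ^ k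

theorem moment_nonneg {d : ℤ × ℤ → ℝ} (hd : ∀ n, 0 ≤ d n) (k : ℕ) : 0 ≤ moment d k :=
  tsum_nonneg fun n => mul_nonneg (hd n) (pow_nonneg (by linarith [nrm_nonneg n]) k)

/-- Summability of a rapidly decreasing sequence against the adapted weight. -/
theorem summable_mul_wFun {d : ℤ × ℤ → ℝ} (hd : ∀ n, 0 ≤ d n)
    (hs : ∀ k : ℕ, Summable fun n => d n * (1 + nrm n) ^ k) :
    Summable fun n => d n * wFun (moment d) (nrm n) := by
  have hA : ∀ k, 0 ≤ moment d k := moment_nonneg hd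
  set A := moment d with hAdef
  let f : ℕ × (ℤ × ℤ) → ℝ := fun q => d q.2 * wTerm A (nrm q.2) q.1
  have hf0 : 0 ≤ f := fun q => mul_nonneg (hd _) (wTerm_nonneg hA (nrm_nonneg _) _)
  have hle : ∀ k n, f (k, n) ≤ (d n * (1 + nrm n) ^ k) / ((k ! : ℝ) * prodM A k) := by
    intro k n
    simp only [f, wTerm]
    have hn := nrm_nonneg n
    have h4 := prodM_pos hA k
    rw [← mul_div_assoc]
    apply div_le_div_of_nonneg_right _ (by positivity)
    apply mul_le_mul_of_nonneg_left _ (hd n)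
    exact pow_le_pow_left₀ hn (by linarith) k
  have hfib : ∀ k, Summable fun n => f (k, n) := fun k =>
    Summable.of_nonneg_of_le (fun n => hf0 _) (hle k) ((hs k).div_const _)
  have hfibsum : ∀ k, ∑' n, f (k, n) ≤ A k / ((k ! : ℝ) * prodM A k) := by
    intro k
    have := (hfib k).tsum_le_tsum (hle k) ((hs k).div_const _)
    rw [tsum_div_const] at this
    exact this
  have hbound : ∀ k, A k / ((k ! : ℝ) * prodM A k) ≤ (A 0 + 1) * (1 / (k ! : ℝ)) := by
    intro k
    have hk : (0:ℝ) < (k ! : ℝ) := by positivity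
    have h4 := prodM_pos hA k
    rcases k with _ | k
    · simp [prodM_zero]
    · have h5 := le_prodM hA k
      have hA0 := hA 0
      rw [mul_one_div, div_le_div_iff₀ (by positivity) hk]
      have h6 : A (k + 1) * ((k + 1)! : ℝ) ≤ prodM A (k + 1) * ((k + 1)! : ℝ) :=
        mul_le_mul_of_nonneg_right h5 hk.le
      nlinarith [mul_nonneg hA0 (mul_nonneg hk.le h4.le)]
  have hexp : Summable fun k : ℕ => (1 : ℝ) / (k ! : ℝ) := by
    simpa using Real.summable_pow_div_factorial 1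
  have hsum : Summable fun k => ∑' n, f (k, n) :=
    Summable.of_nonneg_of_le (fun k => tsum_nonneg fun n => hf0 _)
      (fun k => (hfibsum k).trans (hbound k)) (hexp.mul_left _)
  have hf : Summable f := (summable_prod_of_nonneg hf0).mpr ⟨hfib, hsum⟩
  have hswap : Summable (f ∘ (Equiv.prodComm (ℤ × ℤ) ℕ)) :=
    (Equiv.prodComm (ℤ × ℤ) ℕ).summable_iff.mpr hf
  refine hswap.prod.congr fun n => ?_
  show ∑' k, f (k, n) = _
  simp only [f]
  rw [tsum_mul_left]
  rfl

end Vale.Agent.Lib.P205
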