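import Vale.Agent.Lib.P205.Lattice

/-!
A weighted convolution algebra on `ℤ × ℤ`, folded into the space of summable sequences.
-/

open Real
open scoped ComplexConjugate ENNReal

namespace Vale.Agent.Lib.P205

/-- The Cauchy product of two sequences on `ℤ × ℤ`. -/
noncomputable def cnv {R : Type*} [NormedCommRing R] (c d : ℤ × ℤ → R) (n : ℤ × ℤ) : R :=
  ∑' k, c k * d (n - k)

/-- The reindexing used for the Cauchy product. -/
def cnvEquiv : (ℤ × ℤ) × (ℤ × ℤ) ≃ (ℤ × ℤ) × (ℤ × ℤ) where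
  toFun q := (q.2, q.1 - q.2)
  invFun q := (q.1 + q.2, q.1)
  left_inv q := by simp
  right_inv q := by simp

section Cauchy

variable {R : Type*} [NormedCommRing R] [CompleteSpace R] {c d : ℤ × ℤ → R}

theorem cnv_summable_full (hc : Summable fun n => ‖c n‖) (hd : Summable fun n => ‖d n‖) :
    Summable fun q : (ℤ × ℤ) × (ℤ × ℤ) => ‖c q.2 * d (q.1 - q.2)‖ := by
  have h : Summable fun q : (ℤ × ℤ) × (ℤ × ℤ) => ‖c q.1 * d q.2‖ := hc.mul_norm hd
  have h' : Summable ((fun q : (ℤ × ℤ) × (ℤ × ℤ) => ‖c q.1 * d q.2‖) ∘ cnvEquiv) :=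
    (Equiv.summable_iff cnvEquiv).mpr h
  exact h'

theorem cnv_fiber (hc : Summable fun n => ‖c n‖) (hd : Summable fun n => ‖d n‖) (n : ℤ × ℤ) :
    Summable fun k => ‖c k * d (n - k)‖ :=
  (cnv_summable_full hc hd).prod_factor n

theorem cnv_fiber' (hc : Summable fun n => ‖c n‖) (hd : Summable fun n => ‖d n‖) (n : ℤ × ℤ) :
    Summable fun k => c k * d (n - k) :=
  (cnv_fiber hc hd n).of_norm

theorem cnv_hasSum (hc : Summable fun n => ‖c n‖) (hd : Summable fun n => ‖d n‖) :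
    HasSum (cnv c d) ((∑' n, c n) * ∑' n, d n) := by
  have h0 : Summable fun q : (ℤ × ℤ) × (ℤ × ℤ) => c q.1 * d q.2 :=
    summable_mul_of_summable_norm hc hd
  have h1 : HasSum (fun q : (ℤ × ℤ) × (ℤ × ℤ) => c q.1 * d q.2) ((∑' n, c n) * ∑' n, d n) := by
    rw [tsum_mul_tsum_of_summable_norm hc hd]
    exact h0.hasSum
  have h2' : HasSum ((fun q : (ℤ × ℤ) × (ℤ × ℤ) => c q.1 * d q.2) ∘ cnvEquiv)
      ((∑' n, c n) * ∑' n, d n) :=
    (Equiv.hasSum_iff cnvEquiv).mpr h1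
  have h2 : HasSum (fun q : (ℤ × ℤ) × (ℤ × ℤ) => c q.2 * d (q.1 - q.2))
      ((∑' n, c n) * ∑' n, d n) := h2'
  exact h2.prod_fiberwise fun n => (cnv_fiber' hc hd n).hasSum

end Cauchy

/-- The space of summable sequences on `ℤ × ℤ`. -/
noncomputable abbrev Ax := lp (fun _ : ℤ × ℤ => ℂ) 1

namespace Ax

theorem summable_norm (x : Ax) : Summable fun n => ‖x n‖ := by
  have := (lp.memℓp x).summable (by norm_num)
  simpa using this

theorem norm_eq (x : Ax) : ‖x‖ = ∑' n, ‖x n‖ := by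
  have := lp.norm_eq_tsum_rpow (p := 1) (by norm_num) x
  simpa using this

/-- The element of the space given by a summable sequence. -/
noncomputable def mk (a : ℤ × ℤ → ℂ) (h : Summable fun n => ‖a n‖) : Ax :=
  ⟨a, memℓp_gen (by simpa using h)⟩

@[simp] theorem mk_apply (a : ℤ × ℤ → ℂ) (h : Summable fun n => ‖a n‖) (n : ℤ × ℤ) :
    mk a h n = a n := rfl

theorem norm_mk (a : ℤ × ℤ → ℂ) (h : Summable fun n => ‖a n‖) : ‖mk a h‖ = ∑' n, ‖a n‖ :=
  norm_eq _

@[ext] theorem ext' {x y : Ax} (h : ∀ n, x n = y n) : x = y := lp.ext (funext h)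

@[simp] theorem add_apply (x y : Ax) (n : ℤ × ℤ) : (x + y) n = x n + y n := rfl
@[simp] theorem sub_apply (x y : Ax) (n : ℤ × ℤ) : (x - y) n = x n - y n := rfl
@[simp] theorem neg_apply (x : Ax) (n : ℤ × ℤ) : (-x) n = -x n := rfl
@[simp] theorem zero_apply (n : ℤ × ℤ) : (0 : Ax) n = 0 := rfl
@[simp] theorem smul_apply (a : ℂ) (x : Ax) (n : ℤ × ℤ) : (a • x) n = a * x n := rfl

theorem norm_apply_le (x : Ax) (n : ℤ × ℤ) : ‖x n‖ ≤ ‖x‖ := by
  rw [norm_eq]
  exact (Ax.summable_norm x).le_tsum n (fun j _ => norm_nonneg _)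

/-- Multiplier by a bounded sequence. -/
noncomputable def mlt (s : ℤ × ℤ → ℂ) {K : ℝ} (h : ∀ n, ‖s n‖ ≤ K) (x : Ax) : Ax :=
  mk (fun n => s n * x n) (by
    refine Summable.of_nonneg_of_le (fun n => norm_nonneg _) (fun n => ?_)
      ((Ax.summable_norm x).mul_left K)
    rw [norm_mul]
    exact mul_le_mul_of_nonneg_right (h n) (norm_nonneg _))

@[simp] theorem mlt_apply (s : ℤ × ℤ → ℂ) {K : ℝ} (h : ∀ n, ‖s n‖ ≤ K) (x : Ax) (n : ℤ × ℤ) :
    mlt s h x n = s n * x n := rfl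

theorem norm_mlt_le (s : ℤ × ℤ → ℂ) {K : ℝ} (h : ∀ n, ‖s n‖ ≤ K) (x : Ax) :
    ‖mlt s h x‖ ≤ K * ‖x‖ := by
  rw [norm_eq, norm_eq, ← tsum_mul_left]
  have hs : Summable fun n => ‖mlt s h x n‖ := (Ax.summable_norm (mlt s h x))
  refine hs.tsum_le_tsum (fun n => ?_) ((Ax.summable_norm x).mul_left K)
  rw [mlt_apply, norm_mul]
  exact mul_le_mul_of_nonneg_right (h n) (norm_nonneg _)

theorem mlt_sub (s : ℤ × ℤ → ℂ) {K : ℝ} (h : ∀ n, ‖s n‖ ≤ K) (x y : Ax) :
    mlt s h (x - y) = mlt s h x - mlt s h y := by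
  ext n
  simp [mul_sub]

/-- Reflection and conjugation. -/
noncomputable def stx (x : Ax) : Ax :=
  mk (fun n => conj (x (-n))) (by
    have h := (Equiv.neg (ℤ × ℤ)).summable_iff.mpr (Ax.summable_norm x)
    refine h.congr fun n => ?_
    simp)

@[simp] theorem stx_apply (x : Ax) (n : ℤ × ℤ) : stx x n = conj (x (-n)) := rfl

theorem stx_add (x y : Ax) : stx (x + y) = stx x + stx y := by
  ext n
  simp

theorem stx_sub (x y : Ax) : stx (x - y) = stx x - stx y := by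
  ext n
  simp

theorem stx_stx (x : Ax) : stx (stx x) = x := by
  ext n
  simp

theorem stx_real_smul (a : ℝ) (x : Ax) : stx ((a : ℂ) • x) = (a : ℂ) • stx x := by
  ext n
  simp only [stx_apply, smul_apply, map_mul, Complex.conj_ofReal]

theorem stx_mlt (s : ℤ × ℤ → ℂ) {K : ℝ} (h : ∀ n, ‖s n‖ ≤ K) (hs : ∀ n, conj (s (-n)) = s n)
    (x : Ax) : stx (mlt s h x) = mlt s h (stx x) := by
  ext n
  simp [hs]

end Ax

theorem cnv_real_hasSum (x y : Ax) :
    HasSum (cnv (fun k => ‖x k‖) (fun k => ‖y k‖)) (‖x‖ * ‖y‖) := by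
  have hx' : Summable fun k => ‖(fun k => ‖x k‖) k‖ := by simpa using Ax.summable_norm x
  have hy' : Summable fun k => ‖(fun k => ‖y k‖) k‖ := by simpa using Ax.summable_norm y
  have := cnv_hasSum hx' hy'
  rwa [← Ax.norm_eq, ← Ax.norm_eq] at this

/-- A submultiplicative weight, symmetric, dominating all polynomials. -/
structure Wt where
  W : ℤ × ℤ → ℝ
  one_le : ∀ n, 1 ≤ W n
  map_zero : W 0 = 1
  add_le : ∀ m n, W (m + n) ≤ W m * W n
  neg : ∀ n, W (-n) = W n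
  poly : ∀ k : ℕ, ∃ C, 0 < C ∧ ∀ n, (1 + nrm n) ^ k ≤ C * W n

namespace Wt

variable (G : Wt)

theorem pos (n : ℤ × ℤ) : 0 < G.W n := lt_of_lt_of_le one_pos (G.one_le n)

theorem ne_zero' (n : ℤ × ℤ) : (G.W n : ℂ) ≠ 0 := by
  exact_mod_cast (G.pos n).ne'

/-- The coefficient sequence of an element. -/
noncomputable def coef (x : Ax) (n : ℤ × ℤ) : ℂ := x n / (G.W n : ℂ)

theorem norm_coef (x : Ax) (n : ℤ × ℤ) : ‖G.coef x n‖ = ‖x n‖ / G.W n := by
  unfold coef
  rw [norm_div, Complex.norm_real, Real.norm_eq_abs, abs_of_pos (G.pos n)]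

theorem norm_coef_le (x : Ax) (n : ℤ × ℤ) : ‖G.coef x n‖ ≤ ‖x n‖ := by
  rw [norm_coef]
  exact div_le_self (norm_nonneg _) (G.one_le n)

theorem summable_coef (x : Ax) : Summable fun n => ‖G.coef x n‖ :=
  Summable.of_nonneg_of_le (fun n => norm_nonneg _) (G.norm_coef_le x) (Ax.summable_norm x)

theorem rapid_coef (x : Ax) : Rapid (G.coef x) := by
  intro k
  obtain ⟨C, hC, hk⟩ := G.poly k
  refine Summable.of_nonneg_of_le (fun n => ?_) (fun n => ?_) ((Ax.summable_norm x).mul_left C)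
  · have := nrm_nonneg n
    positivity
  · rw [norm_coef, div_mul_eq_mul_div, div_le_iff₀ (G.pos n)]
    have h1 := hk n
    have h2 := norm_nonneg (x n)
    nlinarith

theorem coef_add (x y : Ax) : G.coef (x + y) = G.coef x + G.coef y := by
  ext n
  simp [coef, add_div]

theorem coef_sub (x y : Ax) : G.coef (x - y) = G.coef x - G.coef y := by
  ext n
  simp [coef, sub_div]

theorem coef_smul (a : ℂ) (x : Ax) : G.coef (a • x) = fun n => a * G.coef x n := by
  ext n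
  simp [coef, mul_div_assoc]

theorem coef_mlt (s : ℤ × ℤ → ℂ) {K : ℝ} (h : ∀ n, ‖s n‖ ≤ K) (x : Ax) :
    G.coef (Ax.mlt s h x) = fun n => s n * G.coef x n := by
  ext n
  simp [coef, mul_div_assoc]

theorem coef_stx (x : Ax) (n : ℤ × ℤ) : G.coef (Ax.stx x) n = conj (G.coef x (-n)) := by
  simp [coef, G.neg]

theorem cnv_le (x y : Ax) (n : ℤ × ℤ) :
    ‖(G.W n : ℂ) * cnv (G.coef x) (G.coef y) n‖ ≤ cnv (fun k => ‖x k‖) (fun k => ‖y k‖) n := by
  have hc := G.summable_coef x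
  have hd := G.summable_coef y
  have hx := (Ax.summable_norm x)
  have hy := (Ax.summable_norm y)
  have hx' : Summable fun k => ‖(fun k => ‖x k‖) k‖ := by simpa using hx
  have hy' : Summable fun k => ‖(fun k => ‖y k‖) k‖ := by simpa using hy
  rw [norm_mul, Complex.norm_real, Real.norm_eq_abs, abs_of_pos (G.pos n)]
  have h1 : ‖cnv (G.coef x) (G.coef y) n‖ ≤ ∑' k, ‖G.coef x k * G.coef y (n - k)‖ :=
    norm_tsum_le_tsum_norm (cnv_fiber hc hd n)
  have h2 : G.W n * ∑' k, ‖G.coef x k * G.coef y (n - k)‖ ≤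
      ∑' k, ‖x k‖ * ‖y (n - k)‖ := by
    rw [← tsum_mul_left]
    refine ((cnv_fiber hc hd n).mul_left _).tsum_le_tsum (fun k => ?_) (cnv_fiber' hx' hy' n)
    rw [norm_mul, norm_coef, norm_coef]
    have h3 : G.W n ≤ G.W k * G.W (n - k) := by
      have := G.add_le k (n - k)
      simpa using this
    have h4 := G.pos k
    have h5 := G.pos (n - k)
    have h6 : 0 ≤ ‖x k‖ * ‖y (n - k)‖ := by positivity
    have e1 : G.W n * (‖x k‖ / G.W k * (‖y (n - k)‖ / G.W (n - k))) =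
        (‖x k‖ * ‖y (n - k)‖) * (G.W n / (G.W k * G.W (n - k))) := by
      field_simp
    rw [e1]
    apply mul_le_of_le_one_right h6
    rw [div_le_one (by positivity)]
    exact h3
  calc G.W n * ‖cnv (G.coef x) (G.coef y) n‖
      ≤ G.W n * ∑' k, ‖G.coef x k * G.coef y (n - k)‖ :=
        mul_le_mul_of_nonneg_left h1 (G.pos n).le
    _ ≤ _ := h2

/-- The weighted convolution product. -/
noncomputable def cv (x y : Ax) : Ax :=
  Ax.mk (fun n => (G.W n : ℂ) * cnv (G.coef x) (G.coef y) n)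
    (Summable.of_nonneg_of_le (fun n => norm_nonneg _) (G.cnv_le x y) (cnv_real_hasSum x y).summable)

theorem cv_apply (x y : Ax) (n : ℤ × ℤ) :
    G.cv x y n = (G.W n : ℂ) * cnv (G.coef x) (G.coef y) n := rfl

theorem coef_cv (x y : Ax) (n : ℤ × ℤ) :
    G.coef (G.cv x y) n = cnv (G.coef x) (G.coef y) n := by
  unfold coef
  rw [cv_apply]
  exact mul_div_cancel_left₀ _ (G.ne_zero' n)

theorem norm_cv_le (x y : Ax) : ‖G.cv x y‖ ≤ ‖x‖ * ‖y‖ := by
  rw [Ax.norm_eq (G.cv x y), ← (cnv_real_hasSum x y).tsum_eq]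
  exact (Ax.summable_norm (G.cv x y)).tsum_le_tsum (G.cnv_le x y) (cnv_real_hasSum x y).summable

theorem cv_sub_left (x x' y : Ax) : G.cv (x - x') y = G.cv x y - G.cv x' y := by
  ext n
  simp only [Ax.sub_apply, cv_apply, ← mul_sub]
  congr 1
  unfold cnv
  rw [← (cnv_fiber' (G.summable_coef x) (G.summable_coef y) n).tsum_sub
    (cnv_fiber' (G.summable_coef x') (G.summable_coef y) n), coef_sub]
  congr 1
  ext k
  simp [sub_mul]

theorem cv_sub_right (x y y' : Ax) : G.cv x (y - y') = G.cv x y - G.cv x y' := by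
  ext n
  simp only [Ax.sub_apply, cv_apply, ← mul_sub]
  congr 1
  unfold cnv
  rw [← (cnv_fiber' (G.summable_coef x) (G.summable_coef y) n).tsum_sub
    (cnv_fiber' (G.summable_coef x) (G.summable_coef y') n), coef_sub]
  congr 1
  ext k
  simp [mul_sub]

theorem cv_diff (x x' y y' : Ax) :
    G.cv x y - G.cv x' y' = G.cv (x - x') y + G.cv x' (y - y') := by
  rw [cv_sub_left, cv_sub_right]
  abel

theorem norm_cv_diff_le (x x' y y' : Ax) :
    ‖G.cv x y - G.cv x' y'‖ ≤ ‖x - x'‖ * ‖y‖ + ‖x'‖ * ‖y - y'‖ := by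
  rw [cv_diff]
  exact (norm_add_le _ _).trans (add_le_add (G.norm_cv_le _ _) (G.norm_cv_le _ _))

theorem stx_cv (x y : Ax) : Ax.stx (G.cv x y) = G.cv (Ax.stx x) (Ax.stx y) := by
  ext n
  rw [Ax.stx_apply, cv_apply, cv_apply, map_mul, Complex.conj_ofReal, G.neg]
  congr 1
  unfold cnv
  rw [Complex.conj_tsum, ← (Equiv.neg (ℤ × ℤ)).tsum_eq]
  congr 1
  ext k
  simp only [Equiv.neg_apply, map_mul, coef_stx]
  congr 3
  abel

end Wt

end Vale.Agent.Lib.P205
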